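import Vale.Agent.Lib.P074.Defs

/-!
Basic facts on the uniform measure `unif K`, and the predicate `IsPot`
(a Brenier map together with a pair of Kantorovich potentials).
-/

open MeasureTheory Set
open scoped ENNReal NNReal

namespace Vale.Agent.Lib.P074

variable {d : ℕ}

theorem isProbabilityMeasure_unif {K : Set (E d)} (h0 : volume K ≠ 0) (h1 : volume K ≠ ⊤) :
    IsProbabilityMeasure (unif K) := by
  refine ⟨?_⟩
  simp only [unif, Measure.smul_apply, Measure.restrict_apply MeasurableSet.univ, univ_inter,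
    smul_eq_mul]
  exact ENNReal.inv_mul_cancel h0 h1

theorem unif_absolutelyContinuous (K : Set (E d)) : unif K ≪ volume := by
  unfold unif
  exact (Measure.absolutelyContinuous_of_le Measure.restrict_le_self).smul_left _

theorem ae_mem_unif {K : Set (E d)} (hK : MeasurableSet K) : ∀ᵐ x ∂(unif K), x ∈ K := by
  unfold unif
  exact Measure.ae_smul_measure (ae_restrict_mem hK) _

theorem integral_unif (K : Set (E d)) (g : E d → ℝ) :
    ∫ x, g x ∂(unif K) = (volume K).toReal⁻¹ * ∫ x in K, g x := by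
  unfold unif
  rw [integral_smul_measure, ENNReal.toReal_inv, smul_eq_mul]

/-- `T` takes values in `Y` and is, `unif K`-almost everywhere, a maximiser of
`y ↦ ⟪x, y⟫ - ψ y` over `Y`, where `φ` is convex, `φ x + ψ y ≥ ⟪x, y⟫` on `E × Y`. -/
structure IsPot (K Y : Set (E d)) (RK RY : ℝ≥0) (T : E d → E d) (φ ψ : E d → ℝ) : Prop where
  meas : Measurable T
  mem : ∀ x, T x ∈ Y
  conv : ConvexOn ℝ univ φ
  lipφ : LipschitzWith RY φ
  lipψ : LipschitzWith RK ψ
  le : ∀ x y, y ∈ Y → inner ℝ x y ≤ φ x + ψ y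
  eq : ∀ᵐ x ∂(unif K), inner ℝ x (T x) = φ x + ψ (T x)

/-- bounded measurable functions are integrable for `unif K` -/
theorem integrable_unif_of_bound {K : Set (E d)} (h0 : volume K ≠ 0) (h1 : volume K ≠ ⊤)
    {g : E d → ℝ} (hg : Measurable g) (M : ℝ) (hM : ∀ᵐ x ∂(unif K), |g x| ≤ M) :
    Integrable g (unif K) := by
  have := isProbabilityMeasure_unif h0 h1
  exact Integrable.of_bound hg.aestronglyMeasurable M (by simpa using hM)

end Vale.Agent.Lib.P074
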