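import Vale.Agent.Lib.P074.PLn
import Vale.Agent.Lib.P074.Basic

/-!
A consequence of Prekopa-Leindler for the Gaussian weight `gw κ x = exp (-κ ‖x‖² / 2)`.

Proof of `cell_ineq`.  Write `ν A = ∫_A gw`, `Δ = E₁ζ - E₀ζ`, `t = κ Δ / (2 ℓ²)`.  Apply
`prekopa_leindler` to (ofReal of)
  `f = 1_{A0} gw exp (-t ζ)`, `g = 1_{A1} gw exp (t ζ)`, `h = 1_{Ah} gw exp (t² ℓ² / (2 κ))`,
using `‖(x+x')/2‖² = ‖x‖²/2 + ‖x'‖²/2 - ‖x-x'‖²/4` and
`(t/2) (ζ x' - ζ x) ≤ (|t| ℓ / 2) r ≤ κ r² / 8 + t² ℓ² / (2 κ)`, `r = ‖x - x'‖`.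
Lower bounds by the tangent line of `exp` (`Real.add_one_le_exp`):
  `∫_{A1} gw exp (t ζ) ≥ ν A1 * exp (t E₁ζ)`, `∫_{A0} gw exp (-t ζ) ≥ ν A0 * exp (-t E₀ζ)`.
Hence `ν Ah ≥ sqrt (ν A0 ν A1) exp (t Δ / 2 - t² ℓ² / (2 κ)) = sqrt (..) exp (κ Δ² / (8 ℓ²))`.
(The measure `unif K` is a constant multiple of `volume.restrict K`; the inequality is
homogeneous of degree one in the measure.)
-/

open MeasureTheory Set
open scoped ENNReal NNReal

namespace Vale.Agent.Lib.P074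

variable {d : ℕ}

/-- Gaussian weight. -/
noncomputable def gw (κ : ℝ) (x : E d) : ℝ := Real.exp (-(κ * ‖x‖ ^ 2 / 2))

lemma ci_gw_cont (κ : ℝ) : Continuous (gw (d := d) κ) := by
  unfold gw; fun_prop

lemma ci_gw_pos (κ : ℝ) (x : E d) : 0 < gw κ x := Real.exp_pos _

lemma ci_setIntegral_unif (K A : Set (E d)) (hA : MeasurableSet A) (hAK : A ⊆ K)
    (g : E d → ℝ) :
    ∫ x in A, g x ∂(unif K) = (volume K).toReal⁻¹ * ∫ x in A, g x := by
  unfold unif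
  rw [Measure.restrict_smul, Measure.restrict_restrict hA, inter_eq_self_of_subset_left hAK,
    integral_smul_measure, ENNReal.toReal_inv, smul_eq_mul]

lemma ci_intOn {K A : Set (E d)} (hK : IsCompact K) (hAK : A ⊆ K)
    (g : E d → ℝ) (hg : Continuous g) : IntegrableOn g A :=
  (hg.continuousOn.integrableOn_compact hK).mono_set hAK

lemma ci_jensen (A : Set (E d)) (w ζ : E d → ℝ) (hw : ∀ x, 0 ≤ w x) (t : ℝ)
    (i1 : IntegrableOn w A) (i2 : IntegrableOn (fun x => ζ x * w x) A)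
    (i3 : IntegrableOn (fun x => w x * Real.exp (t * ζ x)) A)
    (hV : 0 < ∫ x in A, w x) :
    (∫ x in A, w x) * Real.exp (t * ((∫ x in A, ζ x * w x) / ∫ x in A, w x)) ≤
      ∫ x in A, w x * Real.exp (t * ζ x) := by
  set V := ∫ x in A, w x with hVdef
  set W := ∫ x in A, ζ x * w x with hWdef
  set Eζ := W / V with hE
  have key : ∀ x, Real.exp (t * Eζ) * (w x + t * (ζ x * w x) - t * Eζ * w x) ≤
      w x * Real.exp (t * ζ x) := by
    intro x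
    have h1 : t * ζ x - t * Eζ + 1 ≤ Real.exp (t * ζ x - t * Eζ) := Real.add_one_le_exp _
    have h2 : Real.exp (t * ζ x) = Real.exp (t * Eζ) * Real.exp (t * ζ x - t * Eζ) := by
      rw [← Real.exp_add]; ring_nf
    rw [h2]
    have h3 := Real.exp_pos (t * Eζ)
    have h4 : Real.exp (t * Eζ) * (w x * (t * ζ x - t * Eζ + 1)) ≤
        Real.exp (t * Eζ) * (w x * Real.exp (t * ζ x - t * Eζ)) :=
      mul_le_mul_of_nonneg_left (mul_le_mul_of_nonneg_left h1 (hw x)) h3.le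
    calc _ = Real.exp (t * Eζ) * (w x * (t * ζ x - t * Eζ + 1)) := by ring
      _ ≤ _ := h4
      _ = _ := by ring
  have j1 : IntegrableOn (fun x => t * (ζ x * w x)) A := i2.const_mul t
  have j2 : IntegrableOn (fun x => t * Eζ * w x) A := i1.const_mul _
  have j12 : IntegrableOn (fun x => w x + t * (ζ x * w x)) A := i1.add j1
  have hint : ∫ x in A, Real.exp (t * Eζ) * (w x + t * (ζ x * w x) - t * Eζ * w x) =
      Real.exp (t * Eζ) * (V + t * W - t * Eζ * V) := by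
    rw [integral_const_mul, integral_sub j12 j2, integral_add i1 j1,
      integral_const_mul, integral_const_mul]
  have hV' : V + t * W - t * Eζ * V = V := by
    rw [hE]; field_simp; ring
  calc V * Real.exp (t * Eζ)
      = ∫ x in A, Real.exp (t * Eζ) * (w x + t * (ζ x * w x) - t * Eζ * w x) := by
        rw [hint, hV']; ring
    _ ≤ _ := integral_mono ((j12.sub j2).const_mul _) i3 key

/-- the pointwise inequality behind the application of Prekopa-Leindler -/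
lemma ci_pointwise (κ ℓ t : ℝ) (hκ : 0 < κ) (x x' : E d) (a b : ℝ)
    (hab : |b - a| ≤ ℓ * ‖x' - x‖) :
    (-(κ * ‖x‖ ^ 2 / 2) + -t * a) * (1 / 2) + (-(κ * ‖x'‖ ^ 2 / 2) + t * b) * (1 / 2) ≤
      -(κ * ‖(1 / 2 : ℝ) • (x + x')‖ ^ 2 / 2) + t ^ 2 * ℓ ^ 2 / (2 * κ) := by
  have hpar : ‖(1 / 2 : ℝ) • (x + x')‖ ^ 2 = ‖x‖ ^ 2 / 2 + ‖x'‖ ^ 2 / 2 - ‖x' - x‖ ^ 2 / 4 := by
    have h1 := parallelogram_law_with_norm ℝ x' x
    rw [norm_smul, mul_pow, add_comm x x']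
    norm_num
    nlinarith [h1]
  rw [hpar]
  set r := ‖x' - x‖ with hr
  have hr0 : 0 ≤ r := norm_nonneg _
  have h1 : t * (b - a) ≤ |t| * (ℓ * r) := by
    calc t * (b - a) ≤ |t * (b - a)| := le_abs_self _
      _ = |t| * |b - a| := abs_mul _ _
      _ ≤ _ := mul_le_mul_of_nonneg_left hab (abs_nonneg _)
  have h2 : |t| * (ℓ * r) / 2 ≤ κ * r ^ 2 / 8 + t ^ 2 * ℓ ^ 2 / (2 * κ) := by
    have h3 : t ^ 2 = |t| ^ 2 := (sq_abs t).symm
    rw [h3]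
    have h4 : κ * r ^ 2 / 8 + |t| ^ 2 * ℓ ^ 2 / (2 * κ) - |t| * (ℓ * r) / 2 =
        (κ * r / 2 - |t| * ℓ) ^ 2 / (2 * κ) := by
      field_simp
      ring
    have h5 : 0 ≤ (κ * r / 2 - |t| * ℓ) ^ 2 / (2 * κ) := by positivity
    linarith
  linarith

lemma ci_lint (A : Set (E d)) (hA : MeasurableSet A) (F : E d → ℝ) (hF : ∀ x, 0 ≤ F x)
    (hi : IntegrableOn F A) :
    ∫⁻ x, A.indicator (fun x => ENNReal.ofReal (F x)) x = ENNReal.ofReal (∫ x in A, F x) := by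
  rw [lintegral_indicator hA,
    ofReal_integral_eq_lintegral_ofReal hi (Filter.Eventually.of_forall hF)]

lemma ci_vol (K : Set (E d)) (hK : IsCompact K)
    (κ ℓ : ℝ) (hκ : 0 < κ)
    (A0 A1 Ah : Set (E d)) (h0 : MeasurableSet A0) (h1 : MeasurableSet A1)
    (hh : MeasurableSet Ah) (s0 : A0 ⊆ K) (s1 : A1 ⊆ K) (sh : Ah ⊆ K)
    (hmid : ∀ x ∈ A0, ∀ x' ∈ A1, (1 / 2 : ℝ) • (x + x') ∈ Ah)
    (ζ : E d → ℝ) (hζ : Continuous ζ)
    (hlip : ∀ x ∈ A0, ∀ x' ∈ A1, |ζ x' - ζ x| ≤ ℓ * ‖x' - x‖) (t : ℝ) :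
    Real.sqrt (∫ x in A0, gw κ x * Real.exp (-t * ζ x)) *
      Real.sqrt (∫ x in A1, gw κ x * Real.exp (t * ζ x)) ≤
      (∫ x in Ah, gw κ x) * Real.exp (t ^ 2 * ℓ ^ 2 / (2 * κ)) := by
  set F0 : E d → ℝ := fun x => gw κ x * Real.exp (-t * ζ x) with hF0
  set F1 : E d → ℝ := fun x => gw κ x * Real.exp (t * ζ x) with hF1
  set Fh : E d → ℝ := fun x => gw κ x * Real.exp (t ^ 2 * ℓ ^ 2 / (2 * κ)) with hFh
  have c0 : Continuous F0 := (ci_gw_cont κ).mul (by fun_prop)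
  have c1 : Continuous F1 := (ci_gw_cont κ).mul (by fun_prop)
  have ch : Continuous Fh := (ci_gw_cont κ).mul (by fun_prop)
  have p0 : ∀ x, 0 ≤ F0 x := fun x => (mul_pos (ci_gw_pos κ x) (Real.exp_pos _)).le
  have p1 : ∀ x, 0 ≤ F1 x := fun x => (mul_pos (ci_gw_pos κ x) (Real.exp_pos _)).le
  have ph : ∀ x, 0 ≤ Fh x := fun x => (mul_pos (ci_gw_pos κ x) (Real.exp_pos _)).le
  have PL := prekopa_leindler d (A0.indicator fun x => ENNReal.ofReal (F0 x))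
    (A1.indicator fun x => ENNReal.ofReal (F1 x)) (Ah.indicator fun x => ENNReal.ofReal (Fh x))
    ((ENNReal.measurable_ofReal.comp c0.measurable).indicator h0)
    ((ENNReal.measurable_ofReal.comp c1.measurable).indicator h1)
    ((ENNReal.measurable_ofReal.comp ch.measurable).indicator hh) ?_
  · rw [ci_lint A0 h0 F0 p0 (ci_intOn hK s0 F0 c0), ci_lint A1 h1 F1 p1 (ci_intOn hK s1 F1 c1),
      ci_lint Ah hh Fh ph (ci_intOn hK sh Fh ch)] at PL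
    have q0 : 0 ≤ ∫ x in A0, F0 x := integral_nonneg p0
    have q1 : 0 ≤ ∫ x in A1, F1 x := integral_nonneg p1
    have qh : 0 ≤ ∫ x in Ah, Fh x := integral_nonneg ph
    rw [ENNReal.ofReal_rpow_of_nonneg q0 (by norm_num), ENNReal.ofReal_rpow_of_nonneg q1 (by norm_num),
      ← ENNReal.ofReal_mul (by positivity), ENNReal.ofReal_le_ofReal_iff qh] at PL
    rw [Real.sqrt_eq_rpow, Real.sqrt_eq_rpow]
    refine PL.trans (le_of_eq ?_)
    rw [hFh, integral_mul_const]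
  · intro x x'
    by_cases hx : x ∈ A0
    · by_cases hx' : x' ∈ A1
      · rw [indicator_of_mem hx, indicator_of_mem hx', indicator_of_mem (hmid x hx x' hx'),
          ENNReal.ofReal_rpow_of_nonneg (p0 x) (by norm_num),
          ENNReal.ofReal_rpow_of_nonneg (p1 x') (by norm_num),
          ← ENNReal.ofReal_mul (by have := p0 x; positivity)]
        apply ENNReal.ofReal_le_ofReal
        simp only [hF0, hF1, hFh, gw]
        rw [← Real.exp_add, ← Real.exp_add, ← Real.exp_add, ← Real.exp_mul, ← Real.exp_mul,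
          ← Real.exp_add]
        exact Real.exp_le_exp.mpr (ci_pointwise κ ℓ t hκ x x' _ _ (hlip x hx x' hx'))
      · rw [indicator_of_notMem hx']
        simp
    · rw [indicator_of_notMem hx]
      simp

lemma ci_vol_final (K : Set (E d)) (hK : IsCompact K)
    (κ ℓ : ℝ) (hκ : 0 < κ) (hℓ : 0 < ℓ)
    (A0 A1 Ah : Set (E d)) (h0 : MeasurableSet A0) (h1 : MeasurableSet A1)
    (hh : MeasurableSet Ah) (s0 : A0 ⊆ K) (s1 : A1 ⊆ K) (sh : Ah ⊆ K)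
    (hmid : ∀ x ∈ A0, ∀ x' ∈ A1, (1 / 2 : ℝ) • (x + x') ∈ Ah)
    (ζ : E d → ℝ) (hζ : Continuous ζ)
    (hlip : ∀ x ∈ A0, ∀ x' ∈ A1, |ζ x' - ζ x| ≤ ℓ * ‖x' - x‖)
    (p0 : 0 < ∫ x in A0, gw κ x) (p1 : 0 < ∫ x in A1, gw κ x) :
    Real.sqrt ((∫ x in A0, gw κ x) * (∫ x in A1, gw κ x)) *
      (1 + κ * ((∫ x in A1, ζ x * gw κ x) / (∫ x in A1, gw κ x)
        - (∫ x in A0, ζ x * gw κ x) / (∫ x in A0, gw κ x)) ^ 2 / (8 * ℓ ^ 2))
      ≤ ∫ x in Ah, gw κ x := by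
  set V0 := ∫ x in A0, gw κ x with hV0
  set V1 := ∫ x in A1, gw κ x with hV1
  set Vh := ∫ x in Ah, gw κ x with hVh
  set E0 := (∫ x in A0, ζ x * gw κ x) / V0 with hE0
  set E1 := (∫ x in A1, ζ x * gw κ x) / V1 with hE1
  set Δ := E1 - E0 with hΔ
  set t := κ * Δ / (2 * ℓ ^ 2) with ht
  have cg := ci_gw_cont (d := d) κ
  have J1 := ci_jensen A1 (gw κ) ζ (fun x => (ci_gw_pos κ x).le) t (ci_intOn hK s1 _ cg)
    (ci_intOn hK s1 _ (hζ.mul cg)) (ci_intOn hK s1 _ (cg.mul (by fun_prop))) p1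
  have J0 := ci_jensen A0 (gw κ) ζ (fun x => (ci_gw_pos κ x).le) (-t) (ci_intOn hK s0 _ cg)
    (ci_intOn hK s0 _ (hζ.mul cg)) (ci_intOn hK s0 _ (cg.mul (by fun_prop))) p0
  have M := ci_vol K hK κ ℓ hκ A0 A1 Ah h0 h1 hh s0 s1 sh hmid ζ hζ hlip t
  rw [← hV1, ← hE1] at J1
  rw [← hV0, ← hE0] at J0
  have S0 := Real.sqrt_le_sqrt J0
  have S1 := Real.sqrt_le_sqrt J1
  rw [Real.sqrt_mul p0.le, ← Real.exp_half] at S0
  rw [Real.sqrt_mul p1.le, ← Real.exp_half] at S1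
  have M2 : (Real.sqrt V0 * Real.exp (-t * E0 / 2)) * (Real.sqrt V1 * Real.exp (t * E1 / 2)) ≤
      Vh * Real.exp (t ^ 2 * ℓ ^ 2 / (2 * κ)) :=
    (mul_le_mul S0 S1 (by positivity) (Real.sqrt_nonneg _)).trans M
  set s := κ * Δ ^ 2 / (8 * ℓ ^ 2) with hs
  set u := t ^ 2 * ℓ ^ 2 / (2 * κ) with hu
  have hsu : -t * E0 / 2 + t * E1 / 2 = s + u := by
    rw [hs, hu, ht]
    have : E1 = Δ + E0 := by rw [hΔ]; ring
    rw [this]
    field_simp
    ring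
  have M3 : Real.sqrt (V0 * V1) * Real.exp s * Real.exp u ≤ Vh * Real.exp u := by
    refine le_trans (le_of_eq ?_) M2
    rw [Real.sqrt_mul p0.le, mul_assoc, ← Real.exp_add, ← hsu, Real.exp_add]
    ring
  have M4 : Real.sqrt (V0 * V1) * Real.exp s ≤ Vh := le_of_mul_le_mul_right M3 (Real.exp_pos u)
  refine le_trans ?_ M4
  apply mul_le_mul_of_nonneg_left _ (Real.sqrt_nonneg _)
  have := Real.add_one_le_exp s
  linarith

theorem cell_ineq (K : Set (E d)) (hK : IsCompact K) (hvol : volume K ≠ 0)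
    (κ ℓ : ℝ) (hκ : 0 < κ) (hℓ : 0 < ℓ)
    (A0 A1 Ah : Set (E d)) (h0 : MeasurableSet A0) (h1 : MeasurableSet A1)
    (hh : MeasurableSet Ah) (s0 : A0 ⊆ K) (s1 : A1 ⊆ K) (sh : Ah ⊆ K)
    (hmid : ∀ x ∈ A0, ∀ x' ∈ A1, (1 / 2 : ℝ) • (x + x') ∈ Ah)
    (ζ : E d → ℝ) (hζ : Continuous ζ)
    (hlip : ∀ x ∈ A0, ∀ x' ∈ A1, |ζ x' - ζ x| ≤ ℓ * ‖x' - x‖)
    (p0 : 0 < ∫ x in A0, gw κ x ∂(unif K)) (p1 : 0 < ∫ x in A1, gw κ x ∂(unif K)) :
    Real.sqrt ((∫ x in A0, gw κ x ∂(unif K)) * (∫ x in A1, gw κ x ∂(unif K))) *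
      (1 + κ * ((∫ x in A1, ζ x * gw κ x ∂(unif K)) / (∫ x in A1, gw κ x ∂(unif K))
        - (∫ x in A0, ζ x * gw κ x ∂(unif K)) / (∫ x in A0, gw κ x ∂(unif K))) ^ 2
          / (8 * ℓ ^ 2))
      ≤ ∫ x in Ah, gw κ x ∂(unif K) := by
  have hc : 0 < (volume K).toReal⁻¹ :=
    inv_pos.mpr (ENNReal.toReal_pos hvol hK.measure_lt_top.ne)
  rw [ci_setIntegral_unif K A0 h0 s0] at p0 ⊢
  rw [ci_setIntegral_unif K A1 h1 s1] at p1 ⊢
  rw [ci_setIntegral_unif K A0 h0 s0, ci_setIntegral_unif K A1 h1 s1,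
    ci_setIntegral_unif K Ah hh sh]
  set c := (volume K).toReal⁻¹ with hcdef
  have q0 : 0 < ∫ x in A0, gw κ x := by
    by_contra hcon
    exact absurd p0 (not_lt.mpr (mul_nonpos_of_nonneg_of_nonpos hc.le (not_lt.mp hcon)))
  have q1 : 0 < ∫ x in A1, gw κ x := by
    by_contra hcon
    exact absurd p1 (not_lt.mpr (mul_nonpos_of_nonneg_of_nonpos hc.le (not_lt.mp hcon)))
  have main := ci_vol_final K hK κ ℓ hκ hℓ A0 A1 Ah h0 h1 hh s0 s1 sh hmid ζ hζ hlip q0 q1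
  have e1 : Real.sqrt (c * (∫ x in A0, gw κ x) * (c * ∫ x in A1, gw κ x)) =
      c * Real.sqrt ((∫ x in A0, gw κ x) * ∫ x in A1, gw κ x) := by
    rw [show c * (∫ x in A0, gw κ x) * (c * ∫ x in A1, gw κ x) =
      c ^ 2 * ((∫ x in A0, gw κ x) * ∫ x in A1, gw κ x) by ring,
      Real.sqrt_mul (by positivity), Real.sqrt_sq hc.le]
  rw [e1, mul_div_mul_left _ _ hc.ne', mul_div_mul_left _ _ hc.ne', mul_assoc]
  exact mul_le_mul_of_nonneg_left main hc.le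

end Vale.Agent.Lib.P074
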