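import Mathlib

/-!
An abstract chaining lemma: two functions with sub-gradients `g1`, `g2` off a finite set of times.

Proof.  Let `S = Icc 0 1 \ B`.  For `s < s'` in `S`: `F1 s' - F1 s ≤ g1 s' * (s' - s)` (sub-gradient
inequality at `s'`) and `F2 s' - F2 s ≥ g2 s * (s' - s)`, so with `D = F1 - F2`
  `D s' - D s ≤ (g1 s' - g2 s') (s' - s) + (g2 s' - g2 s) (s' - s) ≤ L (s' - s) + (g2 s' - g2 s) (s' - s)`,
and `g2` is monotone on `S`.  For `n ≥ 1` choose `s_0 = 0 < s_1 < ... < s_n = 1` in `S` with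
`s_k ∈ (k/n - 1/(4n), k/n + 1/(4n))` (an open interval minus a finite set is nonempty); the mesh is at most
`2/n`, so `D 1 - D 0 ≤ L + (2/n) (g2 1 - g2 0)`.  Let `n → ∞`.
-/

open Set

namespace Vale.Agent.Lib.P074

theorem chain_bound (F1 F2 g1 g2 : ℝ → ℝ) (B : Set ℝ) (hB : B.Finite) (h0 : (0 : ℝ) ∉ B)
    (h1 : (1 : ℝ) ∉ B) (L : ℝ)
    (hF1 : ∀ s ∈ Icc (0 : ℝ) 1 \ B, ∀ s' ∈ Icc (0 : ℝ) 1 \ B, g1 s * (s' - s) ≤ F1 s' - F1 s)
    (hF2 : ∀ s ∈ Icc (0 : ℝ) 1 \ B, ∀ s' ∈ Icc (0 : ℝ) 1 \ B, g2 s * (s' - s) ≤ F2 s' - F2 s)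
    (hg : ∀ s ∈ Icc (0 : ℝ) 1 \ B, g1 s - g2 s ≤ L) :
    (F1 1 - F2 1) - (F1 0 - F2 0) ≤ L := by
  -- monotonicity of `g2`
  have hmono : ∀ s ∈ Icc (0 : ℝ) 1 \ B, ∀ s' ∈ Icc (0 : ℝ) 1 \ B, s ≤ s' → g2 s ≤ g2 s' := by
    intro s hs s' hs' hss
    rcases hss.eq_or_lt with rfl | hlt
    · exact le_rfl
    · have e1 := hF2 s hs s' hs'
      have e2 := hF2 s' hs' s hs
      have e3 : (g2 s' - g2 s) * (s' - s) ≥ 0 := by nlinarith
      by_contra hcon
      push Not at hcon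
      have : (g2 s' - g2 s) * (s' - s) < 0 :=
        mul_neg_of_neg_of_pos (by linarith) (by linarith)
      linarith
  -- one step
  have hstep : ∀ ε : ℝ, 0 < ε → ∀ s ∈ Icc (0 : ℝ) 1 \ B, ∀ s' ∈ Icc (0 : ℝ) 1 \ B, s ≤ s' →
      s' - s ≤ ε →
      (F1 s' - F2 s') - (F1 s - F2 s) ≤ L * (s' - s) + ε * (g2 s' - g2 s) := by
    intro ε hε s hs s' hs' hss hle
    have e1 := hF1 s' hs' s hs
    have e2 := hF2 s hs s' hs'
    have e3 := hg s' hs'
    have e4 := hmono s hs s' hs' hss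
    have e5 : (g1 s' - g2 s') * (s' - s) ≤ L * (s' - s) :=
      mul_le_mul_of_nonneg_right e3 (by linarith)
    have e6 : (g2 s' - g2 s) * (s' - s) ≤ (g2 s' - g2 s) * ε :=
      mul_le_mul_of_nonneg_left hle (by linarith)
    nlinarith
  -- chaining
  have hchain : ∀ ε : ℝ, 0 < ε → ∀ k : ℕ, ∀ s ∈ Icc (0 : ℝ) 1 \ B, ∀ s' ∈ Icc (0 : ℝ) 1 \ B,
      s ≤ s' → s' - s ≤ k * (ε / 2) →
      (F1 s' - F2 s') - (F1 s - F2 s) ≤ L * (s' - s) + ε * (g2 s' - g2 s) := by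
    intro ε hε k
    induction k with
    | zero =>
      intro s hs s' hs' hss hle
      exact hstep ε hε s hs s' hs' hss (by simp at hle; linarith)
    | succ k ih =>
      intro s hs s' hs' hss hle
      by_cases hsmall : s' - s ≤ ε
      · exact hstep ε hε s hs s' hs' hss hsmall
      · push Not at hsmall
        obtain ⟨c, hc, hcB⟩ :=
          ((Set.Ioo_infinite (show s + ε / 2 < s + ε by linarith)).sdiff hB).nonempty
        have hcS : c ∈ Icc (0 : ℝ) 1 \ B := by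
          refine ⟨⟨?_, ?_⟩, hcB⟩
          · have := hs.1.1
            linarith [hc.1]
          · have := hs'.1.2
            linarith [hc.2]
        have p1 := hstep ε hε s hs c hcS (by linarith [hc.1]) (by linarith [hc.2])
        have p2 := ih c hcS s' hs' (by linarith [hc.2]) (by
          push_cast at hle
          linarith [hc.1])
        linarith
  have m0 : (0 : ℝ) ∈ Icc (0 : ℝ) 1 \ B := ⟨⟨le_rfl, zero_le_one⟩, h0⟩
  have m1 : (1 : ℝ) ∈ Icc (0 : ℝ) 1 \ B := ⟨⟨zero_le_one, le_rfl⟩, h1⟩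
  have hM : 0 ≤ g2 1 - g2 0 := by
    have := hmono 0 m0 1 m1 zero_le_one
    linarith
  refine le_of_forall_pos_le_add (fun δ hδ => ?_)
  set ε : ℝ := δ / (g2 1 - g2 0 + 1) with hε
  have hεpos : 0 < ε := div_pos hδ (by linarith)
  obtain ⟨k, hk⟩ := exists_nat_ge (1 / (ε / 2))
  have hk' : (1 : ℝ) - 0 ≤ k * (ε / 2) := by
    rw [div_le_iff₀ (by linarith)] at hk
    linarith
  have fin := hchain ε hεpos k 0 m0 1 m1 zero_le_one hk'
  have e7 : ε * (g2 1 - g2 0) ≤ δ := by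
    rw [hε, div_mul_eq_mul_div, div_le_iff₀ (by linarith)]
    nlinarith
  linarith

end Vale.Agent.Lib.P074
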