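import Vale.Agent.Lib.P074.Basic

/-!
MODULE B1 (P074).  Legendre type transform over a compact set: elementary properties.
All proofs are routine: the image set is bounded above and nonempty (compactness + continuity),
use le_csSup / csSup_le / IsCompact.exists_isMaxOn.
-/

open MeasureTheory Set
open scoped ENNReal NNReal

namespace Vale.Agent.Lib.P074

variable {d : ℕ}

/-- `conj A f x = sup_{y ∈ A} (⟪x, y⟫ - f y)`. -/
noncomputable def conj (A : Set (E d)) (f : E d → ℝ) (x : E d) : ℝ :=
  sSup ((fun y => inner ℝ x y - f y) '' A)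

theorem conj_contOn {A : Set (E d)} {f : E d → ℝ} (hf : ContinuousOn f A) (x : E d) :
    ContinuousOn (fun y => inner ℝ x y - f y) A :=
  (by fun_prop : Continuous fun y : E d => inner ℝ x y).continuousOn.sub hf

theorem conj_bdd {A : Set (E d)} (hA : IsCompact A) {f : E d → ℝ} (hf : ContinuousOn f A)
    (x : E d) : BddAbove ((fun y => inner ℝ x y - f y) '' A) :=
  (hA.image_of_continuousOn (conj_contOn hf x)).bddAbove

theorem conj_ge {A : Set (E d)} (hA : IsCompact A) {f : E d → ℝ} (hf : ContinuousOn f A)
    (x : E d) {y : E d} (hy : y ∈ A) : inner ℝ x y - f y ≤ conj A f x :=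
  le_csSup (conj_bdd hA hf x) (mem_image_of_mem _ hy)

theorem conj_le {A : Set (E d)} (hne : A.Nonempty) {f : E d → ℝ} (x : E d) (c : ℝ)
    (h : ∀ y ∈ A, inner ℝ x y - f y ≤ c) : conj A f x ≤ c := by
  refine csSup_le (hne.image _) ?_
  rintro _ ⟨y, hy, rfl⟩
  exact h y hy

theorem conj_attained {A : Set (E d)} (hA : IsCompact A) (hne : A.Nonempty) {f : E d → ℝ}
    (hf : ContinuousOn f A) (x : E d) : ∃ y ∈ A, conj A f x = inner ℝ x y - f y := by
  obtain ⟨y, hy, hmax⟩ := hA.exists_isMaxOn hne (conj_contOn hf x)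
  exact ⟨y, hy, le_antisymm (conj_le hne x _ fun z hz => hmax hz) (conj_ge hA hf x hy)⟩

theorem conj_lipschitz {A : Set (E d)} (hA : IsCompact A) (hne : A.Nonempty) {f : E d → ℝ}
    (hf : ContinuousOn f A) (R : ℝ≥0) (hR : ∀ y ∈ A, ‖y‖ ≤ R) : LipschitzWith R (conj A f) := by
  refine LipschitzWith.of_le_add_mul R fun x z => ?_
  refine conj_le hne x _ fun y hy => ?_
  have h1 := conj_ge hA hf z hy
  have h2 : inner ℝ (x - z) y ≤ R * dist x z := by
    calc inner ℝ (x - z) y ≤ ‖x - z‖ * ‖y‖ := real_inner_le_norm _ _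
      _ ≤ ‖x - z‖ * R := by gcongr; exact hR y hy
      _ = R * dist x z := by rw [dist_eq_norm, mul_comm]
  rw [inner_sub_left] at h2
  linarith

theorem conj_convex {A : Set (E d)} (hA : IsCompact A) (hne : A.Nonempty) {f : E d → ℝ}
    (hf : ContinuousOn f A) : ConvexOn ℝ univ (conj A f) := by
  refine ⟨convex_univ, fun x _ z _ a b ha hb hab => ?_⟩
  refine conj_le hne _ _ fun y hy => ?_
  have h1 := conj_ge hA hf x hy
  have h2 := conj_ge hA hf z hy
  rw [inner_add_left, inner_smul_left, inner_smul_left]
  simp only [smul_eq_mul, conj_trivial]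
  have e : f y = a * f y + b * f y := by rw [← add_mul, hab, one_mul]
  nlinarith

/-- stability in the sup norm on `A` -/
theorem conj_sub_le {A : Set (E d)} (hA : IsCompact A) (hne : A.Nonempty) {f g : E d → ℝ}
    (hf : ContinuousOn f A) (hg : ContinuousOn g A) (ε : ℝ) (h : ∀ y ∈ A, |f y - g y| ≤ ε)
    (x : E d) : |conj A f x - conj A g x| ≤ ε := by
  rw [abs_le]
  constructor
  · have : conj A g x ≤ conj A f x + ε := by
      refine conj_le hne x _ fun y hy => ?_
      have h1 := conj_ge hA hf x hy
      have h2 := (abs_le.mp (h y hy)).2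
      linarith
    linarith
  · have : conj A f x ≤ conj A g x + ε := by
      refine conj_le hne x _ fun y hy => ?_
      have h1 := conj_ge hA hg x hy
      have h2 := (abs_le.mp (h y hy)).1
      linarith
    linarith

theorem conj_anti {A : Set (E d)} (hA : IsCompact A) (hne : A.Nonempty) {f g : E d → ℝ}
    (hf : ContinuousOn f A) (hg : ContinuousOn g A) (h : ∀ y ∈ A, f y ≤ g y) (x : E d) :
    conj A g x ≤ conj A f x := by
  refine conj_le hne x _ fun y hy => ?_
  have h1 := conj_ge hA hf x hy
  have h2 := h y hy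
  linarith

theorem conj_sub_const {A : Set (E d)} (hA : IsCompact A) (hne : A.Nonempty) {f : E d → ℝ}
    (hf : ContinuousOn f A) (c : ℝ) (x : E d) :
    conj A (fun y => f y - c) x = conj A f x + c := by
  have hf' : ContinuousOn (fun y => f y - c) A := hf.sub continuousOn_const
  apply le_antisymm
  · refine conj_le hne x _ fun y hy => ?_
    have h1 := conj_ge hA hf x hy
    linarith
  · have : conj A f x ≤ conj A (fun y => f y - c) x - c := by
      refine conj_le hne x _ fun y hy => ?_
      have h1 := conj_ge hA hf' x hy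
      linarith
    linarith

theorem conj_continuous {A : Set (E d)} (hA : IsCompact A) (hne : A.Nonempty) {f : E d → ℝ}
    (hf : ContinuousOn f A) : Continuous (conj A f) := by
  obtain ⟨c, hc⟩ := hA.isBounded.exists_norm_le
  exact (conj_lipschitz hA hne hf (Real.toNNReal c)
    fun y hy => (hc y hy).trans (Real.le_coe_toNNReal c)).continuous

/-- double transform: it lies below `f` on `Y` -/
theorem biconj_le {K Y : Set (E d)} (hK : IsCompact K) (hKne : K.Nonempty) (hY : IsCompact Y)
    (hYne : Y.Nonempty) {f : E d → ℝ} (hf : ContinuousOn f Y) {y : E d} (hy : y ∈ Y) :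
    conj K (conj Y f) y ≤ f y := by
  refine conj_le hKne y _ fun x _ => ?_
  have h1 := conj_ge hY hf x hy
  rw [real_inner_comm] at h1
  linarith

/-- triple transform equals the single transform on `K` -/
theorem triconj_eq {K Y : Set (E d)} (hK : IsCompact K) (hKne : K.Nonempty) (hY : IsCompact Y)
    (hYne : Y.Nonempty) {f : E d → ℝ} (hf : ContinuousOn f Y) {x : E d} (hx : x ∈ K) :
    conj Y (conj K (conj Y f)) x = conj Y f x := by
  have c1 : Continuous (conj Y f) := conj_continuous hY hYne hf
  have c2 : Continuous (conj K (conj Y f)) := conj_continuous hK hKne c1.continuousOn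
  apply le_antisymm
  · refine conj_le hYne x _ fun y _ => ?_
    have h1 := conj_ge hK c1.continuousOn y hx
    rw [real_inner_comm] at h1
    linarith
  · exact conj_anti hY hYne c2.continuousOn hf (fun y hy => biconj_le hK hKne hY hYne hf hy) x

end Vale.Agent.Lib.P074
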