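import Vale.Agent.Lib.P074.SecondDiff

/-!
MODULE M2 (P074).  The core inequality.

ROUTE.  Write D x = φ x + ψ (S x) - ⟪x, S x⟫ (≥ 0 a.e.).  For a.e. x (S x ∈ Y and equality for T x)
and every vector h:
   φ (x + h) ≥ ⟪x + h, S x⟫ - ψ (S x) = φ x - D x + ⟪h, S x⟫          (IsPot.le at y = S x)
   φ (x - h) ≥ ⟪x - h, T x⟫ - ψ (T x) = φ x - ⟪h, T x⟫                (IsPot.le at y = T x, IsPot.eq)
so  φ (x+h) + φ (x-h) - 2 φ x ≥ ⟪h, S x - T x⟫ - D x.   The left side is even in h; with
h = ± r e_i this gives  secdiff_i x ≥ r |(S x - T x) i| - D x.  Sum over i, use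
‖z‖ ≤ ∑ i |z i|, integrate over unif K (integral_unif) and use second_diff_integral_le with
‖r e_i‖ = r ≤ 1.  Integrability: everything is measurable and bounded a.e.
(integrable_unif_of_bound; φ, ψ are continuous, x ∈ K a.e., S x, T x ∈ Y a.e.).
-/

open MeasureTheory Set
open scoped ENNReal NNReal

namespace Vale.Agent.Lib.P074

variable {d : ℕ}

/-- the geometric constant of `K` -/
noncomputable def geoC (K : Set (E d)) : ℝ :=
  (volume (Metric.cthickening 2 K)).toReal / (volume K).toReal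

theorem norm_le_sum_abs (z : E d) : ‖z‖ ≤ ∑ i, |z i| := by
  have h : z = ∑ i, z i • (EuclideanSpace.single i (1 : ℝ) : E d) := by
    ext j
    simp [Finset.sum_apply, Pi.single_apply]
  calc ‖z‖ = ‖∑ i, z i • (EuclideanSpace.single i (1 : ℝ) : E d)‖ := by rw [← h]
    _ ≤ ∑ i, ‖z i • (EuclideanSpace.single i (1 : ℝ) : E d)‖ := norm_sum_le _ _
    _ = ∑ i, |z i| := by
        refine Finset.sum_congr rfl fun i _ => ?_
        rw [norm_smul]
        simp

theorem pointwise_secdiff {K Y : Set (E d)} {RK RY : ℝ≥0} {T : E d → E d} {φ ψ : E d → ℝ}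
    (hP : IsPot K Y RK RY T φ ψ) (x s : E d) (hs : s ∈ Y)
    (heq : inner ℝ x (T x) = φ x + ψ (T x)) (h : E d) :
    inner ℝ h (s - T x) - (φ x + ψ s - inner ℝ x s) ≤ φ (x + h) + φ (x - h) - 2 * φ x := by
  have h1 := hP.le (x + h) s hs
  have h2 := hP.le (x - h) (T x) (hP.mem x)
  rw [inner_add_left] at h1
  rw [inner_sub_left] at h2
  rw [inner_sub_right]
  linarith

theorem pointwise_coord {K Y : Set (E d)} {RK RY : ℝ≥0} {T : E d → E d} {φ ψ : E d → ℝ}
    (hP : IsPot K Y RK RY T φ ψ) (x s : E d) (hs : s ∈ Y)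
    (heq : inner ℝ x (T x) = φ x + ψ (T x)) (r : ℝ) (hr : 0 ≤ r) (i : Fin d) :
    r * |(s - T x) i| - (φ x + ψ s - inner ℝ x s) ≤
      φ (x + r • EuclideanSpace.single i (1 : ℝ)) + φ (x - r • EuclideanSpace.single i (1 : ℝ))
        - 2 * φ x := by
  have a := pointwise_secdiff hP x s hs heq (r • EuclideanSpace.single i (1 : ℝ))
  have b := pointwise_secdiff hP x s hs heq (-(r • EuclideanSpace.single i (1 : ℝ)))
  have e : ∀ z : E d, inner ℝ (r • (EuclideanSpace.single i (1 : ℝ) : E d)) z = r * z i := by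
    intro z
    rw [inner_smul_left, EuclideanSpace.inner_single_left]
    simp
  rw [e] at a
  rw [inner_neg_left, e, sub_neg_eq_add, ← sub_eq_add_neg] at b
  rcases abs_cases ((s - T x) i) with ⟨h1, _⟩ | ⟨h1, _⟩ <;> rw [h1] <;> linarith

theorem core_ineq (K Y : Set (E d)) (hK : IsCompact K) (hvol : volume K ≠ 0) (RK RY : ℝ≥0)
    (hKb : ∀ x ∈ K, ‖x‖ ≤ RK) (hYb : ∀ y ∈ Y, ‖y‖ ≤ RY)
    (T : E d → E d) (φ ψ : E d → ℝ) (hP : IsPot K Y RK RY T φ ψ)
    (S : E d → E d) (hS : Measurable S) (hSY : ∀ᵐ x ∂(unif K), S x ∈ Y)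
    (r : ℝ) (hr0 : 0 < r) (hr1 : r ≤ 1) :
    r * ∫ x, ‖S x - T x‖ ∂(unif K) ≤
      d * ∫ x, (φ x + ψ (S x) - inner ℝ x (S x)) ∂(unif K) + d * RY * r ^ 2 * geoC K := by
  have htop : volume K ≠ ⊤ := hK.measure_lt_top.ne
  have hprob := isProbabilityMeasure_unif hvol htop
  have hKae := ae_mem_unif (d := d) hK.measurableSet
  set sd : Fin d → E d → ℝ := fun i x =>
    φ (x + r • EuclideanSpace.single i (1 : ℝ)) + φ (x - r • EuclideanSpace.single i (1 : ℝ))
        - 2 * φ x with hsd
  have hφc : Continuous φ := hP.lipφ.continuous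
  have hψc : Continuous ψ := hP.lipψ.continuous
  have hnorm : ∀ i : Fin d, ‖r • (EuclideanSpace.single i (1 : ℝ) : E d)‖ = r := by
    intro i
    rw [norm_smul]
    simp [abs_of_pos hr0]
  -- integrability
  have hI1 : Integrable (fun x => ‖S x - T x‖) (unif K) := by
    refine integrable_unif_of_bound hvol htop (hS.sub hP.meas).norm (RY + RY) ?_
    filter_upwards [hSY] with x hx
    rw [abs_of_nonneg (norm_nonneg _)]
    exact (norm_sub_le _ _).trans (add_le_add (hYb _ hx) (hYb _ (hP.mem x)))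
  have hI2 : ∀ i, Integrable (sd i) (unif K) := by
    intro i
    refine integrable_unif_of_bound hvol htop (by fun_prop) (RY * r + RY * r) ?_
    refine Filter.Eventually.of_forall fun x => ?_
    have a := hP.lipφ.dist_le_mul (x + r • EuclideanSpace.single i (1 : ℝ)) x
    have b := hP.lipφ.dist_le_mul (x - r • EuclideanSpace.single i (1 : ℝ)) x
    rw [Real.dist_eq, dist_eq_norm] at a b
    have e1 : x + r • (EuclideanSpace.single i (1 : ℝ) : E d) - x = r • EuclideanSpace.single i (1 : ℝ) := by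
      abel
    have e2 : x - r • (EuclideanSpace.single i (1 : ℝ) : E d) - x = -(r • EuclideanSpace.single i (1 : ℝ)) := by
      abel
    rw [e1, hnorm] at a
    rw [e2, norm_neg, hnorm] at b
    simp only [hsd]
    rw [abs_le] at a b ⊢
    constructor <;> linarith [a.1, a.2, b.1, b.2]
  have hI3 : Integrable (fun x => φ x + ψ (S x) - inner ℝ x (S x)) (unif K) := by
    refine integrable_unif_of_bound hvol htop
      ((hφc.measurable.add (hψc.measurable.comp hS)).sub (measurable_id.inner hS))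
      ((|φ 0| + RY * RK) + (|ψ 0| + RK * RY) + RK * RY) ?_
    filter_upwards [hSY, hKae] with x hx hxK
    have a := hP.lipφ.dist_le_mul x 0
    have b := hP.lipψ.dist_le_mul (S x) 0
    rw [Real.dist_eq, dist_zero_right] at a b
    have c := abs_real_inner_le_norm x (S x)
    have n1 := hKb x hxK
    have n2 := hYb _ hx
    have a' : |φ x - φ 0| ≤ RY * RK := a.trans (by gcongr)
    have b' : |ψ (S x) - ψ 0| ≤ RK * RY := b.trans (by gcongr)
    have c' : |inner ℝ x (S x)| ≤ RK * RY := c.trans (by gcongr)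
    have p0 := abs_nonneg (φ 0)
    have p1 := le_abs_self (φ 0)
    have p2 := neg_abs_le (φ 0)
    have q1 := le_abs_self (ψ 0)
    have q2 := neg_abs_le (ψ 0)
    rw [abs_le] at a' b' c' ⊢
    constructor <;> linarith [a'.1, a'.2, b'.1, b'.2, c'.1, c'.2]
  -- pointwise
  have hpt : ∀ᵐ x ∂(unif K), r * ‖S x - T x‖ ≤
      ∑ i, sd i x + d * (φ x + ψ (S x) - inner ℝ x (S x)) := by
    filter_upwards [hSY, hP.eq] with x hx heq
    have h1 : ∀ i : Fin d, r * |(S x - T x) i| ≤ sd i x + (φ x + ψ (S x) - inner ℝ x (S x)) := by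
      intro i
      have := pointwise_coord hP x (S x) hx heq r hr0.le i
      simp only [hsd]
      linarith
    calc r * ‖S x - T x‖ ≤ r * ∑ i, |(S x - T x) i| := by
          gcongr
          exact norm_le_sum_abs _
      _ = ∑ i, r * |(S x - T x) i| := Finset.mul_sum _ _ _
      _ ≤ ∑ i, (sd i x + (φ x + ψ (S x) - inner ℝ x (S x))) := Finset.sum_le_sum fun i _ => h1 i
      _ = ∑ i, sd i x + d * (φ x + ψ (S x) - inner ℝ x (S x)) := by
          rw [Finset.sum_add_distrib]
          simp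
          ring
  have hIs : Integrable (fun x => ∑ i, sd i x) (unif K) := integrable_finsetSum _ fun i _ => hI2 i
  have hint : ∫ x, r * ‖S x - T x‖ ∂(unif K) ≤
      ∫ x, (∑ i, sd i x + d * (φ x + ψ (S x) - inner ℝ x (S x))) ∂(unif K) :=
    integral_mono_ae (hI1.const_mul r) (hIs.add (hI3.const_mul d)) hpt
  rw [integral_const_mul, integral_add hIs (hI3.const_mul d),
    integral_const_mul, integral_finsetSum _ fun i _ => hI2 i] at hint
  have hsdi : ∀ i, ∫ x, sd i x ∂(unif K) ≤ RY * r ^ 2 * geoC K := by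
    intro i
    rw [integral_unif]
    have := second_diff_integral_le K hK φ RY hP.lipφ hP.conv (r • EuclideanSpace.single i (1 : ℝ))
      (by rw [hnorm]; exact hr1)
    rw [hnorm] at this
    have hpos : 0 ≤ (volume K).toReal⁻¹ := by positivity
    calc (volume K).toReal⁻¹ * ∫ x in K, sd i x
        ≤ (volume K).toReal⁻¹ * (RY * r ^ 2 * (volume (Metric.cthickening 2 K)).toReal) := by
          gcongr
      _ = RY * r ^ 2 * geoC K := by
          unfold geoC
          ring
  have hsum : ∑ i, ∫ x, sd i x ∂(unif K) ≤ d * (RY * r ^ 2 * geoC K) := by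
    calc ∑ i, ∫ x, sd i x ∂(unif K) ≤ ∑ _i : Fin d, RY * r ^ 2 * geoC K :=
          Finset.sum_le_sum fun i _ => hsdi i
      _ = d * (RY * r ^ 2 * geoC K) := by simp
  linarith

end Vale.Agent.Lib.P074
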