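import Vale.Agent.Lib.P074.Defs

open MeasureTheory Set
open scoped ENNReal NNReal

namespace Vale.Agent.Lib.P074

theorem enorm_sq_eq {d : ℕ} (z : E d) : ‖z‖ₑ ^ 2 = ENNReal.ofReal (‖z‖ ^ 2) := by
  rw [← ofReal_norm, ENNReal.ofReal_pow (norm_nonneg z)]

theorem isOptMap_of_argmax {d : ℕ} (ρ : Measure (E d)) [IsProbabilityMeasure ρ]
    (T : E d → E d) (hT : Measurable T) (A : Set (E d)) (hA : MeasurableSet A) (M : ℝ)
    (hM : ∀ y ∈ A, ‖y‖ ≤ M)
    (hTA : ∀ x, T x ∈ A) (hmax : ∀ x, ∀ y ∈ A, inner ℝ x y ≤ inner ℝ x (T x)) :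
    IsOptMap ρ (ρ.map T) T := by
  refine ⟨hT, rfl, fun S hS hmap => ?_⟩
  have hSA : ∀ᵐ x ∂ρ, S x ∈ A := by
    have h1 : (ρ.map T) Aᶜ = 0 := by
      rw [Measure.map_apply hT hA.compl]
      have : T ⁻¹' Aᶜ = ∅ := by
        ext x; simp [hTA x]
      simp [this]
    rw [← hmap, Measure.map_apply hS hA.compl] at h1
    exact (measure_eq_zero_iff_ae_notMem.mp h1).mono (fun x hx => by simpa using hx)
  have m : Measurable (fun y : E d => ‖y‖ₑ ^ 2) := by fun_prop
  have hmom : ∫⁻ x, ‖S x‖ₑ ^ 2 ∂ρ = ∫⁻ x, ‖T x‖ₑ ^ 2 ∂ρ := by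
    rw [← lintegral_map m hS, ← lintegral_map m hT, hmap]
  have hfin : ∫⁻ x, ‖T x‖ₑ ^ 2 ∂ρ ≠ ⊤ := by
    have : ∫⁻ x, ‖T x‖ₑ ^ 2 ∂ρ ≤ ∫⁻ _, ENNReal.ofReal (M ^ 2) ∂ρ := by
      refine lintegral_mono (fun x => ?_)
      rw [enorm_sq_eq]
      exact ENNReal.ofReal_le_ofReal (pow_le_pow_left₀ (norm_nonneg _) (hM _ (hTA x)) 2)
    refine ne_top_of_le_ne_top ?_ this
    simp
  have hpt : ∀ᵐ x ∂ρ, ‖x - T x‖ₑ ^ 2 + ‖S x‖ₑ ^ 2 ≤ ‖x - S x‖ₑ ^ 2 + ‖T x‖ₑ ^ 2 := by
    filter_upwards [hSA] with x hx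
    simp only [enorm_sq_eq]
    rw [← ENNReal.ofReal_add (by positivity) (by positivity),
      ← ENNReal.ofReal_add (by positivity) (by positivity)]
    refine ENNReal.ofReal_le_ofReal ?_
    have := hmax x _ hx
    rw [norm_sub_sq_real, norm_sub_sq_real]
    linarith
  have h2 := lintegral_mono_ae hpt
  rw [lintegral_add_right _ (show Measurable fun x => ‖S x‖ₑ ^ 2 from m.comp hS),
    lintegral_add_right _ (show Measurable fun x => ‖T x‖ₑ ^ 2 from m.comp hT), hmom] at h2
  exact (ENNReal.add_le_add_iff_right hfin).mp h2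

theorem volume_box {d : ℕ} (a b : Fin d → ℝ) :
    volume {x : E d | ∀ i, x i ∈ Icc (a i) (b i)} = ∏ i, ENNReal.ofReal (b i - a i) := by
  have h : {x : E d | ∀ i, x i ∈ Icc (a i) (b i)} = (@WithLp.ofLp 2 (Fin d → ℝ)) ⁻¹' (Icc a b) := by
    ext x
    simp only [mem_ofPred_eq, mem_preimage, mem_Icc, Pi.le_def]
    exact forall_and
  rw [h, (PiLp.volume_preserving_ofLp (Fin d)).measure_preimage measurableSet_Icc.nullMeasurableSet,
    Real.volume_Icc_pi]

theorem measurableSet_box {d : ℕ} (a b : Fin d → ℝ) :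
    MeasurableSet {x : E d | ∀ i, x i ∈ Icc (a i) (b i)} := by
  have h : {x : E d | ∀ i, x i ∈ Icc (a i) (b i)} = ⋂ i, (fun x : E d => x i) ⁻¹' Icc (a i) (b i) := by
    ext x
    simp
  rw [h]
  exact MeasurableSet.iInter fun i => (by fun_prop : Measurable fun x : E d => x i) measurableSet_Icc

/-- The unit cube centred at the origin. -/
def cube (d : ℕ) : Set (E d) := {x | ∀ i, x i ∈ Icc (-(1 / 2) : ℝ) (1 / 2)}

theorem volume_cube (d : ℕ) : volume (cube d) = 1 := by
  unfold cube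
  rw [volume_box (fun _ => -(1 / 2)) (fun _ => 1 / 2)]
  norm_num

theorem isCompact_cube (d : ℕ) : IsCompact (cube d) := by
  have h : cube d = (EuclideanSpace.equiv (Fin d) ℝ).toHomeomorph ⁻¹'
      (Set.pi univ fun _ => Icc (-(1 / 2) : ℝ) (1 / 2)) := by
    ext x
    simp [cube, Pi.le_def, forall_and]
  rw [h, Homeomorph.isCompact_preimage]
  exact isCompact_univ_pi fun _ => isCompact_Icc

theorem convex_cube (d : ℕ) : Convex ℝ (cube d) := by
  intro x hx y hy a b ha hb hab i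
  have hx := hx i
  have hy := hy i
  simp only [mem_Icc, PiLp.add_apply, PiLp.smul_apply, smul_eq_mul] at *
  constructor <;> nlinarith

theorem interior_cube_nonempty (d : ℕ) : (interior (cube d)).Nonempty := by
  refine ⟨0, mem_interior.mpr ⟨Metric.ball 0 (1 / 2), ?_, Metric.isOpen_ball, by simp⟩⟩
  intro x hx i
  have h1 : ‖x i‖ ≤ ‖x‖ := PiLp.norm_apply_le x i
  have h2 : ‖x‖ < 1 / 2 := by simpa using hx
  rw [Real.norm_eq_abs] at h1
  have := abs_le.mp (h1.trans h2.le)
  exact ⟨this.1, this.2⟩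

theorem measurableSet_cube (d : ℕ) : MeasurableSet (cube d) := (isCompact_cube d).measurableSet

theorem unif_cube (d : ℕ) : unif (cube d) = volume.restrict (cube d) := by
  simp [unif, volume_cube]

instance (d : ℕ) : IsProbabilityMeasure (unif (cube d)) := by
  rw [unif_cube]
  exact ⟨by simp [volume_cube]⟩


section example_maps

variable {d : ℕ} (i0 i1 : Fin d)

/-- the standard basis vector -/
noncomputable def bas (i : Fin d) : E d := EuclideanSpace.single i (1 : ℝ)

theorem inner_bas (x : E d) (i : Fin d) : inner ℝ x (bas i) = x i := by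
  simp [bas, EuclideanSpace.inner_single_right]

/-- The map sending `x` to the maximiser of the inner product with `x` among
the three points `s e_{i1}`, `e_{i0}`, `-e_{i0}`. -/
noncomputable def Tmap (s : ℝ) (x : E d) : E d :=
  if |x i0| ≤ s * x i1 then s • bas i1 else if 0 < x i0 then bas i0 else - bas i0

theorem measurable_coord (i : Fin d) : Measurable (fun x : E d => x i) := by fun_prop

theorem measurable_Tmap (s : ℝ) : Measurable (Tmap i0 i1 s) := by
  unfold Tmap
  refine Measurable.ite ?_ measurable_const (Measurable.ite ?_ measurable_const measurable_const)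
  · exact measurableSet_le (measurable_coord i0).abs ((measurable_coord i1).const_mul s)
  · exact measurableSet_lt measurable_const (measurable_coord i0)

/-- the three target points -/
def pts (s : ℝ) : Set (E d) := {s • bas i1, bas i0, - bas i0}

theorem Tmap_mem (s : ℝ) (x : E d) : Tmap i0 i1 s x ∈ pts i0 i1 s := by
  unfold Tmap pts
  split_ifs <;> simp

theorem Tmap_argmax (s : ℝ) (x : E d) (y : E d) (hy : y ∈ pts i0 i1 s) :
    inner ℝ x y ≤ inner ℝ x (Tmap i0 i1 s x) := by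
  have h1 : inner ℝ x (s • bas i1) = s * x i1 := by rw [inner_smul_right, inner_bas]
  have h2 : inner ℝ x (- bas i0) = - x i0 := by rw [inner_neg_right, inner_bas]
  have h3 := inner_bas x i0
  unfold Tmap
  rcases hy with rfl | rfl | rfl <;> split_ifs with ha hb <;>
    simp only [h1, h2, h3] <;>
    first
      | exact le_rfl
      | (have := le_abs_self (x i0); have := neg_abs_le (x i0); linarith)
      | (have := abs_of_pos hb; linarith)
      | (have := abs_of_nonpos (not_lt.mp hb); linarith)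

theorem norm_bas (i : Fin d) : ‖bas i‖ = 1 := by simp [bas]

theorem pts_norm_le (s : ℝ) (hs : |s| ≤ 1) (y : E d) (hy : y ∈ pts i0 i1 s) : ‖y‖ ≤ 1 := by
  rcases hy with rfl | rfl | rfl
  · rw [norm_smul, norm_bas]; simpa using hs
  · rw [norm_bas]
  · rw [norm_neg, norm_bas]

/-- reflection in the coordinate `i1` -/
noncomputable def refl1 : E d ≃ₗᵢ[ℝ] E d :=
  LinearIsometryEquiv.piLpCongrRight 2
    (fun i => if i = i1 then LinearIsometryEquiv.neg ℝ else LinearIsometryEquiv.refl ℝ ℝ)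

theorem refl1_apply (x : E d) (i : Fin d) : refl1 i1 x i = if i = i1 then - x i else x i := by
  unfold refl1
  rw [LinearIsometryEquiv.piLpCongrRight_apply]
  by_cases h : i = i1 <;> simp [h]

theorem refl1_bas_ne (h : i0 ≠ i1) : refl1 i1 (bas i0) = bas i0 := by
  ext i
  rw [refl1_apply]
  by_cases hi : i = i1
  · subst hi
    simp [bas, h.symm]
  · simp [hi]

theorem refl1_bas_self : refl1 i1 (bas i1) = - bas i1 := by
  ext i
  rw [refl1_apply]
  by_cases hi : i = i1
  · subst hi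
    simp [bas]
  · simp [hi, bas]

theorem Tmap_neg (h : i0 ≠ i1) (s : ℝ) (x : E d) :
    Tmap i0 i1 (-s) x = refl1 i1 (Tmap i0 i1 s (refl1 i1 x)) := by
  unfold Tmap
  have e0 : refl1 i1 x i0 = x i0 := by rw [refl1_apply]; simp [h]
  have e1 : refl1 i1 x i1 = - x i1 := by rw [refl1_apply]; simp
  rw [e0, e1]
  have e2 : -s * x i1 = s * - x i1 := by ring
  rw [e2]
  split_ifs
  · rw [map_smul, refl1_bas_self]; simp
  · rw [refl1_bas_ne i0 i1 h]
  · rw [map_neg, refl1_bas_ne i0 i1 h]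

theorem refl1_preimage_cube : refl1 i1 ⁻¹' cube d = cube d := by
  ext x
  simp only [cube, mem_preimage, mem_ofPred_eq, refl1_apply, mem_Icc]
  refine forall_congr' fun i => ?_
  by_cases hi : i = i1
  · simp only [hi, if_true]
    constructor <;> rintro ⟨a, b⟩ <;> constructor <;> linarith
  · simp [hi]

theorem map_refl1_unif : (unif (cube d)).map (refl1 i1) = unif (cube d) := by
  rw [unif_cube]
  have h := (refl1 i1).measurePreserving.restrict_preimage (measurableSet_cube d)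
  rw [refl1_preimage_cube] at h
  exact h.map_eq

end example_maps

theorem W2_map_le {d : ℕ} (μ : Measure (E d)) (R : E d → E d) (hR : Measurable R) :
    W2 μ (μ.map R) ≤ (∫⁻ y, ‖y - R y‖ₑ ^ 2 ∂μ) ^ (1 / 2 : ℝ) := by
  unfold W2
  refine ENNReal.rpow_le_rpow ?_ (by norm_num)
  have hg : Measurable (fun y : E d => (y, R y)) := measurable_id.prodMk hR
  refine iInf_le_of_le (μ.map (fun y => (y, R y))) (iInf_le_of_le ⟨?_, ?_⟩ ?_)
  · rw [Measure.map_map measurable_fst hg]
    exact Measure.map_id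
  · rw [Measure.map_map measurable_snd hg]
    rfl
  · rw [lintegral_map (by fun_prop) hg]

section estimates

variable {d : ℕ} (i0 i1 : Fin d)

theorem map_Tmap_neg (h : i0 ≠ i1) (s : ℝ) :
    (unif (cube d)).map (Tmap i0 i1 (-s)) = ((unif (cube d)).map (Tmap i0 i1 s)).map (refl1 i1) := by
  have hR : Measurable (refl1 i1 : E d → E d) := (refl1 i1).continuous.measurable
  have e : Tmap i0 i1 (-s) = (refl1 i1 ∘ Tmap i0 i1 s) ∘ refl1 i1 := by
    funext x
    exact Tmap_neg i0 i1 h s x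
  rw [e, ← Measure.map_map (hR.comp (measurable_Tmap i0 i1 s)) hR, map_refl1_unif,
    Measure.map_map hR (measurable_Tmap i0 i1 s)]

/-- the slab `|x_{i0}| ≤ ε/2` of the cube -/
def slab (ε : ℝ) : Set (E d) :=
  {x | ∀ i, x i ∈ Icc (if i = i0 then -(ε / 2) else -(1 / 2) : ℝ) (if i = i0 then ε / 2 else 1 / 2)}

theorem volume_slab (ε : ℝ) : volume (slab i0 ε) = ENNReal.ofReal ε := by
  unfold slab
  rw [volume_box, Fintype.prod_eq_single i0]
  · simp only [if_true]
    congr 1
    ring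
  · intro i hi
    simp only [hi, if_false]
    norm_num

/-- a box inside the cell of the small atom -/
def sbox (ε : ℝ) : Set (E d) :=
  {x | ∀ i, x i ∈ Icc (if i = i0 then -(ε / 4) else if i = i1 then 1 / 4 else -(1 / 2) : ℝ)
    (if i = i0 then ε / 4 else 1 / 2)}

theorem volume_sbox (h : i0 ≠ i1) (ε : ℝ) (hε : 0 ≤ ε) :
    volume (sbox i0 i1 ε) = ENNReal.ofReal (ε / 8) := by
  unfold sbox
  rw [volume_box, Fintype.prod_eq_mul i0 i1 h]
  · simp only [if_true, h.symm, if_false]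
    rw [← ENNReal.ofReal_mul (by linarith)]
    congr 1
    ring
  · rintro i ⟨hi0, hi1⟩
    simp only [hi0, hi1, if_false]
    norm_num

theorem sbox_subset_cube (ε : ℝ) (hε : 0 ≤ ε) (hε1 : ε ≤ 1) : sbox i0 i1 ε ⊆ cube d := by
  intro x hx i
  have := hx i
  simp only [mem_Icc] at this ⊢
  obtain ⟨a, b⟩ := this
  split_ifs at a b <;> constructor <;> linarith

theorem cost_le (h : i0 ≠ i1) (ε : ℝ) (hε : 0 ≤ ε) :
    ∫⁻ y, ‖y - refl1 i1 y‖ₑ ^ 2 ∂((unif (cube d)).map (Tmap i0 i1 ε)) ≤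
      ENNReal.ofReal (4 * ε ^ 2) * ENNReal.ofReal ε := by
  have hR : Measurable (refl1 i1 : E d → E d) := (refl1 i1).continuous.measurable
  rw [lintegral_map (by fun_prop) (measurable_Tmap i0 i1 ε), unif_cube]
  have hslab : MeasurableSet (slab (d := d) i0 ε) := measurableSet_box _ _
  calc ∫⁻ x in cube d, ‖Tmap i0 i1 ε x - refl1 i1 (Tmap i0 i1 ε x)‖ₑ ^ 2
      ≤ ∫⁻ x in cube d, (slab i0 ε).indicator (fun _ => ENNReal.ofReal (4 * ε ^ 2)) x := by
        refine setLIntegral_mono' (measurableSet_cube d) (fun x hx => ?_)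
        unfold Tmap
        split_ifs with ha hb
        · have hmem : x ∈ slab i0 ε := by
            intro i
            by_cases hi : i = i0
            · subst hi
              simp only [if_true, mem_Icc]
              have h1 := (hx i1).2
              have h2 : |x i| ≤ ε / 2 := by nlinarith
              have := abs_le.mp h2
              exact ⟨this.1, this.2⟩
            · simp only [hi, if_false]
              exact hx i
          rw [indicator_of_mem hmem, map_smul, refl1_bas_self, enorm_sq_eq]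
          refine ENNReal.ofReal_le_ofReal ?_
          have : ε • bas i1 - ε • -bas i1 = (2 * ε) • bas i1 := by
            rw [smul_neg, sub_neg_eq_add, ← add_smul]; ring_nf
          rw [this, norm_smul, norm_bas, Real.norm_eq_abs, mul_one, sq_abs]
          nlinarith
        · rw [refl1_bas_ne i0 i1 h]; simp
        · rw [map_neg, refl1_bas_ne i0 i1 h]; simp
    _ ≤ ∫⁻ x, (slab i0 ε).indicator (fun _ => ENNReal.ofReal (4 * ε ^ 2)) x :=
        setLIntegral_le_lintegral _ _
    _ = ENNReal.ofReal (4 * ε ^ 2) * ENNReal.ofReal ε := by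
        rw [lintegral_indicator_const hslab, volume_slab]

theorem dist_ge (h : i0 ≠ i1) (ε : ℝ) (hε : 0 < ε) (hε1 : ε ≤ 1) :
    ENNReal.ofReal (ε / 8) ^ (1 / 2 : ℝ) ≤
      eLpNorm (fun x => Tmap i0 i1 ε x - Tmap i0 i1 (-ε) x) 2 (unif (cube d)) := by
  rw [eLpNorm_eq_lintegral_rpow_enorm_toReal (by norm_num) (by norm_num)]
  simp only [ENNReal.toReal_ofNat, ENNReal.rpow_ofNat]
  refine ENNReal.rpow_le_rpow ?_ (by norm_num)
  have hbox : MeasurableSet (sbox (d := d) i0 i1 ε) := measurableSet_box _ _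
  rw [unif_cube]
  calc ENNReal.ofReal (ε / 8) = ∫⁻ x in cube d, (sbox i0 i1 ε).indicator (fun _ => 1) x := by
        rw [lintegral_indicator_const hbox, one_mul, Measure.restrict_apply hbox,
          inter_eq_left.mpr (sbox_subset_cube i0 i1 ε hε.le hε1), volume_sbox i0 i1 h ε hε.le]
    _ ≤ ∫⁻ x in cube d, ‖Tmap i0 i1 ε x - Tmap i0 i1 (-ε) x‖ₑ ^ 2 := by
        refine lintegral_mono (fun x => ?_)
        by_cases hx : x ∈ sbox i0 i1 ε
        · rw [indicator_of_mem hx]
          have h0 := hx i0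
          have h1 := hx i1
          simp only [if_true, h.symm, if_false, mem_Icc] at h0 h1
          have habs : |x i0| ≤ ε / 4 := abs_le.mpr ⟨h0.1, h0.2⟩
          have c1 : |x i0| ≤ ε * x i1 := by nlinarith
          have c2 : ¬ |x i0| ≤ -ε * x i1 := by
            have := abs_nonneg (x i0)
            nlinarith
          have key : ∀ z : E d, |z i0| = 1 → (1 : ℝ≥0∞) ≤ ‖z‖ₑ ^ 2 := by
            intro z hz
            rw [enorm_sq_eq]
            have h3 : ‖z i0‖ ≤ ‖z‖ := PiLp.norm_apply_le z i0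
            rw [Real.norm_eq_abs, hz] at h3
            rw [← ENNReal.ofReal_one]
            refine ENNReal.ofReal_le_ofReal ?_
            nlinarith
          unfold Tmap
          rw [if_pos c1, if_neg c2]
          apply key
          split_ifs <;> simp [bas, h, h.symm]
        · rw [indicator_of_notMem hx]
          exact zero_le

end estimates

theorem real_contra (α : ℝ) (hα : 1 / 3 < α) (C : ℝ) (hC : 0 ≤ C) :
    ∃ t : ℝ, 0 < t ∧ t ≤ 1 ∧ C * ((4 * t ^ 2 * t) ^ (1 / 2 : ℝ)) ^ α < (t / 8) ^ (1 / 2 : ℝ) := by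
  set γ : ℝ := 3 * α - 1 with hγ
  have hγ0 : 0 < γ := by rw [hγ]; linarith
  set D : ℝ := 8 * C ^ 2 * (4 : ℝ) ^ α + 1 with hD
  have h4 : 0 < (4 : ℝ) ^ α := Real.rpow_pos_of_pos (by norm_num) α
  have hD1 : 1 ≤ D := by rw [hD]; nlinarith [sq_nonneg C]
  have hD0 : 0 < D := by linarith
  set t : ℝ := D ^ (-(1 / γ)) with ht
  have ht0 : 0 < t := Real.rpow_pos_of_pos hD0 _
  have ht1 : t ≤ 1 := by
    rw [ht]
    exact Real.rpow_le_one_of_one_le_of_nonpos hD1 (by
      have : 0 < 1 / γ := by positivity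
      linarith)
  have htγ : t ^ γ = D⁻¹ := by
    rw [ht, ← Real.rpow_mul hD0.le]
    have : -(1 / γ) * γ = -1 := by field_simp
    rw [this, Real.rpow_neg_one]
  refine ⟨t, ht0, ht1, ?_⟩
  refine lt_of_pow_lt_pow_left₀ 2 (by positivity) ?_
  have hX : (((4 * t ^ 2 * t) ^ (1 / 2 : ℝ)) ^ α) ^ 2 = (4 * t ^ 2 * t) ^ α := by
    rw [← Real.rpow_natCast, ← Real.rpow_mul (by positivity), ← Real.rpow_mul (by positivity)]
    congr 1
    push_cast
    ring
  have hY : ((t / 8) ^ (1 / 2 : ℝ)) ^ 2 = t / 8 := by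
    rw [← Real.rpow_natCast, ← Real.rpow_mul (by positivity)]
    norm_num
  have hZ : (4 * t ^ 2 * t) ^ α = (4 : ℝ) ^ α * (t * D⁻¹) := by
    have e1 : 4 * t ^ 2 * t = 4 * t ^ (3 : ℝ) := by
      rw [show (3 : ℝ) = ((3 : ℕ) : ℝ) by norm_num, Real.rpow_natCast]; ring
    rw [e1, Real.mul_rpow (by norm_num) (by positivity), ← Real.rpow_mul ht0.le]
    have e2 : 3 * α = 1 + γ := by rw [hγ]; ring
    rw [e2, Real.rpow_add ht0, Real.rpow_one, htγ]
  rw [mul_pow, hX, hY, hZ]
  have h5 : 8 * C ^ 2 * (4 : ℝ) ^ α < D := by rw [hD]; linarith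
  have h6 : C ^ 2 * ((4 : ℝ) ^ α * (t * D⁻¹)) = (8 * C ^ 2 * (4 : ℝ) ^ α) / D * (t / 8) := by
    field_simp
  rw [h6]
  have h7 : (8 * C ^ 2 * (4 : ℝ) ^ α) / D < 1 := by rw [div_lt_one hD0]; exact h5
  nlinarith

theorem not_admissible {d : ℕ} (i0 i1 : Fin d) (h : i0 ≠ i1) (α : ℝ) (hα : 1 / 3 < α) :
    ¬ Admissible d α := by
  intro hadm
  obtain ⟨C, hC⟩ := hadm (cube d) (isCompact_cube d) (convex_cube d) (interior_cube_nonempty d)
    (Metric.closedBall 0 1) (isCompact_closedBall 0 1) ⟨0, by simp⟩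
  obtain ⟨t, ht0, ht1, hlt⟩ := real_contra α hα C C.2
  have hsupp : ∀ s : ℝ, |s| ≤ 1 →
      ((unif (cube d)).map (Tmap i0 i1 s)) (Metric.closedBall 0 1)ᶜ = 0 := by
    intro s hs
    rw [Measure.map_apply (measurable_Tmap i0 i1 s) Metric.isClosed_closedBall.measurableSet.compl]
    have : Tmap i0 i1 s ⁻¹' (Metric.closedBall 0 1)ᶜ = ∅ := by
      ext x
      simp only [mem_preimage, mem_compl_iff, Metric.mem_closedBall, dist_zero_right,
        mem_empty_iff_false, iff_false, not_not]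
      exact pts_norm_le i0 i1 s hs _ (Tmap_mem i0 i1 s x)
    rw [this]
    simp
  have hopt : ∀ s : ℝ, |s| ≤ 1 →
      IsOptMap (unif (cube d)) ((unif (cube d)).map (Tmap i0 i1 s)) (Tmap i0 i1 s) := by
    intro s hs
    refine isOptMap_of_argmax _ _ (measurable_Tmap i0 i1 s) (pts i0 i1 s) ?_ 1
      (pts_norm_le i0 i1 s hs) (Tmap_mem i0 i1 s) (Tmap_argmax i0 i1 s)
    unfold pts
    exact (Set.toFinite _).measurableSet
  have hs1 : |t| ≤ 1 := by rw [abs_of_pos ht0]; exact ht1
  have hs2 : |-t| ≤ 1 := by rw [abs_neg]; exact hs1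
  have hprob : ∀ s : ℝ, IsProbabilityMeasure ((unif (cube d)).map (Tmap i0 i1 s)) := fun s =>
    Measure.isProbabilityMeasure_map (measurable_Tmap i0 i1 s).aemeasurable
  have main := hC _ _ (hprob t) (hprob (-t)) (hsupp t hs1) (hsupp (-t) hs2) _ _ (hopt t hs1)
    (hopt (-t) hs2)
  have hR : Measurable (refl1 i1 : E d → E d) := (refl1 i1).continuous.measurable
  have hW : W2 ((unif (cube d)).map (Tmap i0 i1 t)) ((unif (cube d)).map (Tmap i0 i1 (-t))) ≤
      (ENNReal.ofReal (4 * t ^ 2) * ENNReal.ofReal t) ^ (1 / 2 : ℝ) := by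
    rw [map_Tmap_neg i0 i1 h]
    exact (W2_map_le _ _ hR).trans (ENNReal.rpow_le_rpow (cost_le i0 i1 h t ht0.le) (by norm_num))
  have hα0 : 0 ≤ α := by linarith
  have h2 := (dist_ge i0 i1 h t ht0 ht1).trans (main.trans
    (mul_le_mul_right (ENNReal.rpow_le_rpow hW hα0) _))
  rw [← ENNReal.ofReal_mul (by positivity), ENNReal.ofReal_rpow_of_pos (by positivity),
    ENNReal.ofReal_rpow_of_pos (by positivity), ENNReal.ofReal_rpow_of_pos (by positivity),
    ← ENNReal.ofReal_coe_nnreal, ← ENNReal.ofReal_mul (NNReal.coe_nonneg C),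
    ENNReal.ofReal_le_ofReal_iff (by positivity)] at h2
  exact absurd h2 (not_le.mpr hlt)

end Vale.Agent.Lib.P074
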