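import Vale.Agent.Lib.P074.Conj

/-!
MODULE B3 (P074).  Derivative of the transform in the direction ξ at a point with a unique maximiser.

ROUTE.  g y = ⟪x, y⟫ - ψ y, m = conj Y ψ x = g ystar.  For every t:
  lower bound  conj Y (ψ + t ξ) x ≥ m - t ξ ystar          (conj_ge at ystar)
  upper bound  conj Y (ψ + t ξ) x = g y_t - t ξ y_t ≤ m - t ξ y_t   (conj_attained gives y_t ∈ Y).
So the quotient q t = (conj Y (ψ + t ξ) x - m) / t lies between -ξ ystar and -ξ y_t (order depends on
the sign of t), and |q t + ξ ystar| ≤ |ξ y_t - ξ ystar|.  Claim y_t → ystar: given η > 0 the set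
Y ∩ {‖y - ystar‖ ≥ η} is compact and g < m on it (uniqueness), so g ≤ m - δ there for some δ > 0 (or the
set is empty); ξ is bounded by M on Y; from g y_t - t ξ y_t ≥ m - t ξ ystar we get g y_t ≥ m - 2 |t| M,
so 2 |t| M < δ forces ‖y_t - ystar‖ < η.  Conclude with continuity of ξ at ystar.
-/

open MeasureTheory Set Filter
open scoped ENNReal NNReal Topology

namespace Vale.Agent.Lib.P074

variable {d : ℕ}

theorem danskin (Y : Set (E d)) (hY : IsCompact Y) (ψ ξ : E d → ℝ) (hψ : Continuous ψ)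
    (hξ : Continuous ξ) (x ystar : E d) (hy : ystar ∈ Y)
    (hmax : conj Y ψ x = inner ℝ x ystar - ψ ystar)
    (huniq : ∀ y ∈ Y, conj Y ψ x = inner ℝ x y - ψ y → y = ystar) :
    Tendsto (fun t : ℝ => (conj Y (fun y => ψ y + t * ξ y) x - conj Y ψ x) / t) (𝓝[≠] 0)
      (𝓝 (-ξ ystar)) := by
  have hne : Y.Nonempty := ⟨ystar, hy⟩
  obtain ⟨M, hM⟩ := hY.exists_bound_of_continuousOn hξ.continuousOn
  have hM0 : 0 ≤ M := (norm_nonneg _).trans (hM ystar hy)
  set m := conj Y ψ x with hm
  have hct : ∀ t : ℝ, ContinuousOn (fun y => ψ y + t * ξ y) Y := fun t =>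
    (hψ.add (continuous_const.mul hξ)).continuousOn
  rw [Metric.tendsto_nhds]
  intro ε hε
  -- continuity of xi at ystar
  obtain ⟨η, hη, hηξ⟩ := Metric.continuous_iff.mp hξ ystar ε hε
  -- gap away from ystar
  have hgap : ∃ δ > 0, ∀ y ∈ Y, η ≤ dist y ystar → inner ℝ x y - ψ y ≤ m - δ := by
    set Z : Set (E d) := Y ∩ {y | η ≤ dist y ystar} with hZ
    have hZc : IsCompact Z := hY.inter_right (isClosed_le continuous_const (by fun_prop))
    rcases Z.eq_empty_or_nonempty with hemp | hZne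
    · refine ⟨1, one_pos, fun y hyY hyd => ?_⟩
      have : y ∈ Z := ⟨hyY, hyd⟩
      rw [hemp] at this
      exact absurd this (notMem_empty y)
    · obtain ⟨z, hz, hzmax⟩ := hZc.exists_isMaxOn hZne
        (conj_contOn (f := ψ) hψ.continuousOn x : ContinuousOn _ Z)
      have hzlt : inner ℝ x z - ψ z < m := by
        refine lt_of_le_of_ne (conj_ge hY hψ.continuousOn x hz.1) fun heq => ?_
        have := huniq z hz.1 heq.symm
        have h2 : η ≤ dist z ystar := hz.2
        rw [this, dist_self] at h2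
        linarith
      refine ⟨m - (inner ℝ x z - ψ z), by linarith, fun y hyY hyd => ?_⟩
      have : inner ℝ x y - ψ y ≤ inner ℝ x z - ψ z := hzmax (⟨hyY, hyd⟩ : y ∈ Z)
      linarith
  obtain ⟨δ, hδ, hδg⟩ := hgap
  have hsmall : ∀ᶠ t : ℝ in 𝓝[≠] 0, |t| * (2 * M + 1) < δ ∧ t ≠ 0 := by
    have h1 : ∀ᶠ t : ℝ in 𝓝 0, |t| * (2 * M + 1) < δ := by
      have : Tendsto (fun t : ℝ => |t| * (2 * M + 1)) (𝓝 0) (𝓝 (|(0 : ℝ)| * (2 * M + 1))) :=
        (continuous_abs.mul continuous_const).tendsto 0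
      rw [abs_zero, zero_mul] at this
      exact this.eventually (gt_mem_nhds hδ)
    filter_upwards [nhdsWithin_le_nhds h1, self_mem_nhdsWithin] with t ht1 ht2
    exact ⟨ht1, ht2⟩
  filter_upwards [hsmall] with t ht
  obtain ⟨ht1, ht0⟩ := ht
  obtain ⟨yt, hytY, hyt⟩ := conj_attained hY hne (hct t) x
  have hlow := conj_ge hY (hct t) x hy
  have hup := conj_ge hY hψ.continuousOn x hytY
  -- yt is close to ystar
  have hclose : dist yt ystar < η := by
    by_contra hcon
    have h1 := hδg yt hytY (not_lt.mp hcon)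
    have b1 := hM yt hytY
    have b2 := hM ystar hy
    rw [Real.norm_eq_abs] at b1 b2
    have c1 : |t * ξ yt| ≤ |t| * M := by rw [abs_mul]; gcongr
    have c2 : |t * ξ ystar| ≤ |t| * M := by rw [abs_mul]; gcongr
    have d1 := abs_le.mp c1
    have d2 := abs_le.mp c2
    have := abs_nonneg t
    nlinarith
  have hξclose := hηξ yt hclose
  rw [Real.dist_eq] at hξclose ⊢
  -- the quotient lies between
  set q := (conj Y (fun y => ψ y + t * ξ y) x - m) / t with hq
  have hqt : q * t = conj Y (fun y => ψ y + t * ξ y) x - m := by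
    rw [hq]; field_simp
  have l1 : -(t * ξ ystar) ≤ q * t := by rw [hqt]; linarith
  have l2 : q * t ≤ -(t * ξ yt) := by rw [hqt]; linarith
  have habs := abs_lt.mp hξclose
  rw [abs_lt]
  rcases lt_or_gt_of_ne ht0 with hneg | hpos
  · constructor <;> nlinarith
  · constructor <;> nlinarith

end Vale.Agent.Lib.P074
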