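import Vale.Agent.Lib.P074.Lag

/-!
Approximation of a pair of compactly supported probability measures by a pair of finitely supported
measures with common masses, injective sites, and almost the same transport cost.

Sketch.
* `near_opt_coupling`: unfold `W2`; `W2 μ ν < ⊤` or trivial (`μ.prod ν` is a coupling if one needs a witness); use `iInf_lt_iff`.
* `simple_approx`: `q N = SimpleFunc.approxOn id measurable_id (closedBall 0 RY) 0 _ N`; values in the ball
  (`SimpleFunc.approxOn_mem`), pointwise convergence on the ball (`SimpleFunc.tendsto_approxOn`), domination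
  (`SimpleFunc.edist_approxOn_le`), dominated convergence for `μ` and `ν`.
* `W2_le_of_map`: the coupling `π.map (fun p => (p.1, A p))`.
* `finite_rep`: `S = a.pair b` has finite range `Rg`; `lam : Rg → (0, 1]` injective; `u = EuclideanSpace.single ⟨0, hd⟩ 1`;
  `A0 p = a p + (θ * lam (S p)) • u`, `A1 p = b p + (θ * lam (S p)) • u`; for `r ≠ r'` in `Rg` at most one `θ` makes
  `r.1 + (θ lam r) • u = r'.1 + (θ lam r') • u` (same for second components), so some `θ ∈ (0, ε)` makes both site maps injective.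
  Index type: `{r ∈ Rg | π (S ⁻¹' {r}) ≠ 0}`, `m r = (π (S ⁻¹' {r})).toReal`.
* `discretise`: `π` from `near_opt_coupling` (η/4), `q` from `simple_approx` (η/4), `a p = q p.1`, `b p = q p.2`, `ε = min (η/4) 1`;
  Minkowski in `L²(π)`: `‖A1 - A0‖ = ‖q p.2 - q p.1‖ ≤ ‖q p.2 - p.2‖ + ‖p.2 - p.1‖ + ‖p.1 - q p.1‖`.
-/

open MeasureTheory Set Filter
open scoped ENNReal NNReal Topology

namespace Vale.Agent.Lib.P074

variable {d : ℕ}

theorem near_opt_coupling (μ ν : Measure (E d)) [IsProbabilityMeasure μ] [IsProbabilityMeasure ν]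
    (η : ℝ) (hη : 0 < η) :
    ∃ π : Measure (E d × E d), π.map Prod.fst = μ ∧ π.map Prod.snd = ν ∧
      (∫⁻ p, ‖p.1 - p.2‖ₑ ^ 2 ∂π) ^ (1 / 2 : ℝ) ≤ W2 μ ν + ENNReal.ofReal η := by
  by_cases htop : W2 μ ν = ⊤
  · refine ⟨μ.prod ν, ?_, ?_, ?_⟩
    · simp [Measure.map_fst_prod]
    · simp [Measure.map_snd_prod]
    · rw [htop]; simp
  · have hlt : W2 μ ν < W2 μ ν + ENNReal.ofReal η :=
      ENNReal.lt_add_right htop (by simpa using hη)
    set B := W2 μ ν + ENNReal.ofReal η with hB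
    have h2 : (⨅ π : Measure (E d × E d), ⨅ _ : π.map Prod.fst = μ ∧ π.map Prod.snd = ν,
      ∫⁻ p, ‖p.1 - p.2‖ₑ ^ 2 ∂π) < B ^ (2:ℝ) := by
      have := ENNReal.rpow_lt_rpow hlt (show (0:ℝ) < 2 by norm_num)
      rw [W2, ← ENNReal.rpow_mul] at this
      simpa using this
    obtain ⟨π, hπ⟩ := iInf_lt_iff.1 h2
    obtain ⟨hc, hπ⟩ := iInf_lt_iff.1 hπ
    refine ⟨π, hc.1, hc.2, ?_⟩
    have := ENNReal.rpow_le_rpow hπ.le (show (0:ℝ) ≤ 1/2 by norm_num)
    rw [← ENNReal.rpow_mul] at this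
    simpa using this

theorem l2_eq {α : Type*} [MeasurableSpace α] (π : Measure α) (f : α → E d) :
    (∫⁻ p, ‖f p‖ₑ ^ 2 ∂π) ^ (1 / 2 : ℝ) = eLpNorm f 2 π := by
  rw [eLpNorm_eq_lintegral_rpow_enorm_toReal (by norm_num) (by norm_num)]
  simp

theorem simple_approx (RY : ℝ≥0) (μ ν : Measure (E d)) [IsProbabilityMeasure μ]
    [IsProbabilityMeasure ν] (hμ : μ (Metric.closedBall 0 RY)ᶜ = 0)
    (hν : ν (Metric.closedBall 0 RY)ᶜ = 0) (η : ℝ) (hη : 0 < η) :
    ∃ q : SimpleFunc (E d) (E d), (∀ x, ‖q x‖ ≤ RY) ∧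
      (∫⁻ x, ‖q x - x‖ₑ ^ 2 ∂μ) ^ (1 / 2 : ℝ) ≤ ENNReal.ofReal η ∧
      (∫⁻ x, ‖q x - x‖ₑ ^ 2 ∂ν) ^ (1 / 2 : ℝ) ≤ ENNReal.ofReal η := by
  have h0 : (0 : E d) ∈ Metric.closedBall (0 : E d) RY := by simp
  have key : ∀ (κ : Measure (E d)) [IsProbabilityMeasure κ],
      κ (Metric.closedBall 0 RY)ᶜ = 0 →
      Tendsto (fun n => eLpNorm (⇑(SimpleFunc.approxOn (id : E d → E d) measurable_id
        (Metric.closedBall (0 : E d) RY) 0 h0 n) - id) 2 κ) atTop (𝓝 0) := by
    intro κ _ hκ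
    have hae : ∀ᵐ x ∂κ, x ∈ Metric.closedBall (0 : E d) RY := by
      rw [ae_iff]; exact hκ
    refine SimpleFunc.tendsto_approxOn_Lp_eLpNorm measurable_id h0 (by norm_num) ?_ ?_
    · filter_upwards [hae] with x hx
      exact subset_closure hx
    · have : MemLp (fun x : E d => id x - 0) 2 κ := by
        refine MemLp.of_bound (by fun_prop) RY ?_
        filter_upwards [hae] with x hx
        simpa using hx
      exact this.2
  have hpos : (0 : ℝ≥0∞) < ENNReal.ofReal η := by simpa using hη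
  have e1 := (key μ hμ).eventually (ge_mem_nhds hpos)
  have e2 := (key ν hν).eventually (ge_mem_nhds hpos)
  obtain ⟨n, hn1, hn2⟩ := (e1.and e2).exists
  refine ⟨SimpleFunc.approxOn (id : E d → E d) measurable_id
        (Metric.closedBall (0 : E d) RY) 0 h0 n, ?_, ?_, ?_⟩
  · intro x
    have := SimpleFunc.approxOn_mem (measurable_id : Measurable (id : E d → E d)) h0 n x
    simpa using this
  · rw [l2_eq]; exact hn1
  · rw [l2_eq]; exact hn2

theorem W2_le_of_map (μ : Measure (E d)) (π : Measure (E d × E d)) (f : E d × E d → E d)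
    (hf : Measurable f) (hπ : π.map f = μ) (A : E d × E d → E d) (hA : Measurable A) :
    W2 μ (π.map A) ≤ (∫⁻ p, ‖f p - A p‖ₑ ^ 2 ∂π) ^ (1 / 2 : ℝ) := by
  unfold W2
  refine ENNReal.rpow_le_rpow ?_ (by norm_num)
  have hm : Measurable (fun p => (f p, A p)) := hf.prodMk hA
  refine iInf₂_le_of_le (π.map (fun p => (f p, A p))) ⟨?_, ?_⟩ ?_
  · rw [Measure.map_map measurable_fst hm]; exact hπ
  · rw [Measure.map_map measurable_snd hm]; rfl
  · rw [lintegral_map (by fun_prop) hm]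

theorem exists_lam {α : Type*} (Rg : Finset α) :
    ∃ lam : α → ℝ, (∀ r, 0 < lam r) ∧ (∀ r, lam r ≤ 1) ∧ Set.InjOn lam Rg := by
  classical
  obtain ⟨f, hf⟩ := exists_injective_nat (↥Rg)
  refine ⟨fun r => if h : r ∈ Rg then 1 / ((f ⟨r, h⟩ : ℝ) + 1) else 1, ?_, ?_, ?_⟩
  · intro r
    by_cases h : r ∈ Rg
    · simp only [h, dif_pos]; positivity
    · simp [h]
  · intro r
    by_cases h : r ∈ Rg
    · simp only [h, dif_pos]
      rw [div_le_one (by positivity)]
      have : (0 : ℝ) ≤ f ⟨r, h⟩ := by positivity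
      linarith
    · simp [h]
  · intro r hr r' hr' h
    have hr1 : r ∈ Rg := hr
    have hr2 : r' ∈ Rg := hr'
    simp only [hr1, hr2, dif_pos] at h
    have h1 : ((f ⟨r, hr1⟩ : ℝ) + 1) = (f ⟨r', hr2⟩ : ℝ) + 1 := by
      have := congrArg (fun x => 1 / x) h
      simpa using this
    have h2 : f ⟨r, hr1⟩ = f ⟨r', hr2⟩ := by
      have : (f ⟨r, hr1⟩ : ℝ) = f ⟨r', hr2⟩ := by linarith
      exact_mod_cast this
    have := hf h2
    simpa using this

theorem finite_rep (hd : 0 < d) (π : Measure (E d × E d)) [IsProbabilityMeasure π]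
    (a b : SimpleFunc (E d × E d) (E d)) (ε : ℝ) (hε : 0 < ε) :
    ∃ (ι : Type) (_ : Fintype ι) (y0 y1 : ι → E d) (m : ι → ℝ) (A0 A1 : E d × E d → E d),
      Measurable A0 ∧ Measurable A1 ∧ Function.Injective y0 ∧ Function.Injective y1 ∧
      (∀ P, 0 < m P) ∧ ∑ P, m P = 1 ∧ π.map A0 = dmeas y0 m ∧ π.map A1 = dmeas y1 m ∧
      (∀ p, ‖A0 p - a p‖ ≤ ε) ∧ (∀ p, ‖A1 p - b p‖ ≤ ε) ∧ (∀ p, A1 p - A0 p = b p - a p) ∧
      (∀ P, ∃ p, y0 P = A0 p ∧ y1 P = A1 p) ∧
      ENNReal.ofReal (∑ P, m P * ‖y1 P - y0 P‖ ^ 2) = ∫⁻ p, ‖A1 p - A0 p‖ₑ ^ 2 ∂π := by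
  classical
  set S : SimpleFunc (E d × E d) (E d × E d) := a.pair b with hS
  set Rg : Finset (E d × E d) := S.range with hRg
  obtain ⟨lam, hlam0, hlam1, hlaminj⟩ := exists_lam Rg
  set i0 : Fin d := ⟨0, hd⟩ with hi0
  set u : E d := EuclideanSpace.single i0 1 with hu
  have hu1 : ‖u‖ = 1 := by simp [hu]
  have hui : u i0 = 1 := by simp [hu]
  -- the finite set of bad parameters
  set Bad : Finset ℝ :=
    (Rg ×ˢ Rg).image (fun rr => ((rr.2.1 - rr.1.1) i0) / (lam rr.1 - lam rr.2)) ∪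
    (Rg ×ˢ Rg).image (fun rr => ((rr.2.2 - rr.1.2) i0) / (lam rr.1 - lam rr.2)) with hBad
  obtain ⟨θ, hθmem, hθbad⟩ := (Set.Ioo_infinite hε).exists_notMem_finset Bad
  have hθ0 : 0 < θ := hθmem.1
  have hθε : θ < ε := hθmem.2
  set g0 : E d × E d → E d := fun r => r.1 + (θ * lam r) • u with hg0
  set g1 : E d × E d → E d := fun r => r.2 + (θ * lam r) • u with hg1
  have inj0 : Set.InjOn g0 Rg := by
    intro r hr r' hr' h
    by_contra hne
    have hl : lam r ≠ lam r' := fun h' => hne (hlaminj hr hr' h')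
    have hl' : lam r - lam r' ≠ 0 := sub_ne_zero.2 hl
    apply hθbad
    rw [hBad, Finset.mem_union]
    left
    rw [Finset.mem_image]
    refine ⟨(r, r'), Finset.mem_product.2 ⟨hr, hr'⟩, ?_⟩
    have h2 := congrArg (fun v : E d => v i0) h
    simp only [hg0, PiLp.add_apply, PiLp.smul_apply, hui, smul_eq_mul, mul_one] at h2
    simp only [PiLp.sub_apply]
    rw [div_eq_iff hl']
    linarith
  have inj1 : Set.InjOn g1 Rg := by
    intro r hr r' hr' h
    by_contra hne
    have hl : lam r ≠ lam r' := fun h' => hne (hlaminj hr hr' h')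
    have hl' : lam r - lam r' ≠ 0 := sub_ne_zero.2 hl
    apply hθbad
    rw [hBad, Finset.mem_union]
    right
    rw [Finset.mem_image]
    refine ⟨(r, r'), Finset.mem_product.2 ⟨hr, hr'⟩, ?_⟩
    have h2 := congrArg (fun v : E d => v i0) h
    simp only [hg1, PiLp.add_apply, PiLp.smul_apply, hui, smul_eq_mul, mul_one] at h2
    simp only [PiLp.sub_apply]
    rw [div_eq_iff hl']
    linarith
  set Rg' : Finset (E d × E d) := Rg.filter (fun r => π (S ⁻¹' {r}) ≠ 0) with hRg'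
  have hsub : ∀ r : ↥Rg', (r : E d × E d) ∈ Rg := fun r => (Finset.mem_filter.1 r.2).1
  have hne0 : ∀ r : ↥Rg', π (S ⁻¹' {(r : E d × E d)}) ≠ 0 := fun r => (Finset.mem_filter.1 r.2).2
  set m : ↥Rg' → ℝ := fun r => (π (S ⁻¹' {(r : E d × E d)})).toReal with hm
  have hmof : ∀ r : ↥Rg', ENNReal.ofReal (m r) = π (S ⁻¹' {(r : E d × E d)}) := fun r =>
    ENNReal.ofReal_toReal (measure_ne_top _ _)
  have hm0 : ∀ r, 0 < m r := fun r => ENNReal.toReal_pos (hne0 r) (measure_ne_top _ _)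
  -- key integration formula
  have key : ∀ G : E d × E d → ℝ≥0∞, ∫⁻ p, G (S p) ∂π
      = ∑ r : ↥Rg', ENNReal.ofReal (m r) * G r := by
    intro G
    have h1 : ∫⁻ p, G (S p) ∂π = (S.map G).lintegral π := by
      rw [← SimpleFunc.lintegral_eq_lintegral]
      rfl
    rw [h1, SimpleFunc.map_lintegral]
    rw [Finset.sum_coe_sort Rg' (fun r => ENNReal.ofReal (π (S ⁻¹' {r})).toReal * G r)]
    rw [hRg', Finset.sum_filter_of_ne]
    · refine Finset.sum_congr rfl fun r _ => ?_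
      rw [ENNReal.ofReal_toReal (measure_ne_top _ _), mul_comm]
    · intro r _ h hz
      apply h
      rw [hz]; simp
  have hA0 : Measurable (fun p => g0 (S p)) := (S.map g0).measurable
  have hA1 : Measurable (fun p => g1 (S p)) := (S.map g1).measurable
  have hmap : ∀ g : E d × E d → E d, Measurable (fun p => g (S p)) →
      π.map (fun p => g (S p)) = dmeas (fun r : ↥Rg' => g r) m := by
    intro g hg
    ext B hB
    rw [Measure.map_apply hg hB]
    have h1 : π ((fun p => g (S p)) ⁻¹' B) = ∫⁻ p, (B.indicator 1 (g (S p)) : ℝ≥0∞) ∂π := by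
      rw [← lintegral_indicator_one (hg hB)]
      rfl
    rw [h1, key (fun r => B.indicator 1 (g r))]
    simp only [dmeas, Measure.finsetSum_apply, Measure.smul_apply, smul_eq_mul,
      Measure.dirac_apply' _ hB]
  refine ⟨↥Rg', inferInstance, fun r => g0 r, fun r => g1 r, m, fun p => g0 (S p),
    fun p => g1 (S p), hA0, hA1, ?_, ?_, hm0, ?_, hmap g0 hA0, hmap g1 hA1, ?_, ?_, ?_, ?_, ?_⟩
  · intro r r' h
    exact Subtype.ext (inj0 (hsub r) (hsub r') h)
  · intro r r' h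
    exact Subtype.ext (inj1 (hsub r) (hsub r') h)
  · have h1 := key (fun _ => 1)
    simp only [lintegral_const, measure_univ, mul_one] at h1
    rw [← ENNReal.ofReal_sum_of_nonneg (fun r _ => (hm0 r).le)] at h1
    exact (ENNReal.ofReal_eq_one.1 h1.symm)
  · intro p
    have : g0 (S p) - a p = (θ * lam (S p)) • u := by
      simp [hg0, hS]
    rw [this, norm_smul, hu1, mul_one, Real.norm_eq_abs, abs_of_pos (mul_pos hθ0 (hlam0 _))]
    nlinarith [hlam0 (S p), hlam1 (S p)]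
  · intro p
    have : g1 (S p) - b p = (θ * lam (S p)) • u := by
      simp [hg1, hS]
    rw [this, norm_smul, hu1, mul_one, Real.norm_eq_abs, abs_of_pos (mul_pos hθ0 (hlam0 _))]
    nlinarith [hlam0 (S p), hlam1 (S p)]
  · intro p
    simp [hg0, hg1, hS]
  · intro P
    obtain ⟨p, hp⟩ := SimpleFunc.mem_range.1 (hsub P)
    exact ⟨p, by simp only [hp], by simp only [hp]⟩
  · rw [key (fun r => ‖g1 r - g0 r‖ₑ ^ 2),
      ENNReal.ofReal_sum_of_nonneg (fun r _ => mul_nonneg (hm0 r).le (by positivity))]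
    refine Finset.sum_congr rfl fun r _ => ?_
    rw [ENNReal.ofReal_mul (hm0 r).le, ENNReal.ofReal_pow (norm_nonneg _), ofReal_norm]

theorem discretise (hd : 0 < d) (RY : ℝ≥0) (μ ν : Measure (E d)) [IsProbabilityMeasure μ]
    [IsProbabilityMeasure ν] (hμ : μ (Metric.closedBall 0 RY)ᶜ = 0)
    (hν : ν (Metric.closedBall 0 RY)ᶜ = 0) (η : ℝ) (hη : 0 < η) :
    ∃ (ι : Type) (_ : Fintype ι) (y0 y1 : ι → E d) (m : ι → ℝ),
      Function.Injective y0 ∧ Function.Injective y1 ∧
      (∀ P, ‖y0 P‖ ≤ RY + 1) ∧ (∀ P, ‖y1 P‖ ≤ RY + 1) ∧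
      (∀ P, 0 < m P) ∧ ∑ P, m P = 1 ∧
      W2 μ (dmeas y0 m) ≤ ENNReal.ofReal η ∧ W2 ν (dmeas y1 m) ≤ ENNReal.ofReal η ∧
      ENNReal.ofReal (Real.sqrt (∑ P, m P * ‖y1 P - y0 P‖ ^ 2)) ≤
        W2 μ ν + ENNReal.ofReal η := by
  have hη4 : 0 < η / 4 := by positivity
  obtain ⟨π, hπ1, hπ2, hπc⟩ := near_opt_coupling μ ν (η / 4) hη4
  obtain ⟨q, hqb, hqμ, hqν⟩ := simple_approx RY μ ν hμ hν (η / 4) hη4
  have : IsProbabilityMeasure π := by
    constructor
    have : (π.map Prod.fst) univ = 1 := by rw [hπ1]; exact measure_univ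
    rwa [Measure.map_apply measurable_fst MeasurableSet.univ, preimage_univ] at this
  set a : SimpleFunc (E d × E d) (E d) := q.comp Prod.fst measurable_fst with ha
  set b : SimpleFunc (E d × E d) (E d) := q.comp Prod.snd measurable_snd with hb
  have hap : ∀ p, a p = q p.1 := fun p => rfl
  have hbp : ∀ p, b p = q p.2 := fun p => rfl
  set ε : ℝ := min (η / 4) 1 with hε
  have hε0 : 0 < ε := lt_min hη4 one_pos
  have hε1 : ε ≤ 1 := min_le_right _ _
  have hε4 : ε ≤ η / 4 := min_le_left _ _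
  obtain ⟨ι, hι, y0, y1, m, A0, A1, hA0, hA1, hy0, hy1, hm0, hm1, hmap0, hmap1, hAa, hAb, hdiff,
    hrep, hcost⟩ := finite_rep hd π a b ε hε0
  -- norms in L2(π)
  have hq1 : eLpNorm (fun p : E d × E d => q p.1 - p.1) 2 π ≤ ENNReal.ofReal (η / 4) := by
    rw [l2_eq, ← hπ1, eLpNorm_map_measure (by
      exact (q.measurable.sub measurable_id).aestronglyMeasurable) measurable_fst.aemeasurable]
      at hqμ
    exact hqμ
  have hq2 : eLpNorm (fun p : E d × E d => q p.2 - p.2) 2 π ≤ ENNReal.ofReal (η / 4) := by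
    rw [l2_eq, ← hπ2, eLpNorm_map_measure (by
      exact (q.measurable.sub measurable_id).aestronglyMeasurable) measurable_snd.aemeasurable]
      at hqν
    exact hqν
  have hbd : ∀ (F : E d × E d → E d), (∀ p, ‖F p‖ ≤ ε) →
      eLpNorm F 2 π ≤ ENNReal.ofReal (η / 4) := by
    intro F hF
    have h1 := eLpNorm_le_of_ae_bound (p := 2) (μ := π) (f := F) (C := ε)
      (Filter.Eventually.of_forall hF)
    simp only [measure_univ, ENNReal.one_rpow, one_mul] at h1
    exact h1.trans (ENNReal.ofReal_le_ofReal hε4)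
  have hqm1 : Measurable (fun p : E d × E d => q p.1) := a.measurable
  have hqm2 : Measurable (fun p : E d × E d => q p.2) := b.measurable
  have hsum2 : ENNReal.ofReal (η / 4) + ENNReal.ofReal (η / 4) ≤ ENNReal.ofReal η := by
    rw [← ENNReal.ofReal_add hη4.le hη4.le]
    exact ENNReal.ofReal_le_ofReal (by linarith)
  refine ⟨ι, hι, y0, y1, m, hy0, hy1, ?_, ?_, hm0, hm1, ?_, ?_, ?_⟩
  · intro P
    obtain ⟨p, hp, -⟩ := hrep P
    rw [hp]
    have h1 : ‖A0 p‖ ≤ ‖A0 p - a p‖ + ‖a p‖ := by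
      have := norm_add_le (A0 p - a p) (a p)
      simpa using this
    have h2 := hAa p
    have h3 := hqb p.1
    rw [← hap] at h3
    linarith
  · intro P
    obtain ⟨p, -, hp⟩ := hrep P
    rw [hp]
    have h1 : ‖A1 p‖ ≤ ‖A1 p - b p‖ + ‖b p‖ := by
      have := norm_add_le (A1 p - b p) (b p)
      simpa using this
    have h2 := hAb p
    have h3 := hqb p.2
    rw [← hbp] at h3
    linarith
  · rw [← hmap0]
    refine (W2_le_of_map μ π Prod.fst measurable_fst hπ1 A0 hA0).trans ?_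
    rw [l2_eq]
    have hsplit : (fun p : E d × E d => p.1 - A0 p)
        = (fun p => -(q p.1 - p.1)) + (fun p => -(A0 p - a p)) := by
      funext p
      simp only [Pi.add_apply, hap]
      abel
    rw [hsplit]
    refine (eLpNorm_add_le (by fun_prop) ((hA0.sub a.measurable).neg.aestronglyMeasurable)
      (by norm_num)).trans ?_
    refine (add_le_add ?_ ?_).trans hsum2
    · have := eLpNorm_neg (fun p : E d × E d => q p.1 - p.1) 2 π
      exact this.le.trans hq1
    · exact hbd _ (fun p => by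
        show ‖-(A0 p - a p)‖ ≤ ε
        rw [norm_neg]; exact hAa p)
  · rw [← hmap1]
    refine (W2_le_of_map ν π Prod.snd measurable_snd hπ2 A1 hA1).trans ?_
    rw [l2_eq]
    have hsplit : (fun p : E d × E d => p.2 - A1 p)
        = (fun p => -(q p.2 - p.2)) + (fun p => -(A1 p - b p)) := by
      funext p
      simp only [Pi.add_apply, hbp]
      abel
    rw [hsplit]
    refine (eLpNorm_add_le (by fun_prop) ((hA1.sub b.measurable).neg.aestronglyMeasurable)
      (by norm_num)).trans ?_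
    refine (add_le_add ?_ ?_).trans hsum2
    · have := eLpNorm_neg (fun p : E d × E d => q p.2 - p.2) 2 π
      exact this.le.trans hq2
    · exact hbd _ (fun p => by
        show ‖-(A1 p - b p)‖ ≤ ε
        rw [norm_neg]; exact hAb p)
  · have hnn : 0 ≤ ∑ P, m P * ‖y1 P - y0 P‖ ^ 2 :=
      Finset.sum_nonneg fun P _ => mul_nonneg (hm0 P).le (by positivity)
    rw [Real.sqrt_eq_rpow, ← ENNReal.ofReal_rpow_of_nonneg hnn (by norm_num), hcost, l2_eq]
    rw [l2_eq] at hπc
    have hsplit : (fun p : E d × E d => A1 p - A0 p)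
        = ((fun p => (q p.2 - p.2)) + (fun p => -(p.1 - p.2))) + (fun p => -(q p.1 - p.1)) := by
      funext p
      simp only [Pi.add_apply, hdiff, hap, hbp]
      abel
    rw [hsplit]
    refine (eLpNorm_add_le (by fun_prop) (by fun_prop) (by norm_num)).trans ?_
    refine (add_le_add (eLpNorm_add_le (by fun_prop) (by fun_prop) (by norm_num)) le_rfl).trans ?_
    have e1 := eLpNorm_neg (fun p : E d × E d => q p.1 - p.1) 2 π
    have e2 := eLpNorm_neg (fun p : E d × E d => p.1 - p.2) 2 π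
    have e1' : eLpNorm (fun p : E d × E d => -(q p.1 - p.1)) 2 π ≤ ENNReal.ofReal (η / 4) :=
      e1.le.trans hq1
    have e2' : eLpNorm (fun p : E d × E d => -(p.1 - p.2)) 2 π
        ≤ W2 μ ν + ENNReal.ofReal (η / 4) := e2.le.trans hπc
    refine (add_le_add (add_le_add hq2 e2') e1').trans ?_
    have h3 : ENNReal.ofReal (η / 4) + ENNReal.ofReal (η / 4) + ENNReal.ofReal (η / 4)
        ≤ ENNReal.ofReal η := by
      rw [← ENNReal.ofReal_add hη4.le hη4.le, ← ENNReal.ofReal_add (by positivity) hη4.le]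
      exact ENNReal.ofReal_le_ofReal (by linarith)
    calc ENNReal.ofReal (η / 4) + (W2 μ ν + ENNReal.ofReal (η / 4)) + ENNReal.ofReal (η / 4)
        = W2 μ ν + (ENNReal.ofReal (η / 4) + ENNReal.ofReal (η / 4) + ENNReal.ofReal (η / 4)) := by
          ring
      _ ≤ W2 μ ν + ENNReal.ofReal η := by gcongr

end Vale.Agent.Lib.P074
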