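import Vale.Agent.Lib.P074.Conj

/-!
MODULE B4 (P074).  At a differentiability point of the transform the maximiser is the gradient.

ROUTE.  g z = conj Y ψ z - ⟪z, y⟫ + ψ y ≥ 0 for all z (conj_ge) and g x = 0, so x is a (local) minimum of
the function g, differentiable at x: IsLocalMin.fderiv_eq_zero gives fderiv (conj Y ψ) x v = ⟪v, y⟫ for all
v, i.e. gradient (conj Y ψ) x = y (gradient = (toDual ℝ _).symm (fderiv ..); ext_inner_left).
-/

open MeasureTheory Set
open scoped ENNReal NNReal

namespace Vale.Agent.Lib.P074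

variable {d : ℕ}

theorem max_eq_gradient (Y : Set (E d)) (hY : IsCompact Y) (ψ : E d → ℝ) (hψ : ContinuousOn ψ Y)
    (x : E d) (hx : DifferentiableAt ℝ (conj Y ψ) x) (y : E d) (hy : y ∈ Y)
    (hmax : conj Y ψ x = inner ℝ x y - ψ y) : y = gradient (conj Y ψ) x := by
  set g : E d → ℝ := fun z => conj Y ψ z - inner ℝ z y with hg
  have hlin : HasFDerivAt (fun z : E d => inner ℝ z y) (innerSL ℝ y) x := by
    have : (fun z : E d => inner ℝ z y) = fun z => innerSL ℝ y z := by
      funext z
      rw [innerSL_apply_apply, real_inner_comm]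
    rw [this]
    exact (innerSL ℝ y).hasFDerivAt
  have hgd : HasFDerivAt g (fderiv ℝ (conj Y ψ) x - innerSL ℝ y) x := hx.hasFDerivAt.sub hlin
  have hmin : IsLocalMin g x := by
    refine Filter.Eventually.of_forall fun z => ?_
    have := conj_ge hY hψ z hy
    simp only [hg]
    linarith
  have h0 := hmin.hasFDerivAt_eq_zero hgd
  have h1 : fderiv ℝ (conj Y ψ) x = innerSL ℝ y := sub_eq_zero.mp h0
  unfold gradient
  rw [h1]
  exact ((InnerProductSpace.toDual ℝ (E d)).symm_apply_apply y).symm

end Vale.Agent.Lib.P074
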