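import Vale.Agent.Lib.P074.Minimiser
import Vale.Agent.Lib.P074.Danskin
import Vale.Agent.Lib.P074.Grad

/-!
MODULE B5 (P074).  Brenier existence: every probability measure on `Y` is the image of `unif K` under a map
with potentials.

ROUTE.  ψ from exists_minimiser, φ = conj Y ψ (RY-Lipschitz, convex).  Fix y0 ∈ Y and put
T x = if gradient φ x ∈ Y then gradient φ x else y0.  Measurable: measurable_fderiv, the continuous linear
equivalence toDual, Y closed.  By Rademacher (LipschitzWith.ae_differentiableAt) and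
unif_absolutelyContinuous, for unif K-a.e. x the function φ is differentiable at x; there conj_attained gives a
maximiser y ∈ Y, max_eq_gradient gives y = gradient φ x, so T x = y is the unique maximiser: IsPot.eq holds.
Image measure: for every bounded continuous ξ (ξ : BoundedContinuousFunction (E d) ℝ) and t ≠ 0,
minimality gives  0 ≤ kant (ψ + t ξ) - kant ψ = ∫ (conj Y (ψ + t ξ) - φ) d(unif K) + t ∫ ξ dμ.
Divide by t > 0 / t < 0, let t → 0± : danskin + dominated convergence
(tendsto_integral_filter_of_dominated_convergence, bound ‖ξ‖ from conj_sub_le) give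
  -∫ ξ (T x) d(unif K) + ∫ ξ dμ ≥ 0  and  ≤ 0.
So ∫ ξ d((unif K).map T) = ∫ ξ dμ for all bounded continuous ξ, and
ext_of_forall_integral_eq_of_IsFiniteMeasure concludes.
-/

open MeasureTheory Set Filter
open scoped ENNReal NNReal Topology

namespace Vale.Agent.Lib.P074

variable {d : ℕ}

open Classical in
/-- the candidate map: the gradient of `φ`, corrected to take values in `Y` -/
noncomputable def gradMap (Y : Set (E d)) (y0 : E d) (φ : E d → ℝ) (x : E d) : E d :=
  if gradient φ x ∈ Y then gradient φ x else y0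

theorem measurable_gradient (φ : E d → ℝ) : Measurable (gradient φ) := by
  have h : gradient φ = fun x => (InnerProductSpace.toDual ℝ (E d)).symm (fderiv ℝ φ x) := by
    funext x
    rfl
  rw [h]
  exact (InnerProductSpace.toDual ℝ (E d)).symm.continuous.measurable.comp (measurable_fderiv ℝ φ)

theorem measurable_gradMap {Y : Set (E d)} (hY : IsCompact Y) (y0 : E d) (φ : E d → ℝ) :
    Measurable (gradMap Y y0 φ) := by
  unfold gradMap
  exact Measurable.ite (measurable_gradient φ hY.measurableSet) (measurable_gradient φ)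
    measurable_const

theorem gradMap_mem {Y : Set (E d)} {y0 : E d} (hy0 : y0 ∈ Y) (φ : E d → ℝ) (x : E d) :
    gradMap Y y0 φ x ∈ Y := by
  unfold gradMap
  split_ifs with h
  · exact h
  · exact hy0

/-- almost everywhere the corrected gradient is the unique maximiser -/
theorem ae_unique_max (K Y : Set (E d)) (hY : IsCompact Y) {y0 : E d} (hy0 : y0 ∈ Y) (RY : ℝ≥0)
    (hYb : ∀ y ∈ Y, ‖y‖ ≤ RY) (ψ : E d → ℝ) (hψ : Continuous ψ) :
    ∀ᵐ x ∂(unif K),
      conj Y ψ x = inner ℝ x (gradMap Y y0 (conj Y ψ) x) - ψ (gradMap Y y0 (conj Y ψ) x) ∧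
      ∀ y ∈ Y, conj Y ψ x = inner ℝ x y - ψ y → y = gradMap Y y0 (conj Y ψ) x := by
  have hYne : Y.Nonempty := ⟨y0, hy0⟩
  have hlip : LipschitzWith RY (conj Y ψ) := conj_lipschitz hY hYne hψ.continuousOn RY hYb
  have hd : ∀ᵐ x ∂(volume : Measure (E d)), DifferentiableAt ℝ (conj Y ψ) x :=
    hlip.ae_differentiableAt
  have hd' : ∀ᵐ x ∂(unif K), DifferentiableAt ℝ (conj Y ψ) x :=
    hd.filter_mono (unif_absolutelyContinuous K).ae_le
  filter_upwards [hd'] with x hx
  obtain ⟨y, hyY, hy⟩ := conj_attained hY hYne hψ.continuousOn x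
  have hg := max_eq_gradient Y hY ψ hψ.continuousOn x hx y hyY hy
  have hT : gradMap Y y0 (conj Y ψ) x = gradient (conj Y ψ) x := by
    unfold gradMap
    rw [if_pos (hg ▸ hyY)]
  refine ⟨?_, fun z hz hzmax => ?_⟩
  · rw [hT, ← hg]
    exact hy
  · rw [hT]
    exact max_eq_gradient Y hY ψ hψ.continuousOn x hx z hz hzmax

/-- first variation of the Kantorovich functional at a minimiser -/
theorem first_variation (K Y : Set (E d)) (hK : IsCompact K) (hvol : volume K ≠ 0)
    (hY : IsCompact Y) {y0 : E d} (hy0 : y0 ∈ Y) (RY : ℝ≥0)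
    (hYb : ∀ y ∈ Y, ‖y‖ ≤ RY) (μ : Measure (E d)) [IsProbabilityMeasure μ] (hμ : μ Yᶜ = 0)
    (ψ : E d → ℝ) (hψ : Continuous ψ)
    (hmin : ∀ g : E d → ℝ, Continuous g → kant K Y μ ψ ≤ kant K Y μ g)
    (ξ : BoundedContinuousFunction (E d) ℝ) :
    ∫ x, ξ (gradMap Y y0 (conj Y ψ) x) ∂(unif K) = ∫ y, ξ y ∂μ := by
  have hYne : Y.Nonempty := ⟨y0, hy0⟩
  have htop : volume K ≠ ⊤ := hK.measure_lt_top.ne
  have hprob := isProbabilityMeasure_unif hvol htop
  set T := gradMap Y y0 (conj Y ψ) with hTdef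
  have hξc : Continuous ξ := ξ.continuous
  have hcont : ∀ t : ℝ, Continuous (fun y => ψ y + t * ξ y) := fun t =>
    hψ.add (continuous_const.mul hξc)
  have hcc : ∀ t : ℝ, Continuous (conj Y (fun y => ψ y + t * ξ y)) := fun t =>
    conj_continuous hY hYne (hcont t).continuousOn
  have hc0 : Continuous (conj Y ψ) := conj_continuous hY hYne hψ.continuousOn
  have hint : ∀ {f : E d → ℝ}, Continuous f → Integrable f (unif K) := fun hf =>
    integrable_of_continuous_of_compl_null hK (unif K) (unif_compl_null hK) hf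
  have hintμ : ∀ {f : E d → ℝ}, Continuous f → Integrable f μ := fun hf =>
    integrable_of_continuous_of_compl_null hY μ hμ hf
  -- the difference quotients
  set q : ℝ → E d → ℝ := fun t x => (conj Y (fun y => ψ y + t * ξ y) x - conj Y ψ x) / t with hq
  have hlim : Tendsto (fun t => ∫ x, q t x ∂(unif K)) (𝓝[≠] 0)
      (𝓝 (∫ x, -ξ (T x) ∂(unif K))) := by
    refine tendsto_integral_filter_of_dominated_convergence (fun _ => ‖ξ‖) ?_ ?_
      (integrable_const _) ?_
    · refine Eventually.of_forall fun t => ?_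
      exact (((hcc t).sub hc0).div_const t).aestronglyMeasurable
    · filter_upwards [self_mem_nhdsWithin] with t ht
      refine Eventually.of_forall fun x => ?_
      have ht0 : t ≠ 0 := ht
      have hb := conj_sub_le hY hYne (hcont t).continuousOn hψ.continuousOn (|t| * ‖ξ‖)
        (fun y _ => by
          have : ψ y + t * ξ y - ψ y = t * ξ y := by ring
          rw [this, abs_mul]
          gcongr
          exact ξ.norm_coe_le_norm y) x
      simp only [hq, Real.norm_eq_abs, abs_div]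
      rw [div_le_iff₀ (abs_pos.2 ht0)]
      linarith
    · filter_upwards [ae_unique_max K Y hY hy0 RY hYb ψ hψ] with x hx
      exact danskin Y hY ψ ξ hψ hξc x (T x) (gradMap_mem hy0 _ x) hx.1 hx.2
  -- the quotient of the functional
  have hG : ∀ t : ℝ, t ≠ 0 →
      (kant K Y μ (fun y => ψ y + t * ξ y) - kant K Y μ ψ) / t =
        ∫ x, q t x ∂(unif K) + ∫ y, ξ y ∂μ := by
    intro t ht
    have e1 : ∫ x, q t x ∂(unif K) =
        (∫ x, conj Y (fun y => ψ y + t * ξ y) x ∂(unif K) - ∫ x, conj Y ψ x ∂(unif K)) / t := by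
      simp only [hq]
      rw [integral_div, integral_sub (hint (hcc t)) (hint hc0)]
    have e2 : ∫ y, (ψ y + t * ξ y) ∂μ = ∫ y, ψ y ∂μ + t * ∫ y, ξ y ∂μ := by
      rw [integral_add (hintμ hψ) ((hintμ hξc).const_mul t), integral_const_mul]
    rw [e1]
    unfold kant
    rw [e2]
    field_simp
    ring
  have hlimG : Tendsto (fun t => (kant K Y μ (fun y => ψ y + t * ξ y) - kant K Y μ ψ) / t)
      (𝓝[≠] 0) (𝓝 (∫ x, -ξ (T x) ∂(unif K) + ∫ y, ξ y ∂μ)) := by
    refine (hlim.add_const (∫ y, ξ y ∂μ)).congr' ?_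
    filter_upwards [self_mem_nhdsWithin] with t ht
    exact (hG t ht).symm
  have hpos : 0 ≤ ∫ x, -ξ (T x) ∂(unif K) + ∫ y, ξ y ∂μ := by
    have h1 : Tendsto (fun t => (kant K Y μ (fun y => ψ y + t * ξ y) - kant K Y μ ψ) / t)
      (𝓝[>] 0) (𝓝 (∫ x, -ξ (T x) ∂(unif K) + ∫ y, ξ y ∂μ)) :=
      hlimG.mono_left (nhdsWithin_mono _ fun t (ht : 0 < t) => ht.ne')
    refine ge_of_tendsto h1 ?_
    filter_upwards [self_mem_nhdsWithin] with t ht
    have ht0 : (0 : ℝ) < t := ht
    exact div_nonneg (sub_nonneg.2 (hmin _ (hcont t))) ht0.le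
  have hneg : ∫ x, -ξ (T x) ∂(unif K) + ∫ y, ξ y ∂μ ≤ 0 := by
    have h1 : Tendsto (fun t => (kant K Y μ (fun y => ψ y + t * ξ y) - kant K Y μ ψ) / t)
      (𝓝[<] 0) (𝓝 (∫ x, -ξ (T x) ∂(unif K) + ∫ y, ξ y ∂μ)) :=
      hlimG.mono_left (nhdsWithin_mono _ fun t (ht : t < 0) => ht.ne)
    refine le_of_tendsto h1 ?_
    filter_upwards [self_mem_nhdsWithin] with t ht
    have ht0 : t < (0 : ℝ) := ht
    exact div_nonpos_of_nonneg_of_nonpos (sub_nonneg.2 (hmin _ (hcont t))) ht0.le
  rw [integral_neg] at hpos hneg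
  linarith

theorem brenier_exists (K Y : Set (E d)) (hK : IsCompact K) (hvol : volume K ≠ 0)
    (hY : IsCompact Y) (hYne : Y.Nonempty) (RK RY : ℝ≥0) (hKb : ∀ x ∈ K, ‖x‖ ≤ RK)
    (hYb : ∀ y ∈ Y, ‖y‖ ≤ RY) (μ : Measure (E d)) [IsProbabilityMeasure μ] (hμ : μ Yᶜ = 0) :
    ∃ (T : E d → E d) (φ ψ : E d → ℝ), IsPot K Y RK RY T φ ψ ∧ (unif K).map T = μ := by
  obtain ⟨y0, hy0⟩ := hYne
  have hYne : Y.Nonempty := ⟨y0, hy0⟩
  have htop : volume K ≠ ⊤ := hK.measure_lt_top.ne
  have hprob := isProbabilityMeasure_unif hvol htop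
  obtain ⟨ψ, hψlip, hmin⟩ := exists_minimiser K Y hK hvol hY hYne RK hKb μ hμ
  have hψ : Continuous ψ := hψlip.continuous
  have hTm : Measurable (gradMap Y y0 (conj Y ψ)) := measurable_gradMap hY y0 _
  refine ⟨gradMap Y y0 (conj Y ψ), conj Y ψ, ψ, ?_, ?_⟩
  · refine ⟨hTm, gradMap_mem hy0 _, conj_convex hY hYne hψ.continuousOn,
      conj_lipschitz hY hYne hψ.continuousOn RY hYb, hψlip, fun x y hy => ?_, ?_⟩
    · have := conj_ge hY hψ.continuousOn x hy
      linarith
    · filter_upwards [ae_unique_max K Y hY hy0 RY hYb ψ hψ] with x hx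
      linarith [hx.1]
  · have : IsProbabilityMeasure ((unif K).map (gradMap Y y0 (conj Y ψ))) :=
      Measure.isProbabilityMeasure_map hTm.aemeasurable
    refine ext_of_forall_integral_eq_of_IsFiniteMeasure fun ξ => ?_
    rw [integral_map hTm.aemeasurable ξ.continuous.aestronglyMeasurable]
    exact first_variation K Y hK hvol hY hy0 RY hYb μ hμ ψ hψ hmin ξ

end Vale.Agent.Lib.P074
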