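import Vale.Agent.Lib.P074.Basic

/-!
Laguerre cells of a finite family of sites `y P` with weights `c P`, inside `K`.
-/

open MeasureTheory Set
open scoped ENNReal NNReal

namespace Vale.Agent.Lib.P074

variable {d : ℕ} {ι : Type*} [Fintype ι]

/-- The Laguerre cell of the site `P`. -/
def Lag (K : Set (E d)) (y : ι → E d) (c : ι → ℝ) (P : ι) : Set (E d) :=
  {x | x ∈ K ∧ ∀ Q, inner ℝ x (y Q) - c Q ≤ inner ℝ x (y P) - c P}

/-- The finitely supported measure with sites `y P` and masses `z P`. -/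
noncomputable def dmeas (y : ι → E d) (z : ι → ℝ) : Measure (E d) :=
  ∑ P, ENNReal.ofReal (z P) • Measure.dirac (y P)

theorem Lag_subset (K : Set (E d)) (y : ι → E d) (c : ι → ℝ) (P : ι) : Lag K y c P ⊆ K :=
  fun _ hx => hx.1

theorem measurableSet_Lag {K : Set (E d)} (hK : IsCompact K) (y : ι → E d) (c : ι → ℝ) (P : ι) :
    MeasurableSet (Lag K y c P) := by
  have h : Lag K y c P
      = K ∩ ⋂ Q, {x : E d | inner ℝ x (y Q) - c Q ≤ inner ℝ x (y P) - c P} := by
    ext x
    simp [Lag]
  rw [h]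
  refine hK.isClosed.measurableSet.inter (MeasurableSet.iInter fun Q => ?_)
  refine IsClosed.measurableSet (isClosed_le ?_ ?_) <;> fun_prop

theorem Lag_cover [Nonempty ι] (K : Set (E d)) (y : ι → E d) (c : ι → ℝ) :
    K ⊆ ⋃ P, Lag K y c P := by
  intro x hx
  obtain ⟨P, hP⟩ := Finite.exists_max (fun Q => inner ℝ x (y Q) - c Q)
  exact mem_iUnion.2 ⟨P, hx, hP⟩

theorem Lag_inter_null (K : Set (E d)) (y : ι → E d) (hy : Function.Injective y) (c : ι → ℝ)
    {P Q : ι} (hPQ : P ≠ Q) : volume (Lag K y c P ∩ Lag K y c Q) = 0 := by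
  set v : E d := y P - y Q with hv
  have hv0 : v ≠ 0 := sub_ne_zero.2 (fun h => hPQ (hy h))
  set S : Set (E d) := {x | inner ℝ x v = c P - c Q} with hS
  have hsub : Lag K y c P ∩ Lag K y c Q ⊆ S := by
    rintro x ⟨h1, h2⟩
    have a := h1.2 Q
    have b := h2.2 P
    simp only [hS, Set.mem_ofPred_eq, hv, inner_sub_right]
    linarith
  refine measure_mono_null hsub ?_
  rcases S.eq_empty_or_nonempty with h | ⟨x0, hx0⟩
  · rw [h]; simp
  · set f : E d →ₗ[ℝ] ℝ := (innerSL ℝ v).toLinearMap with hf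
    have hfx : ∀ x, f x = inner ℝ x v := fun x => by
      simp [hf, real_inner_comm]
    have hsub2 : S ⊆ (AffineSubspace.mk' x0 (LinearMap.ker f) : Set (E d)) := by
      intro x hx
      have h1 : inner ℝ x v = c P - c Q := hx
      have h2 : inner ℝ x0 v = c P - c Q := hx0
      simp only [SetLike.mem_coe, AffineSubspace.mem_mk', vsub_eq_sub, LinearMap.mem_ker, hfx,
        inner_sub_left, h1, h2, sub_self]
    refine measure_mono_null hsub2 (Measure.addHaar_affineSubspace _ _ ?_)
    intro htop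
    have hdir : (AffineSubspace.mk' x0 (LinearMap.ker f)).direction = ⊤ := by
      rw [htop, AffineSubspace.direction_top]
    rw [AffineSubspace.direction_mk'] at hdir
    have hvm : v ∈ LinearMap.ker f := by rw [hdir]; trivial
    rw [LinearMap.mem_ker, hfx, real_inner_self_eq_norm_sq] at hvm
    exact hv0 (norm_eq_zero.1 (by simpa using hvm))

theorem Lag_add_const (K : Set (E d)) (y : ι → E d) (c : ι → ℝ) (k : ℝ) (P : ι) :
    Lag K y (fun Q => c Q + k) P = Lag K y c P := by
  ext x
  simp only [Lag, Set.mem_ofPred_eq]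
  refine and_congr_right fun _ => forall_congr' fun Q => ?_
  constructor <;> intro h <;> linarith

theorem Lag_midpoint {K : Set (E d)} (hconv : Convex ℝ K) (y : ι → E d) (c0 c1 : ι → ℝ) (P : ι)
    {x x' : E d} (hx : x ∈ Lag K y c0 P) (hx' : x' ∈ Lag K y c1 P) :
    (1 / 2 : ℝ) • (x + x') ∈ Lag K y (fun Q => (c0 Q + c1 Q) / 2) P := by
  refine ⟨?_, fun Q => ?_⟩
  · have := hconv hx.1 hx'.1 (by norm_num : (0 : ℝ) ≤ 1 / 2) (by norm_num : (0 : ℝ) ≤ 1 / 2)
      (by norm_num)
    rwa [← smul_add] at this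
  · have a := hx.2 Q
    have b := hx'.2 Q
    simp only [inner_smul_left, inner_add_left, RCLike.conj_to_real]
    linarith

theorem Lag_aedisjoint (K : Set (E d)) (y : ι → E d) (hy : Function.Injective y) (c : ι → ℝ) :
    Pairwise (Function.onFun (AEDisjoint (unif K)) (Lag K y c)) := by
  intro P Q hPQ
  exact unif_absolutelyContinuous K (Lag_inter_null K y hy c hPQ)

theorem iUnion_Lag [Nonempty ι] (K : Set (E d)) (y : ι → E d) (c : ι → ℝ) :
    ⋃ P, Lag K y c P = K :=
  Subset.antisymm (iUnion_subset fun P => Lag_subset K y c P) (Lag_cover K y c)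

theorem Lag_ae_mem_iUnion [Nonempty ι] {K : Set (E d)} (hK : IsCompact K)
    (y : ι → E d) (c : ι → ℝ) : ∀ᵐ x ∂(unif K), x ∈ ⋃ P, Lag K y c P := by
  filter_upwards [ae_mem_unif hK.isClosed.measurableSet] with x hx
  exact Lag_cover K y c hx

/-- An integral over `unif K` splits over the cells. -/
theorem integral_eq_sum_Lag [Nonempty ι] {K : Set (E d)} (hK : IsCompact K)
    (y : ι → E d) (hy : Function.Injective y) (c : ι → ℝ)
    {F : Type*} [NormedAddCommGroup F] [NormedSpace ℝ F]
    (f : E d → F) (hf : Integrable f (unif K)) :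
    ∫ x, f x ∂(unif K) = ∑ P, ∫ x in Lag K y c P, f x ∂(unif K) := by
  have h1 : (unif K).restrict (⋃ P, Lag K y c P) = unif K :=
    Measure.restrict_eq_self_of_ae_mem (Lag_ae_mem_iUnion hK y c)
  have h2 := integral_iUnion_ae (μ := unif K) (f := f) (s := Lag K y c)
    (fun P => (measurableSet_Lag hK y c P).nullMeasurableSet) (Lag_aedisjoint K y hy c)
    hf.integrableOn
  rw [h1, tsum_fintype] at h2
  exact h2

theorem sum_measure_Lag [Nonempty ι] {K : Set (E d)} (hK : IsCompact K) (hvol : volume K ≠ 0)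
    (y : ι → E d) (hy : Function.Injective y) (c : ι → ℝ) :
    ∑ P, (unif K (Lag K y c P)).toReal = 1 := by
  have := isProbabilityMeasure_unif hvol hK.measure_lt_top.ne
  have h := measure_iUnion₀ (μ := unif K) (Lag_aedisjoint K y hy c)
    (fun P => (measurableSet_Lag hK y c P).nullMeasurableSet)
  rw [tsum_fintype] at h
  have h1 : unif K (⋃ P, Lag K y c P) = 1 := by
    rw [← prob_compl_eq_zero_iff₀ (MeasurableSet.iUnion
      fun P => measurableSet_Lag hK y c P).nullMeasurableSet]
    exact Lag_ae_mem_iUnion hK y c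
  rw [← ENNReal.toReal_sum (fun P _ => measure_ne_top _ _), ← h, h1]
  simp

end Vale.Agent.Lib.P074
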