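import Vale.Agent.Lib.P074.CellIneq
import Vale.Agent.Lib.P074.Lag

/-!
First-moment inequality for Laguerre cells (same sites, two weight vectors).

Notation: `ρ = unif K`, `L_i P = Lag K y c_i P`, `Z_i P = ρ (L_i P)`, `M_i P = ∫_{L_i P} x dρ`,
`Lh P = Lag K y ((c0+c1)/2) P`, `κ = 1 / (256 R²)`, `w = gw κ`, `v = 1 / w = exp (κ ‖x‖² / 2)`.
On `K`: `1/2 ≤ w ≤ 1`, `1 ≤ v ≤ 2`, and `|v x' - v x| ≤ 2 κ R ‖x' - x‖`.
`ν_i P = ∫_{L_i P} w dρ ∈ [Z_i P / 2, Z_i P]`, `νh P = ∫_{Lh P} w dρ`, `a_i P = Z_i P / ν_i P ∈ [1, 2]`,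
`N = ∫ w dρ = ∑ ν_0 = ∑ ν_1 = ∑ νh` (`integral_eq_sum_Lag`).  From `hcmp`: `ν_0 / 4 ≤ ν_1 ≤ 4 ν_0`,
so `sqrt (ν_0 ν_1) ≥ ν_0 / 2` and `sqrt (ν_0 ν_1) ≥ ν_1 / 2`.  Put `q P = νh P - sqrt (ν_0 P ν_1 P)`.

Step 1 (`cell_ineq` with `ζ = v`, `ℓ = 2 κ R`, `κ / (8 ℓ²) = 8`; note `∫_A v w dρ = ρ A`):
  `8 sqrt (ν_0 ν_1) (a_1 - a_0)² ≤ q P`, in particular `0 ≤ q P`.
  `∑ q = N - ∑ sqrt (ν_0 ν_1) = (1/2) ∑ (sqrt ν_0 - sqrt ν_1)²`, and
  `(sqrt ν_0 - sqrt ν_1)² ≤ (ν_1 - ν_0)² / ν_0`; `Z_1 - Z_0 = a_1 (ν_1 - ν_0) + ν_0 (a_1 - a_0)` gives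
  `|ν_1 - ν_0| ≤ |Z_1 - Z_0| + ν_0 |a_1 - a_0|`, so `∑ q ≤ ∑ (ΔZ)² / ν_0 + ∑ ν_0 (Δa)²`.
  With `4 ∑ ν_0 (Δa)² ≤ ∑ q`:  `∑ q ≤ (4/3) ∑ (ΔZ)² / ν_0 ≤ (8/3) ∑ (ΔZ)² / Z_0`.
Step 2 (`cell_ineq` with `ζ_P x = (⟪x, e P⟫ - β P) * v x`, `β P = ⟪M_0 P, e P⟫ / Z_0 P`, `|β P| ≤ R ‖e P‖`,
  `ℓ = 3 ‖e P‖` when `e P ≠ 0`): here `∫_{L_0 P} ζ_P w dρ = 0`, `∫_{L_1 P} ζ_P w dρ = ⟪M_1 P, e P⟫ - β P Z_1 P`,
  so with `D P = ⟪M_1 P, e P⟫ - β P * Z_1 P`:  `κ sqrt (ν_0 ν_1) (D P / ν_1)² ≤ 72 ‖e P‖² q P`, whence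
  `(D P)² ≤ 2 ν_1 * 72 ‖e P‖² q P / κ ≤ 576 * 256 R² * Z_0 P ‖e P‖² q P`   (also true when `e P = 0`).
Step 3: `⟪M_1 P - M_0 P, e P⟫ = β P (Z_1 P - Z_0 P) + D P`; Cauchy-Schwarz on both sums:
  `∑ β ΔZ ≤ R sqrt (∑ (ΔZ)²/Z_0) sqrt (∑ Z_0 ‖e‖²)`,
  `∑ D ≤ 384 R sqrt (∑ Z_0 ‖e‖²) sqrt (∑ q) ≤ 384 * sqrt (8/3) R ...`;  `1 + 384 * sqrt (8/3) ≤ 700`.
-/

open MeasureTheory Set
open scoped ENNReal NNReal

namespace Vale.Agent.Lib.P074

variable {d : ℕ} {ι : Type*} [Fintype ι]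

theorem fm_algebra (R : ℝ) (hR : 0 < R)
    (Z0 Z1 ν0 ν1 νh D β n : ι → ℝ)
    (hZ0 : ∀ P, 0 < Z0 P) (hZ1l : ∀ P, Z0 P / 2 ≤ Z1 P)
    (hν0l : ∀ P, Z0 P / 2 ≤ ν0 P) (hν0u : ∀ P, ν0 P ≤ Z0 P)
    (hν1l : ∀ P, Z1 P / 2 ≤ ν1 P) (hν1u : ∀ P, ν1 P ≤ Z1 P)
    (hs1 : ∑ P, ν1 P = ∑ P, ν0 P) (hsh : ∑ P, νh P = ∑ P, ν0 P)
    (H1 : ∀ P, Real.sqrt (ν0 P * ν1 P) * (1 + 8 * (Z1 P / ν1 P - Z0 P / ν0 P) ^ 2) ≤ νh P)
    (H2 : ∀ P, (D P) ^ 2 ≤
      147456 * R ^ 2 * (Z0 P * n P ^ 2) * (νh P - Real.sqrt (ν0 P * ν1 P)))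
    (hn : ∀ P, 0 ≤ n P) (hβ : ∀ P, |β P| ≤ R * n P) :
    ∑ P, (β P * (Z1 P - Z0 P) + D P) ≤
      700 * R * Real.sqrt (∑ P, (Z1 P - Z0 P) ^ 2 / Z0 P) * Real.sqrt (∑ P, Z0 P * n P ^ 2) := by
  set s : ι → ℝ := fun P => Real.sqrt (ν0 P * ν1 P) with hs
  set q : ι → ℝ := fun P => νh P - s P with hq
  have hν0 : ∀ P, 0 < ν0 P := fun P => by have := hZ0 P; have := hν0l P; linarith
  have hZ1 : ∀ P, 0 < Z1 P := fun P => by have := hZ0 P; have := hZ1l P; linarith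
  have hν1 : ∀ P, 0 < ν1 P := fun P => by have := hZ1 P; have := hν1l P; linarith
  have hs2 : ∀ P, s P ^ 2 = ν0 P * ν1 P := fun P =>
    Real.sq_sqrt (mul_pos (hν0 P) (hν1 P)).le
  have hs0 : ∀ P, 0 ≤ s P := fun P => Real.sqrt_nonneg _
  have hsl : ∀ P, ν0 P / 2 ≤ s P := fun P => by
    apply Real.le_sqrt_of_sq_le
    have h1 := hν0 P; have h2 := hν0u P; have h3 := hZ1l P; have h4 := hν1l P
    have : ν0 P / 4 ≤ ν1 P := by linarith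
    nlinarith
  -- (A)
  have hA : ∀ P, 4 * ν0 P * (Z1 P / ν1 P - Z0 P / ν0 P) ^ 2 ≤ q P := fun P => by
    have h := H1 P
    have h2 := hsl P
    have h3 : 0 ≤ (Z1 P / ν1 P - Z0 P / ν0 P) ^ 2 := sq_nonneg _
    simp only [hq]
    change s P * _ ≤ _ at h
    nlinarith
  have hq0 : ∀ P, 0 ≤ q P := fun P => by
    have := hA P
    have h3 : 0 ≤ (Z1 P / ν1 P - Z0 P / ν0 P) ^ 2 := sq_nonneg _
    have := hν0 P
    have : 0 ≤ 4 * ν0 P * (Z1 P / ν1 P - Z0 P / ν0 P) ^ 2 := by positivity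
    linarith
  -- per-P
  have hB : ∀ P, ν0 P + ν1 P - 2 * s P ≤ 4 * ((Z1 P - Z0 P) ^ 2 / Z0 P) + q P / 2 := fun P => by
    set a1 := Z1 P / ν1 P with ha1
    set a0 := Z0 P / ν0 P with ha0
    have e1 : Z1 P = a1 * ν1 P := by rw [ha1]; field_simp [(hν1 P).ne']
    have e0 : Z0 P = a0 * ν0 P := by rw [ha0]; field_simp [(hν0 P).ne']
    have h1a : 1 ≤ a1 := by rw [ha1, one_le_div (hν1 P)]; exact hν1u P
    have hC : (ν1 P - ν0 P) ^ 2 ≤ 2 * (Z1 P - Z0 P) ^ 2 + 2 * ν0 P ^ 2 * (a1 - a0) ^ 2 := by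
      have h5 : Z1 P - Z0 P - ν0 P * (a1 - a0) = a1 * (ν1 P - ν0 P) := by rw [e1, e0]; ring
      have h6 : (ν1 P - ν0 P) ^ 2 ≤ (a1 * (ν1 P - ν0 P)) ^ 2 := by
        rw [mul_pow]
        have : 1 ≤ a1 ^ 2 := by nlinarith
        nlinarith [sq_nonneg (ν1 P - ν0 P)]
      rw [← h5] at h6
      nlinarith [sq_nonneg (Z1 P - Z0 P + ν0 P * (a1 - a0))]
    have hBB : (ν0 P + ν1 P - 2 * s P) * ν0 P ≤ (ν1 P - ν0 P) ^ 2 := by
      have h7 : (ν0 P + ν1 P - 2 * s P) * (ν0 P + ν1 P + 2 * s P) = (ν1 P - ν0 P) ^ 2 := by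
        have := hs2 P
        nlinarith
      have h8 : 0 ≤ ν0 P + ν1 P - 2 * s P := by
        have : (2 * s P) ^ 2 ≤ (ν0 P + ν1 P) ^ 2 := by
          have := hs2 P
          nlinarith [sq_nonneg (ν1 P - ν0 P)]
        have h9 := (abs_le_of_sq_le_sq' this (by have := hν0 P; have := hν1 P; linarith)).2
        linarith
      rw [← h7]
      apply mul_le_mul_of_nonneg_left _ h8
      have := hν1 P; have := hs0 P
      linarith
    have h9 : ν0 P + ν1 P - 2 * s P ≤ 2 * (Z1 P - Z0 P) ^ 2 / ν0 P + 2 * ν0 P * (a1 - a0) ^ 2 := by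
      have : ν0 P + ν1 P - 2 * s P ≤ (2 * (Z1 P - Z0 P) ^ 2 + 2 * ν0 P ^ 2 * (a1 - a0) ^ 2) / ν0 P := by
        rw [le_div_iff₀ (hν0 P)]
        linarith
      refine this.trans (le_of_eq ?_)
      field_simp [(hν0 P).ne']
    have h10 : 2 * (Z1 P - Z0 P) ^ 2 / ν0 P ≤ 4 * ((Z1 P - Z0 P) ^ 2 / Z0 P) := by
      rw [div_le_iff₀ (hν0 P)]
      have h11 : 0 ≤ (Z1 P - Z0 P) ^ 2 / Z0 P := by have := hZ0 P; positivity
      have h12 : (Z1 P - Z0 P) ^ 2 = (Z1 P - Z0 P) ^ 2 / Z0 P * Z0 P := by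
        field_simp [(hZ0 P).ne']
      have := hν0l P
      nlinarith
    have := hA P
    linarith
  set SZ := ∑ P, (Z1 P - Z0 P) ^ 2 / Z0 P with hSZ
  set Se := ∑ P, Z0 P * n P ^ 2 with hSe
  have hSq : ∑ P, q P ≤ 8 / 3 * SZ := by
    have h1 : ∑ P, (ν0 P + ν1 P - 2 * s P) ≤ ∑ P, (4 * ((Z1 P - Z0 P) ^ 2 / Z0 P) + q P / 2) :=
      Finset.sum_le_sum fun P _ => hB P
    have h2 : ∑ P, (ν0 P + ν1 P - 2 * s P) = 2 * ∑ P, q P := by
      simp only [hq, Finset.sum_sub_distrib, Finset.sum_add_distrib, ← Finset.mul_sum, hs1, hsh]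
      ring
    have h3 : ∑ P, (4 * ((Z1 P - Z0 P) ^ 2 / Z0 P) + q P / 2) = 4 * SZ + (∑ P, q P) / 2 := by
      simp only [Finset.sum_add_distrib, ← Finset.mul_sum, ← Finset.sum_div, hSZ]
    rw [h2, h3] at h1
    linarith
  have hSZ0 : 0 ≤ SZ := Finset.sum_nonneg fun P _ => by have := hZ0 P; positivity
  have hSe0 : 0 ≤ Se := Finset.sum_nonneg fun P _ => by have := hZ0 P; positivity
  -- Cauchy-Schwarz
  set f : ι → ℝ := fun P => |Z1 P - Z0 P| / Real.sqrt (Z0 P) with hf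
  set g : ι → ℝ := fun P => Real.sqrt (Z0 P) * n P with hg
  have hf2 : ∀ P, f P ^ 2 = (Z1 P - Z0 P) ^ 2 / Z0 P := fun P => by
    simp only [hf, div_pow, sq_abs, Real.sq_sqrt (hZ0 P).le]
  have hg2 : ∀ P, g P ^ 2 = Z0 P * n P ^ 2 := fun P => by
    simp only [hg, mul_pow, Real.sq_sqrt (hZ0 P).le]
  have hg0 : ∀ P, 0 ≤ g P := fun P => mul_nonneg (Real.sqrt_nonneg _) (hn P)
  have T1 : ∑ P, β P * (Z1 P - Z0 P) ≤ R * (Real.sqrt SZ * Real.sqrt Se) := by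
    have h1 : ∑ P, f P * g P ≤ Real.sqrt (∑ P, f P ^ 2) * Real.sqrt (∑ P, g P ^ 2) :=
      Real.sum_mul_le_sqrt_mul_sqrt _ _ _
    simp only [hf2, hg2] at h1
    calc ∑ P, β P * (Z1 P - Z0 P) ≤ ∑ P, R * (f P * g P) := by
          apply Finset.sum_le_sum fun P _ => ?_
          have h2 : f P * g P = |Z1 P - Z0 P| * n P := by
            simp only [hf, hg]
            have : Real.sqrt (Z0 P) ≠ 0 := (Real.sqrt_pos.2 (hZ0 P)).ne'
            field_simp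
          rw [h2]
          calc β P * (Z1 P - Z0 P) ≤ |β P * (Z1 P - Z0 P)| := le_abs_self _
            _ = |β P| * |Z1 P - Z0 P| := abs_mul _ _
            _ ≤ (R * n P) * |Z1 P - Z0 P| := mul_le_mul_of_nonneg_right (hβ P) (abs_nonneg _)
            _ = R * (|Z1 P - Z0 P| * n P) := by ring
      _ = R * ∑ P, f P * g P := by rw [Finset.mul_sum]
      _ ≤ _ := mul_le_mul_of_nonneg_left h1 hR.le
  have T2 : ∑ P, D P ≤ 384 * R * (Real.sqrt Se * (1.64 * Real.sqrt SZ)) := by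
    have h1 : ∑ P, g P * Real.sqrt (q P) ≤
        Real.sqrt (∑ P, g P ^ 2) * Real.sqrt (∑ P, Real.sqrt (q P) ^ 2) :=
      Real.sum_mul_le_sqrt_mul_sqrt _ _ _
    have h2 : ∑ P, Real.sqrt (q P) ^ 2 = ∑ P, q P :=
      Finset.sum_congr rfl fun P _ => Real.sq_sqrt (hq0 P)
    simp only [hg2] at h1
    rw [h2] at h1
    have h3 : Real.sqrt (∑ P, q P) ≤ 1.64 * Real.sqrt SZ := by
      have : Real.sqrt (∑ P, q P) ≤ Real.sqrt (1.64 ^ 2 * SZ) := by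
        apply Real.sqrt_le_sqrt
        refine hSq.trans ?_
        nlinarith
      rwa [Real.sqrt_mul (by norm_num), Real.sqrt_sq (by norm_num)] at this
    calc ∑ P, D P ≤ ∑ P, 384 * R * (g P * Real.sqrt (q P)) := by
          apply Finset.sum_le_sum fun P _ => ?_
          refine (abs_le_of_sq_le_sq' ?_ (by have := hg0 P; positivity)).2
          have h4 := H2 P
          rw [mul_pow, mul_pow, mul_pow, hg2, Real.sq_sqrt (hq0 P)]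
          simp only [hq, hs]
          linarith
      _ = 384 * R * ∑ P, g P * Real.sqrt (q P) := by rw [Finset.mul_sum]
      _ ≤ 384 * R * (Real.sqrt Se * Real.sqrt (∑ P, q P)) :=
          mul_le_mul_of_nonneg_left h1 (by positivity)
      _ ≤ _ := by
          apply mul_le_mul_of_nonneg_left _ (by positivity)
          exact mul_le_mul_of_nonneg_left h3 (Real.sqrt_nonneg _)
  rw [Finset.sum_add_distrib]
  have h0 : 0 ≤ R * (Real.sqrt SZ * Real.sqrt Se) := by positivity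
  nlinarith

lemma integrable_unif_cont {K : Set (E d)} (hK : IsCompact K) (hvol : volume K ≠ 0)
    {F : Type*} [NormedAddCommGroup F] {f : E d → F} (hf : Continuous f) :
    Integrable f (unif K) := by
  unfold unif
  exact (hf.continuousOn.integrableOn_compact hK).smul_measure (ENNReal.inv_ne_top.2 hvol)

/-- inverse Gaussian weight -/
noncomputable def gv (κ : ℝ) (x : E d) : ℝ := Real.exp (κ * ‖x‖ ^ 2 / 2)

lemma gv_mul_gw (κ : ℝ) (x : E d) : gv κ x * gw κ x = 1 := by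
  unfold gv gw; rw [← Real.exp_add]; simp

lemma continuous_gw (κ : ℝ) : Continuous (gw κ : E d → ℝ) := by unfold gw; fun_prop

lemma continuous_gv (κ : ℝ) : Continuous (gv κ : E d → ℝ) := by unfold gv; fun_prop

lemma fm_u_bound {R : ℝ} (hR : 0 < R) {x : E d} (hx : ‖x‖ ≤ R) :
    0 ≤ 1 / (256 * R ^ 2) * ‖x‖ ^ 2 / 2 ∧ 1 / (256 * R ^ 2) * ‖x‖ ^ 2 / 2 ≤ 1 / 512 := by
  have h : ‖x‖ ^ 2 ≤ R ^ 2 := pow_le_pow_left₀ (norm_nonneg _) hx 2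
  refine ⟨by positivity, ?_⟩
  rw [div_mul_eq_mul_div, one_mul, div_div, div_le_div_iff₀ (by positivity) (by norm_num)]
  nlinarith

lemma gw_bounds {R : ℝ} (hR : 0 < R) {x : E d} (hx : ‖x‖ ≤ R) :
    1 / 2 ≤ gw (1 / (256 * R ^ 2)) x ∧ gw (1 / (256 * R ^ 2)) x ≤ 1 := by
  obtain ⟨h0, h1⟩ := fm_u_bound hR hx
  unfold gw
  constructor
  · have := Real.add_one_le_exp (-(1 / (256 * R ^ 2) * ‖x‖ ^ 2 / 2))
    linarith
  · rw [Real.exp_le_one_iff]; linarith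

lemma gv_bounds {R : ℝ} (hR : 0 < R) {x : E d} (hx : ‖x‖ ≤ R) :
    1 ≤ gv (1 / (256 * R ^ 2)) x ∧ gv (1 / (256 * R ^ 2)) x ≤ 2 := by
  obtain ⟨h0, h1⟩ := gw_bounds hR hx
  have h2 := gv_mul_gw (1 / (256 * R ^ 2)) x
  have h3 : 0 < gv (1 / (256 * R ^ 2)) x := Real.exp_pos _
  constructor <;> nlinarith

lemma exp_sub_le (a b : ℝ) : Real.exp b - Real.exp a ≤ Real.exp b * (b - a) := by
  have h := Real.add_one_le_exp (a - b)
  have h2 : Real.exp a = Real.exp b * Real.exp (a - b) := by rw [← Real.exp_add]; ring_nf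
  rw [h2]
  nlinarith [Real.exp_pos b]

lemma gv_lip {R : ℝ} (hR : 0 < R) {x x' : E d} (hx : ‖x‖ ≤ R) (hx' : ‖x'‖ ≤ R) :
    |gv (1 / (256 * R ^ 2)) x' - gv (1 / (256 * R ^ 2)) x| ≤
      2 * (1 / (256 * R ^ 2)) * R * ‖x' - x‖ := by
  set κ : ℝ := 1 / (256 * R ^ 2) with hκ
  have hκ0 : 0 < κ := by positivity
  have hu : |κ * ‖x'‖ ^ 2 / 2 - κ * ‖x‖ ^ 2 / 2| ≤ κ * R * ‖x' - x‖ := by
    have e : κ * ‖x'‖ ^ 2 / 2 - κ * ‖x‖ ^ 2 / 2 = κ / 2 * ((‖x'‖ - ‖x‖) * (‖x'‖ + ‖x‖)) := by ring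
    rw [e, abs_mul, abs_mul, abs_of_pos (by positivity : 0 < κ / 2),
      abs_of_nonneg (by positivity : 0 ≤ ‖x'‖ + ‖x‖)]
    have h1 := abs_norm_sub_norm_le x' x
    have h2 : |‖x'‖ - ‖x‖| * (‖x'‖ + ‖x‖) ≤ ‖x' - x‖ * (2 * R) :=
      mul_le_mul h1 (by linarith) (by positivity) (norm_nonneg _)
    calc κ / 2 * (|‖x'‖ - ‖x‖| * (‖x'‖ + ‖x‖)) ≤ κ / 2 * (‖x' - x‖ * (2 * R)) :=
          mul_le_mul_of_nonneg_left h2 (by positivity)
      _ = κ * R * ‖x' - x‖ := by ring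
  have b := (gv_bounds hR hx).2
  have b' := (gv_bounds hR hx').2
  rw [← hκ] at b b'
  have p : 0 < gv κ x := Real.exp_pos _
  have p' : 0 < gv κ x' := Real.exp_pos _
  have h1 := exp_sub_le (κ * ‖x‖ ^ 2 / 2) (κ * ‖x'‖ ^ 2 / 2)
  have h2 := exp_sub_le (κ * ‖x'‖ ^ 2 / 2) (κ * ‖x‖ ^ 2 / 2)
  change gv κ x' - gv κ x ≤ gv κ x' * _ at h1
  change gv κ x - gv κ x' ≤ gv κ x * _ at h2
  obtain ⟨h3, h4⟩ := abs_le.1 hu
  have h5 : 0 ≤ κ * R * ‖x' - x‖ := by positivity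
  rw [abs_le]
  constructor
  · have : gv κ x * (κ * ‖x‖ ^ 2 / 2 - κ * ‖x'‖ ^ 2 / 2) ≤ 2 * (κ * R * ‖x' - x‖) := by
      calc gv κ x * (κ * ‖x‖ ^ 2 / 2 - κ * ‖x'‖ ^ 2 / 2) ≤ gv κ x * (κ * R * ‖x' - x‖) :=
            mul_le_mul_of_nonneg_left (by linarith) p.le
        _ ≤ 2 * (κ * R * ‖x' - x‖) := mul_le_mul_of_nonneg_right b h5
    linarith
  · have : gv κ x' * (κ * ‖x'‖ ^ 2 / 2 - κ * ‖x‖ ^ 2 / 2) ≤ 2 * (κ * R * ‖x' - x‖) := by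
      calc gv κ x' * (κ * ‖x'‖ ^ 2 / 2 - κ * ‖x‖ ^ 2 / 2) ≤ gv κ x' * (κ * R * ‖x' - x‖) :=
            mul_le_mul_of_nonneg_left (by linarith) p'.le
        _ ≤ 2 * (κ * R * ‖x' - x‖) := mul_le_mul_of_nonneg_right b' h5
    linarith

lemma nu_bounds {K : Set (E d)} (hK : IsCompact K) (hvol : volume K ≠ 0) {R : ℝ} (hR : 0 < R)
    (hKb : ∀ x ∈ K, ‖x‖ ≤ R) {A : Set (E d)} (hA : MeasurableSet A) (sA : A ⊆ K) :
    (unif K A).toReal / 2 ≤ ∫ x in A, gw (1 / (256 * R ^ 2)) x ∂(unif K) ∧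
      ∫ x in A, gw (1 / (256 * R ^ 2)) x ∂(unif K) ≤ (unif K A).toReal := by
  have : IsProbabilityMeasure (unif K) := isProbabilityMeasure_unif hvol hK.measure_lt_top.ne
  have hi : IntegrableOn (gw (1 / (256 * R ^ 2))) A (unif K) :=
    (integrable_unif_cont hK hvol (continuous_gw _)).integrableOn
  constructor
  · have h := setIntegral_mono_on (μ := unif K) (s := A) (f := fun _ => (1 / 2 : ℝ))
      (g := gw (1 / (256 * R ^ 2))) (integrable_const _).integrableOn hi hA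
      (fun x hx => (gw_bounds hR (hKb x (sA hx))).1)
    simp only [setIntegral_const, smul_eq_mul, Measure.real] at h
    linarith
  · have h := setIntegral_mono_on (μ := unif K) (s := A) (g := fun _ => (1 : ℝ))
      (f := gw (1 / (256 * R ^ 2))) hi (integrable_const _).integrableOn hA
      (fun x hx => (gw_bounds hR (hKb x (sA hx))).2)
    simp only [setIntegral_const, smul_eq_mul, Measure.real] at h
    linarith

lemma setIntegral_gv_gw (K : Set (E d)) (κ : ℝ) (A : Set (E d)) :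
    ∫ x in A, gv κ x * gw κ x ∂(unif K) = (unif K A).toReal := by
  simp only [gv_mul_gw, setIntegral_const, smul_eq_mul, Measure.real, mul_one]

lemma setIntegral_lin {K : Set (E d)} (hK : IsCompact K) (hvol : volume K ≠ 0) (κ β : ℝ)
    (e : E d) (A : Set (E d)) :
    ∫ x in A, ((inner ℝ x e - β) * gv κ x) * gw κ x ∂(unif K) =
      inner ℝ (∫ x in A, x ∂(unif K)) e - β * (unif K A).toReal := by
  have : IsProbabilityMeasure (unif K) := isProbabilityMeasure_unif hvol hK.measure_lt_top.ne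
  have hid : Integrable (fun x : E d => x) (unif K) := integrable_unif_cont hK hvol continuous_id
  have h1 : ∀ x : E d, ((inner ℝ x e - β) * gv κ x) * gw κ x = inner ℝ e x - β := fun x => by
    rw [mul_assoc, gv_mul_gw, mul_one, real_inner_comm]
  simp only [h1]
  rw [integral_sub, integral_inner hid.integrableOn, real_inner_comm]
  · simp only [setIntegral_const, smul_eq_mul, Measure.real]; ring
  · exact (hid.integrableOn.inner_const e |>.congr (by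
      filter_upwards with x; rw [real_inner_comm]))
  · exact (integrable_const _).integrableOn


lemma fm_H2 (R : ℝ) (hR : 0 < R) (Z0 Z1 ν0 ν1 νh D n : ℝ) (hZ0 : 0 < Z0) (hZ1l : Z0 / 2 ≤ Z1)
    (hZ1u : Z1 ≤ 2 * Z0) (hν0l : Z0 / 2 ≤ ν0) (hν1l : Z1 / 2 ≤ ν1) (hν1u : ν1 ≤ Z1) (hn : 0 < n)
    (H : Real.sqrt (ν0 * ν1) *
      (1 + 1 / (256 * R ^ 2) * (D / ν1 - 0 / ν0) ^ 2 / (8 * (3 * n) ^ 2)) ≤ νh) :
    D ^ 2 ≤ 147456 * R ^ 2 * (Z0 * n ^ 2) * (νh - Real.sqrt (ν0 * ν1)) := by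
  have hν1 : 0 < ν1 := by linarith
  have hν0 : 0 < ν0 := by linarith
  set s := Real.sqrt (ν0 * ν1) with hs
  have hsl : ν1 / 2 ≤ s := by
    apply Real.le_sqrt_of_sq_le
    have : ν1 / 4 ≤ ν0 := by linarith
    nlinarith
  have hX : 1 / (256 * R ^ 2) * (D / ν1 - 0 / ν0) ^ 2 / (8 * (3 * n) ^ 2) =
      D ^ 2 / (18432 * R ^ 2 * n ^ 2 * ν1 ^ 2) := by
    field_simp
    ring
  rw [hX] at H
  have hX0 : 0 ≤ D ^ 2 / (18432 * R ^ 2 * n ^ 2 * ν1 ^ 2) := by positivity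
  have h1 : ν1 / 2 * (D ^ 2 / (18432 * R ^ 2 * n ^ 2 * ν1 ^ 2)) ≤ νh - s := by
    have := mul_le_mul_of_nonneg_right hsl hX0
    linarith
  have h2 : ν1 / 2 * (D ^ 2 / (18432 * R ^ 2 * n ^ 2 * ν1 ^ 2)) =
      D ^ 2 / (36864 * R ^ 2 * n ^ 2 * ν1) := by
    field_simp
    ring
  rw [h2, div_le_iff₀ (by positivity)] at h1
  have hq : 0 ≤ νh - s := by
    have : 0 ≤ ν1 / 2 * (D ^ 2 / (18432 * R ^ 2 * n ^ 2 * ν1 ^ 2)) := by positivity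
    by_contra hneg
    push Not at hneg
    have h3 : 0 < 36864 * R ^ 2 * n ^ 2 * ν1 := by positivity
    nlinarith [sq_nonneg D]
  refine h1.trans ?_
  have h4 : 36864 * R ^ 2 * n ^ 2 * ν1 ≤ 147456 * R ^ 2 * (Z0 * n ^ 2) := by
    have h5 : 0 ≤ R ^ 2 * n ^ 2 := by positivity
    nlinarith
  calc (νh - s) * (36864 * R ^ 2 * n ^ 2 * ν1) ≤ (νh - s) * (147456 * R ^ 2 * (Z0 * n ^ 2)) :=
        mul_le_mul_of_nonneg_left h4 hq
    _ = _ := by ring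

lemma zeta_lip {R : ℝ} (hR : 0 < R) {x x' : E d} (hx : ‖x‖ ≤ R) (hx' : ‖x'‖ ≤ R) (e : E d)
    (β : ℝ) (hβ : |β| ≤ R * ‖e‖) :
    |(inner ℝ x' e - β) * gv (1 / (256 * R ^ 2)) x' - (inner ℝ x e - β) * gv (1 / (256 * R ^ 2)) x|
      ≤ 3 * ‖e‖ * ‖x' - x‖ := by
  set κ : ℝ := 1 / (256 * R ^ 2) with hκ
  have e1 : (inner ℝ x' e - β) * gv κ x' - (inner ℝ x e - β) * gv κ x =
      inner ℝ (x' - x) e * gv κ x' + (inner ℝ x e - β) * (gv κ x' - gv κ x) := by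
    rw [inner_sub_left]; ring
  have b1 : |inner ℝ (x' - x) e| ≤ ‖x' - x‖ * ‖e‖ := abs_real_inner_le_norm _ _
  have b2 : |gv κ x'| ≤ 2 := by
    rw [abs_of_pos (show 0 < gv κ x' from Real.exp_pos _)]; exact (gv_bounds hR hx').2
  have b3 : |inner ℝ x e - β| ≤ 2 * R * ‖e‖ := by
    have h1 : |inner ℝ x e| ≤ ‖x‖ * ‖e‖ := abs_real_inner_le_norm _ _
    have h2 : ‖x‖ * ‖e‖ ≤ R * ‖e‖ := mul_le_mul_of_nonneg_right hx (norm_nonneg _)
    have h3 := abs_sub (inner ℝ x e) β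
    linarith
  have b4 := gv_lip hR hx hx'
  rw [← hκ] at b4
  rw [e1]
  have hκR : 2 * R * (2 * κ * R) = 1 / 64 := by
    rw [hκ]; field_simp; norm_num
  calc |inner ℝ (x' - x) e * gv κ x' + (inner ℝ x e - β) * (gv κ x' - gv κ x)|
      ≤ |inner ℝ (x' - x) e| * |gv κ x'| + |inner ℝ x e - β| * |gv κ x' - gv κ x| := by
        rw [← abs_mul, ← abs_mul]; exact abs_add_le _ _
    _ ≤ (‖x' - x‖ * ‖e‖) * 2 + (2 * R * ‖e‖) * (2 * κ * R * ‖x' - x‖) := by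
        apply add_le_add
        · exact mul_le_mul b1 b2 (abs_nonneg _) (by positivity)
        · exact mul_le_mul b3 b4 (abs_nonneg _) (by positivity)
    _ = (2 + 2 * R * (2 * κ * R)) * (‖e‖ * ‖x' - x‖) := by ring
    _ ≤ 3 * (‖e‖ * ‖x' - x‖) := by
        rw [hκR]
        apply mul_le_mul_of_nonneg_right (by norm_num) (by positivity)
    _ = _ := by ring

theorem first_moment_ineq (K : Set (E d)) (hK : IsCompact K) (hconv : Convex ℝ K)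
    (hvol : volume K ≠ 0) (R : ℝ) (hR : 0 < R) (hKb : ∀ x ∈ K, ‖x‖ ≤ R)
    (y : ι → E d) (hy : Function.Injective y) (c0 c1 : ι → ℝ) (e : ι → E d)
    (hpos : ∀ P, 0 < (unif K (Lag K y c0 P)).toReal)
    (hcmp : ∀ P, (unif K (Lag K y c0 P)).toReal / 2 ≤ (unif K (Lag K y c1 P)).toReal ∧
      (unif K (Lag K y c1 P)).toReal ≤ 2 * (unif K (Lag K y c0 P)).toReal) :
    ∑ P, inner ℝ ((∫ x in Lag K y c1 P, x ∂(unif K)) - ∫ x in Lag K y c0 P, x ∂(unif K)) (e P) ≤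
      700 * R *
        Real.sqrt (∑ P, ((unif K (Lag K y c1 P)).toReal - (unif K (Lag K y c0 P)).toReal) ^ 2 /
          (unif K (Lag K y c0 P)).toReal) *
        Real.sqrt (∑ P, (unif K (Lag K y c0 P)).toReal * ‖e P‖ ^ 2) := by
  classical
  rcases isEmpty_or_nonempty ι with hι | hι
  · simp
  have hprob : IsProbabilityMeasure (unif K) :=
    isProbabilityMeasure_unif hvol hK.measure_lt_top.ne
  set κ : ℝ := 1 / (256 * R ^ 2) with hκdef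
  have hκ : 0 < κ := by positivity
  set ch : ι → ℝ := fun Q => (c0 Q + c1 Q) / 2 with hch
  set Z0 : ι → ℝ := fun P => (unif K (Lag K y c0 P)).toReal with hZ0d
  set Z1 : ι → ℝ := fun P => (unif K (Lag K y c1 P)).toReal with hZ1d
  set ν0 : ι → ℝ := fun P => ∫ x in Lag K y c0 P, gw κ x ∂(unif K) with hν0d
  set ν1 : ι → ℝ := fun P => ∫ x in Lag K y c1 P, gw κ x ∂(unif K) with hν1d
  set νh : ι → ℝ := fun P => ∫ x in Lag K y ch P, gw κ x ∂(unif K) with hνhd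
  set M0 : ι → E d := fun P => ∫ x in Lag K y c0 P, x ∂(unif K) with hM0d
  set M1 : ι → E d := fun P => ∫ x in Lag K y c1 P, x ∂(unif K) with hM1d
  set β : ι → ℝ := fun P => inner ℝ (M0 P) (e P) / Z0 P with hβd
  set D : ι → ℝ := fun P => inner ℝ (M1 P) (e P) - β P * Z1 P with hDd
  have m0 := fun P => measurableSet_Lag hK y c0 P
  have m1 := fun P => measurableSet_Lag hK y c1 P
  have mh := fun P => measurableSet_Lag hK y ch P
  have b0 : ∀ P, Z0 P / 2 ≤ ν0 P ∧ ν0 P ≤ Z0 P :=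
    fun P => nu_bounds hK hvol hR hKb (m0 P) (Lag_subset K y c0 P)
  have b1 : ∀ P, Z1 P / 2 ≤ ν1 P ∧ ν1 P ≤ Z1 P :=
    fun P => nu_bounds hK hvol hR hKb (m1 P) (Lag_subset K y c1 P)
  have hZ0 : ∀ P, 0 < Z0 P := hpos
  have hν0pos : ∀ P, 0 < ν0 P := fun P => by have := hZ0 P; have := (b0 P).1; linarith
  have hν1pos : ∀ P, 0 < ν1 P := fun P => by
    have := hZ0 P; have := (b1 P).1; have := (hcmp P).1; linarith
  have hwint := integrable_unif_cont hK hvol (continuous_gw (d := d) κ)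
  have s0 : ∫ x, gw κ x ∂(unif K) = ∑ P, ν0 P := integral_eq_sum_Lag hK y hy c0 _ hwint
  have s1 : ∫ x, gw κ x ∂(unif K) = ∑ P, ν1 P := integral_eq_sum_Lag hK y hy c1 _ hwint
  have sh : ∫ x, gw κ x ∂(unif K) = ∑ P, νh P := integral_eq_sum_Lag hK y hy ch _ hwint
  have H1 : ∀ P, Real.sqrt (ν0 P * ν1 P) * (1 + 8 * (Z1 P / ν1 P - Z0 P / ν0 P) ^ 2) ≤ νh P := by
    intro P
    have h := cell_ineq K hK hvol κ (2 * κ * R) hκ (by positivity) (Lag K y c0 P) (Lag K y c1 P)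
      (Lag K y ch P) (m0 P) (m1 P) (mh P) (Lag_subset ..) (Lag_subset ..) (Lag_subset ..)
      (fun x hx x' hx' => Lag_midpoint hconv y c0 c1 P hx hx') (gv κ) (continuous_gv κ)
      (fun x hx x' hx' => gv_lip hR (hKb x hx.1) (hKb x' hx'.1)) (hν0pos P) (hν1pos P)
    rw [setIntegral_gv_gw, setIntegral_gv_gw] at h
    have hc : ∀ t : ℝ, κ * t / (8 * (2 * κ * R) ^ 2) = 8 * t := fun t => by
      rw [hκdef]; field_simp; ring
    rw [hc] at h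
    exact h
  have hM0 : ∀ P, ‖M0 P‖ ≤ R * Z0 P := fun P =>
    norm_setIntegral_le_of_norm_le_const (measure_lt_top _ _) (fun x hx => hKb x hx.1)
  have hβ : ∀ P, |β P| ≤ R * ‖e P‖ := fun P => by
    simp only [hβd]
    rw [abs_div, abs_of_pos (hZ0 P), div_le_iff₀ (hZ0 P)]
    calc |inner ℝ (M0 P) (e P)| ≤ ‖M0 P‖ * ‖e P‖ := abs_real_inner_le_norm _ _
      _ ≤ (R * Z0 P) * ‖e P‖ := mul_le_mul_of_nonneg_right (hM0 P) (norm_nonneg _)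
      _ = _ := by ring
  have H2 : ∀ P, (D P) ^ 2 ≤
      147456 * R ^ 2 * (Z0 P * ‖e P‖ ^ 2) * (νh P - Real.sqrt (ν0 P * ν1 P)) := by
    intro P
    by_cases he : e P = 0
    · simp [hDd, hβd, he]
    have hn : 0 < ‖e P‖ := norm_pos_iff.2 he
    have h := cell_ineq K hK hvol κ (3 * ‖e P‖) hκ (by positivity) (Lag K y c0 P) (Lag K y c1 P)
      (Lag K y ch P) (m0 P) (m1 P) (mh P) (Lag_subset ..) (Lag_subset ..) (Lag_subset ..)
      (fun x hx x' hx' => Lag_midpoint hconv y c0 c1 P hx hx')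
      (fun x => (inner ℝ x (e P) - β P) * gv κ x)
      (by have := continuous_gv (d := d) κ; fun_prop)
      (fun x hx x' hx' => zeta_lip hR (hKb x hx.1) (hKb x' hx'.1) (e P) (β P) (hβ P))
      (hν0pos P) (hν1pos P)
    rw [setIntegral_lin hK hvol, setIntegral_lin hK hvol] at h
    have hz : inner ℝ (∫ x in Lag K y c0 P, x ∂(unif K)) (e P)
        - β P * (unif K (Lag K y c0 P)).toReal = 0 := by
      change inner ℝ (M0 P) (e P) - β P * Z0 P = 0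
      simp only [hβd]
      field_simp [(hZ0 P).ne']
      ring
    rw [hz] at h
    exact fm_H2 R hR (Z0 P) (Z1 P) (ν0 P) (ν1 P) (νh P) (D P) ‖e P‖ (hZ0 P) (hcmp P).1 (hcmp P).2
      (b0 P).1 (b1 P).1 (b1 P).2 hn h
  have key := fm_algebra R hR Z0 Z1 ν0 ν1 νh D β (fun P => ‖e P‖) hZ0 (fun P => (hcmp P).1)
    (fun P => (b0 P).1) (fun P => (b0 P).2) (fun P => (b1 P).1)
    (fun P => (b1 P).2) (s1.symm.trans s0) (sh.symm.trans s0) H1 H2 (fun P => norm_nonneg _) hβ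
  refine le_trans (le_of_eq ?_) key
  apply Finset.sum_congr rfl
  intro P _
  rw [inner_sub_left]
  simp only [hDd, hβd]
  field_simp [(hZ0 P).ne']
  ring

end Vale.Agent.Lib.P074
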