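import Vale.Agent.Lib.P074.Core

/-!
MODULE M5 (P074).  Every optimal map (minimiser among Borel maps) coincides a.e. with the Brenier map.

ROUTE.  ρ = unif K, μ = ρ.map T.  S is measurable, ρ.map S = μ, and cost S ≤ cost T (T is a competitor).
μ Yᶜ = 0, so S x ∈ Y a.e.  All functions are bounded a.e., so the lintegrals are ofReal of integrals;
∫ ‖S x‖^2 dρ = ∫ ‖y‖^2 dμ = ∫ ‖T x‖^2 dρ, hence ∫ ⟪x, T x⟫ dρ ≤ ∫ ⟪x, S x⟫ dρ (norm_sub_sq_real).
∫ ψ (S x) dρ = ∫ ψ dμ = ∫ ψ (T x) dρ, so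
  ∫ (φ x + ψ (S x) - ⟪x, S x⟫) dρ = ∫ ⟪x, T x⟫ dρ - ∫ ⟪x, S x⟫ dρ ≤ 0   (IsPot.eq).
core_ineq: r A ≤ c r^2 for all 0 < r ≤ 1, A = ∫ ‖S - T‖ dρ ≥ 0, so A = 0 and S = T a.e.
(integral_eq_zero_iff_of_nonneg).
-/

open MeasureTheory Set
open scoped ENNReal NNReal

namespace Vale.Agent.Lib.P074

variable {d : ℕ}

theorem opt_eq_brenier (K Y : Set (E d)) (hK : IsCompact K) (hvol : volume K ≠ 0)
    (hY : IsCompact Y) (RK RY : ℝ≥0) (hKb : ∀ x ∈ K, ‖x‖ ≤ RK) (hYb : ∀ y ∈ Y, ‖y‖ ≤ RY)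
    (T : E d → E d) (φ ψ : E d → ℝ) (hP : IsPot K Y RK RY T φ ψ)
    (S : E d → E d) (hS : IsOptMap (unif K) ((unif K).map T) S) :
    S =ᵐ[unif K] T := by
  have htop : volume K ≠ ⊤ := hK.measure_lt_top.ne
  have hprob := isProbabilityMeasure_unif hvol htop
  have hKae := ae_mem_unif (d := d) hK.measurableSet
  obtain ⟨hSm, hSmap, hSopt⟩ := hS
  have hRK : (0 : ℝ) ≤ RK := RK.coe_nonneg
  have hRY : (0 : ℝ) ≤ RY := RY.coe_nonneg
  -- S takes values in Y
  have hSY : ∀ᵐ x ∂(unif K), S x ∈ Y := by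
    have h1 : ((unif K).map T) Yᶜ = 0 := by
      rw [Measure.map_apply hP.meas hY.measurableSet.compl]
      have : T ⁻¹' Yᶜ = ∅ := by
        ext x
        simp [hP.mem x]
      rw [this]
      simp
    rw [← hSmap, Measure.map_apply hSm hY.measurableSet.compl] at h1
    rw [ae_iff]
    exact h1
  have hTY : ∀ᵐ x ∂(unif K), T x ∈ Y := Filter.Eventually.of_forall hP.mem
  have hφc : Continuous φ := hP.lipφ.continuous
  have hψc : Continuous ψ := hP.lipψ.continuous
  obtain ⟨M1, hM1⟩ := hK.exists_bound_of_continuousOn hφc.continuousOn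
  obtain ⟨M2, hM2⟩ := hY.exists_bound_of_continuousOn hψc.continuousOn
  -- integrability facts, for any measurable map with values in Y
  have Iφ : Integrable φ (unif K) := by
    refine integrable_unif_of_bound hvol htop hφc.measurable M1 ?_
    filter_upwards [hKae] with x hx
    exact hM1 x hx
  have Iψ : ∀ U : E d → E d, Measurable U → (∀ᵐ x ∂(unif K), U x ∈ Y) →
      Integrable (fun x => ψ (U x)) (unif K) := by
    intro U hU hUY
    refine integrable_unif_of_bound hvol htop (hψc.measurable.comp hU) M2 ?_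
    filter_upwards [hUY] with x hx
    exact hM2 _ hx
  have Iin : ∀ U : E d → E d, Measurable U → (∀ᵐ x ∂(unif K), U x ∈ Y) →
      Integrable (fun x => inner ℝ x (U x)) (unif K) := by
    intro U hU hUY
    refine integrable_unif_of_bound hvol htop (measurable_id.inner hU) (RK * RY) ?_
    filter_upwards [hKae, hUY] with x hx hx2
    calc |inner ℝ x (U x)| ≤ ‖x‖ * ‖U x‖ := abs_real_inner_le_norm _ _
      _ ≤ RK * RY := mul_le_mul (hKb x hx) (hYb _ hx2) (norm_nonneg _) hRK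
  have Isq : ∀ U : E d → E d, Measurable U → (∀ᵐ x ∂(unif K), U x ∈ Y) →
      Integrable (fun x => ‖U x‖ ^ 2) (unif K) := by
    intro U hU hUY
    refine integrable_unif_of_bound hvol htop (hU.norm.pow_const 2) (RY ^ 2) ?_
    filter_upwards [hUY] with x hx
    rw [abs_of_nonneg (by positivity)]
    exact pow_le_pow_left₀ (norm_nonneg _) (hYb _ hx) 2
  have Ix : Integrable (fun x : E d => ‖x‖ ^ 2) (unif K) := by
    refine integrable_unif_of_bound hvol htop (measurable_norm.pow_const 2) (RK ^ 2) ?_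
    filter_upwards [hKae] with x hx
    rw [abs_of_nonneg (by positivity)]
    exact pow_le_pow_left₀ (norm_nonneg _) (hKb _ hx) 2
  have Icost : ∀ U : E d → E d, Measurable U → (∀ᵐ x ∂(unif K), U x ∈ Y) →
      Integrable (fun x => ‖x - U x‖ ^ 2) (unif K) := by
    intro U hU hUY
    have : (fun x => ‖x - U x‖ ^ 2) = fun x => ‖x‖ ^ 2 - 2 * inner ℝ x (U x) + ‖U x‖ ^ 2 := by
      funext x
      exact norm_sub_sq_real x (U x)
    rw [this]
    exact (Ix.sub ((Iin U hU hUY).const_mul 2)).add (Isq U hU hUY)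
  have hcostreal : ∀ U : E d → E d, Measurable U → (∀ᵐ x ∂(unif K), U x ∈ Y) →
      ∫⁻ x, ‖x - U x‖ₑ ^ 2 ∂(unif K) = ENNReal.ofReal (∫ x, ‖x - U x‖ ^ 2 ∂(unif K)) := by
    intro U hU hUY
    rw [ofReal_integral_eq_lintegral_ofReal (Icost U hU hUY)
      (Filter.Eventually.of_forall fun x => by positivity)]
    apply lintegral_congr
    intro x
    rw [ENNReal.ofReal_pow (norm_nonneg _), ofReal_norm]
  have hcost : ∫ x, ‖x - S x‖ ^ 2 ∂(unif K) ≤ ∫ x, ‖x - T x‖ ^ 2 ∂(unif K) := by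
    have h1 := hSopt T hP.meas rfl
    rw [hcostreal S hSm hSY, hcostreal T hP.meas hTY] at h1
    exact (ENNReal.ofReal_le_ofReal_iff (integral_nonneg fun x => by positivity)).1 h1
  have hexp : ∀ U : E d → E d, Measurable U → (∀ᵐ x ∂(unif K), U x ∈ Y) →
      ∫ x, ‖x - U x‖ ^ 2 ∂(unif K) = ∫ x, ‖x‖ ^ 2 ∂(unif K) - 2 * ∫ x, inner ℝ x (U x) ∂(unif K)
        + ∫ x, ‖U x‖ ^ 2 ∂(unif K) := by
    intro U hU hUY
    have : (fun x => ‖x - U x‖ ^ 2) = fun x => ‖x‖ ^ 2 - 2 * inner ℝ x (U x) + ‖U x‖ ^ 2 := by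
      funext x
      exact norm_sub_sq_real x (U x)
    have J1 : Integrable (fun x => ‖x‖ ^ 2 - 2 * inner ℝ x (U x)) (unif K) :=
      Ix.sub ((Iin U hU hUY).const_mul 2)
    rw [this, integral_add J1 (Isq U hU hUY),
      integral_sub Ix ((Iin U hU hUY).const_mul 2), integral_const_mul]
  have hsq : ∫ x, ‖S x‖ ^ 2 ∂(unif K) = ∫ x, ‖T x‖ ^ 2 ∂(unif K) := by
    have hc : Continuous fun y : E d => ‖y‖ ^ 2 := by fun_prop
    rw [← integral_map hSm.aemeasurable (f := fun y : E d => ‖y‖ ^ 2) hc.aestronglyMeasurable,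
      ← integral_map hP.meas.aemeasurable (f := fun y : E d => ‖y‖ ^ 2) hc.aestronglyMeasurable,
      hSmap]
  have hψeq : ∫ x, ψ (S x) ∂(unif K) = ∫ x, ψ (T x) ∂(unif K) := by
    rw [← integral_map hSm.aemeasurable (f := ψ) hψc.aestronglyMeasurable,
      ← integral_map hP.meas.aemeasurable (f := ψ) hψc.aestronglyMeasurable, hSmap]
  have hinner : ∫ x, inner ℝ x (T x) ∂(unif K) ≤ ∫ x, inner ℝ x (S x) ∂(unif K) := by
    rw [hexp S hSm hSY, hexp T hP.meas hTY, hsq] at hcost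
    linarith
  have hTeq : ∫ x, inner ℝ x (T x) ∂(unif K) = ∫ x, φ x ∂(unif K) + ∫ x, ψ (T x) ∂(unif K) := by
    rw [← integral_add Iφ (Iψ T hP.meas hTY)]
    exact integral_congr_ae hP.eq
  have hG : ∫ x, (φ x + ψ (S x) - inner ℝ x (S x)) ∂(unif K) ≤ 0 := by
    have J2 : Integrable (fun x => φ x + ψ (S x)) (unif K) := Iφ.add (Iψ S hSm hSY)
    rw [integral_sub J2 (Iin S hSm hSY), integral_add Iφ (Iψ S hSm hSY)]
    linarith
  set A : ℝ := ∫ x, ‖S x - T x‖ ∂(unif K) with hA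
  have hA0 : 0 ≤ A := integral_nonneg fun x => norm_nonneg _
  have hgeo : 0 ≤ geoC K := by unfold geoC; positivity
  have hd : (0 : ℝ) ≤ d := Nat.cast_nonneg d
  set c : ℝ := d * RY * geoC K with hc
  have hc0 : 0 ≤ c := by positivity
  have hAle : A ≤ 0 := by
    apply le_of_forall_pos_le_add
    intro ε hε
    set r : ℝ := min 1 (ε / (c + 1)) with hr
    have hr0 : 0 < r := lt_min one_pos (by positivity)
    have hr1 : r ≤ 1 := min_le_left _ _
    have h3 := core_ineq K Y hK hvol RK RY hKb hYb T φ ψ hP S hSm hSY r hr0 hr1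
    have h3' : (d : ℝ) * ∫ x, (φ x + ψ (S x) - inner ℝ x (S x)) ∂(unif K) ≤ 0 :=
      mul_nonpos_of_nonneg_of_nonpos hd hG
    have h4 : r * A ≤ r * (c * r) := by
      have : (d : ℝ) * RY * r ^ 2 * geoC K = r * (c * r) := by
        rw [hc]; ring
      linarith
    have h5 : A ≤ c * r := le_of_mul_le_mul_left h4 hr0
    have h6 : c * r ≤ c * (ε / (c + 1)) := mul_le_mul_of_nonneg_left (min_le_right _ _) hc0
    have h7 : c * (ε / (c + 1)) ≤ ε := by
      rw [mul_div_assoc', div_le_iff₀ (by positivity)]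
      nlinarith
    linarith
  have hAz : A = 0 := le_antisymm hAle hA0
  have Inorm : Integrable (fun x => ‖S x - T x‖) (unif K) := by
    refine integrable_unif_of_bound hvol htop (hSm.sub hP.meas).norm (RY + RY) ?_
    filter_upwards [hSY, hTY] with x h1 h2
    rw [abs_of_nonneg (norm_nonneg _)]
    exact (norm_sub_le _ _).trans (add_le_add (hYb _ h1) (hYb _ h2))
  have hz := (integral_eq_zero_iff_of_nonneg (fun x => norm_nonneg _) Inorm).1 hAz
  filter_upwards [hz] with x hx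
  have : ‖S x - T x‖ = 0 := hx
  exact sub_eq_zero.1 (norm_eq_zero.1 this)

end Vale.Agent.Lib.P074
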