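import Vale.Agent.Lib.P074.Stab
import Vale.Agent.Lib.P074.Uniq
import Vale.Agent.Lib.P074.Exist

/-! Assembly (P074): the exponent 1/4 is admissible in every dimension. -/

open MeasureTheory Set
open scoped ENNReal NNReal

namespace Vale.Agent.Lib.P074

variable {d : ℕ}

theorem admissible_quarter (d : ℕ) : Admissible d (1 / 4) := by
  intro K hK _ hint Y hY hYne
  have hvol : volume K ≠ 0 :=
    (lt_of_lt_of_le (isOpen_interior.measure_pos volume hint) (measure_mono interior_subset)).ne'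
  obtain ⟨cK, hcK⟩ := hK.isBounded.exists_norm_le
  obtain ⟨cY, hcY⟩ := hY.isBounded.exists_norm_le
  have hKb : ∀ x ∈ K, ‖x‖ ≤ (Real.toNNReal cK : ℝ≥0) := fun x hx =>
    (hcK x hx).trans (Real.le_coe_toNNReal cK)
  have hYb : ∀ y ∈ Y, ‖y‖ ≤ (Real.toNNReal cY : ℝ≥0) := fun y hy =>
    (hcY y hy).trans (Real.le_coe_toNNReal cY)
  obtain ⟨C, hC⟩ := stab K Y hK hvol hY _ _ hKb hYb
  refine ⟨C, fun μ ν hμp hνp hμ hν T S hT hS => ?_⟩
  obtain ⟨T0, φ0, ψ0, hP0, hm0⟩ := brenier_exists K Y hK hvol hY hYne _ _ hKb hYb μ hμ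
  obtain ⟨T1, φ1, ψ1, hP1, hm1⟩ := brenier_exists K Y hK hvol hY hYne _ _ hKb hYb ν hν
  have e0 : T =ᵐ[unif K] T0 := opt_eq_brenier K Y hK hvol hY _ _ hKb hYb T0 φ0 ψ0 hP0 T (hm0 ▸ hT)
  have e1 : S =ᵐ[unif K] T1 := opt_eq_brenier K Y hK hvol hY _ _ hKb hYb T1 φ1 ψ1 hP1 S (hm1 ▸ hS)
  have h := hC T0 T1 φ0 ψ0 φ1 ψ1 hP0 hP1
  rw [hm0, hm1] at h
  refine le_trans (le_of_eq (eLpNorm_congr_ae ?_)) h
  filter_upwards [e0, e1] with x h0 h1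
  rw [h0, h1]

end Vale.Agent.Lib.P074
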