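import Vale.Agent.Lib.P074.Core

/-!
Gagliardo-Nirenberg type interpolation for differences of Brenier potentials:
`∫ ‖T1 - T0‖² ≤ C H^{2/3}` if `∫ (φ1 - φ0 + k)² ≤ H²`.

Proof.  `ρ = unif K`, `h = φ1 - φ0 + k`, `S_j x w = φ_j (x + w) + φ_j (x - w) - 2 φ_j x ≥ 0`.
(1) Pointwise, at every `x` where both Fenchel equalities `IsPot.eq` hold, for every `w`:
    `|⟪w, T1 x - T0 x⟫| ≤ |h (x + w) - h x| + S_0 x w + S_1 x w`.
    [`φ1 (x+w) ≥ φ1 x + ⟪w, T1 x⟫` and `φ0 (x-w) ≥ φ0 x - ⟪w, T0 x⟫` from `IsPot.le`/`IsPot.eq`; symmetric for the other sign.]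
(2) With `w = r • single i 1`, `0 < r ≤ 1`, `a = |(T1 x - T0 x) i| ≤ 2 RY`, `A = |h (x+w)| + |h x|`:
    `r a ≤ A + S_0 + S_1`; multiply by `a`, use `a A ≤ (r/2) a² + A²/(2r)`:
    `a² ≤ A² / r² + (4 RY / r) (S_0 + S_1) ≤ (2 h (x+w)² + 2 h x²) / r² + (4 RY / r) (S_0 + S_1)`.
(3) Let `ball x₀ r₀ ⊆ K`, `r ≤ r₀`, `λ = r / r₀`, `K' = homothety x₀ (1 - λ) '' K`.  For `x ∈ K'` and `‖w‖ ≤ r`: `x + w ∈ K` (convexity);
    `K' ⊆ K`, `volume K' = (1 - λ)^d volume K` (`Measure.addHaar_image_homothety`), so `ρ (K \ K') ≤ d λ` (Bernoulli).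
    `∫_{K'} h (x+w)² dρ ≤ ∫ h² dρ ≤ H²` (translation invariance of `volume`), `∫_K S_j dρ ≤ RY r² geoC K` (`second_diff_integral_le`).
    Hence `∫_{K'} ‖T1 - T0‖² dρ ≤ d (4 H² / r² + 8 RY² geoC K r)`, and `∫_{K \ K'} ‖T1 - T0‖² dρ ≤ 4 RY² d r / r₀`.
(4) So for all `0 < r ≤ r₁ := min 1 r₀`:  `∫ ‖T1 - T0‖² dρ ≤ C₁ H² / r² + C₂ r`.
    If `0 < H ≤ r₁^{3/2}` take `r = H^{2/3}`; if `H = 0` let `r → 0`; if `H > r₁^{3/2}` use the trivial bound `4 RY² ≤ (4 RY² / r₁) H^{2/3}`.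
-/

open MeasureTheory Set
open scoped ENNReal NNReal

namespace Vale.Agent.Lib.P074

variable {d : ℕ}

theorem gi_pointwise {K Y : Set (E d)} {RK RY : ℝ≥0} {T0 T1 : E d → E d}
    {φ0 ψ0 φ1 ψ1 : E d → ℝ}
    (h0 : IsPot K Y RK RY T0 φ0 ψ0) (h1 : IsPot K Y RK RY T1 φ1 ψ1) (x w : E d)
    (e0 : inner ℝ x (T0 x) = φ0 x + ψ0 (T0 x)) (e1 : inner ℝ x (T1 x) = φ1 x + ψ1 (T1 x))
    (k : ℝ) :
    |inner ℝ w (T1 x - T0 x)| ≤ |φ1 (x + w) - φ0 (x + w) + k| + |φ1 x - φ0 x + k|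
      + ((φ0 (x + w) + φ0 (x - w) - 2 * φ0 x) + (φ1 (x + w) + φ1 (x - w) - 2 * φ1 x)) := by
  have a1 := h1.le (x + w) (T1 x) (h1.mem x)
  have a2 := h1.le (x - w) (T1 x) (h1.mem x)
  have b1 := h0.le (x + w) (T0 x) (h0.mem x)
  have b2 := h0.le (x - w) (T0 x) (h0.mem x)
  rw [inner_add_left] at a1 b1
  rw [inner_sub_left] at a2 b2
  rw [inner_sub_right]
  have p1 := le_abs_self (φ1 (x + w) - φ0 (x + w) + k)
  have p2 := neg_abs_le (φ1 (x + w) - φ0 (x + w) + k)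
  have q1 := le_abs_self (φ1 x - φ0 x + k)
  have q2 := neg_abs_le (φ1 x - φ0 x + k)
  rw [abs_le]
  constructor <;> linarith

theorem gi_quad (r a M S p q : ℝ) (hr : 0 < r) (ha : 0 ≤ a) (haM : a ≤ M) (hS : 0 ≤ S)
    (h : r * a ≤ |p| + |q| + S) :
    r ^ 2 * a ^ 2 ≤ 2 * p ^ 2 + 2 * q ^ 2 + 2 * r * M * S := by
  set A := |p| + |q| with hA
  have hA2 : A ^ 2 ≤ 2 * p ^ 2 + 2 * q ^ 2 := by
    have : A ^ 2 = p ^ 2 + q ^ 2 + 2 * (|p| * |q|) := by
      rw [hA, add_sq, sq_abs, sq_abs]; ring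
    have h2 : 2 * (|p| * |q|) ≤ p ^ 2 + q ^ 2 := by
      have := sq_nonneg (|p| - |q|)
      rw [sub_sq, sq_abs, sq_abs] at this
      linarith
    linarith
  have hra : 0 ≤ r * a := by positivity
  have h1 : (r * a) * (r * a) ≤ (r * a) * (A + S) := mul_le_mul_of_nonneg_left h hra
  have h2 : (r * a) * A ≤ ((r * a) ^ 2 + A ^ 2) / 2 := by
    have := sq_nonneg (r * a - A)
    nlinarith
  have h3 : (r * a) * S ≤ r * M * S := by
    have : r * a ≤ r * M := mul_le_mul_of_nonneg_left haM hr.le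
    exact mul_le_mul_of_nonneg_right this hS
  nlinarith

theorem gi_geom {K : Set (E d)} (hconv : Convex ℝ K) {x₀ : E d} {r₀ : ℝ}
    (hball : Metric.closedBall x₀ r₀ ⊆ K) {lam : ℝ} (h0 : 0 < lam) (h1 : lam ≤ 1)
    {x w : E d} (hx : x ∈ AffineMap.homothety x₀ (1 - lam) '' K) (hw : ‖w‖ ≤ lam * r₀) :
    x + w ∈ K := by
  obtain ⟨z, hz, rfl⟩ := hx
  have hu : x₀ + lam⁻¹ • w ∈ K := by
    apply hball
    rw [Metric.mem_closedBall, dist_eq_norm, add_sub_cancel_left, norm_smul, norm_inv,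
      Real.norm_eq_abs, abs_of_pos h0]
    rw [inv_mul_le_iff₀ h0]
    exact hw
  have := hconv hz hu (by linarith : 0 ≤ 1 - lam) h0.le (by ring)
  convert this using 1
  rw [AffineMap.homothety_apply, vsub_eq_sub, vadd_eq_add, smul_add, smul_smul,
    mul_inv_cancel₀ h0.ne', one_smul, smul_sub, sub_smul, sub_smul, one_smul, one_smul]
  abel

theorem gi_sub {K : Set (E d)} (hconv : Convex ℝ K) {x₀ : E d} (hx₀ : x₀ ∈ K) {lam : ℝ}
    (h0 : 0 ≤ lam) (h1 : lam ≤ 1) : AffineMap.homothety x₀ (1 - lam) '' K ⊆ K := by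
  rintro x ⟨z, hz, rfl⟩
  have := hconv hz hx₀ (by linarith : 0 ≤ 1 - lam) h0 (by ring)
  convert this using 1
  rw [AffineMap.homothety_apply, vsub_eq_sub, vadd_eq_add, smul_sub, sub_smul, sub_smul,
    one_smul, one_smul]
  abel

theorem gi_vol {K : Set (E d)} (hK : IsCompact K) (hvol : volume K ≠ 0) (hconv : Convex ℝ K)
    {x₀ : E d} (hx₀ : x₀ ∈ K) {lam : ℝ} (h0 : 0 ≤ lam) (h1 : lam ≤ 1) :
    (unif K (AffineMap.homothety x₀ (1 - lam) '' K)ᶜ).toReal ≤ d * lam := by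
  have htop : volume K ≠ ⊤ := hK.measure_lt_top.ne
  have hprob := isProbabilityMeasure_unif hvol htop
  set K' := AffineMap.homothety x₀ (1 - lam) '' K with hK'
  have hK'c : IsCompact K' := hK.image (AffineMap.homothety_continuous x₀ (1 - lam))
  have hK'm : MeasurableSet K' := hK'c.measurableSet
  have hsub : K' ⊆ K := gi_sub hconv hx₀ h0 h1
  have hm : unif K K' = ENNReal.ofReal ((1 - lam) ^ d) := by
    unfold unif
    rw [Measure.smul_apply, Measure.restrict_apply hK'm, inter_eq_left.mpr hsub, hK',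
      Measure.addHaar_image_homothety, finrank_euclideanSpace_fin,
      abs_of_nonneg (pow_nonneg (by linarith) d), smul_eq_mul, mul_comm, mul_assoc,
      ENNReal.mul_inv_cancel hvol htop, mul_one]
  rw [prob_compl_eq_one_sub hK'm, hm]
  have hle : (1 - lam) ^ d ≤ 1 := pow_le_one₀ (by linarith) (by linarith)
  rw [ENNReal.toReal_sub_of_le (by simpa using hle) ENNReal.one_ne_top,
    ENNReal.toReal_ofReal (pow_nonneg (by linarith) d)]
  have hb := one_add_mul_le_pow (by linarith : (-2 : ℝ) ≤ -lam) d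
  have : (1 + -lam) = 1 - lam := by ring
  rw [this] at hb
  simp only [ENNReal.toReal_one]
  linarith

theorem gi_secdiff_nonneg {K Y : Set (E d)} {RK RY : ℝ≥0} {T : E d → E d} {φ ψ : E d → ℝ}
    (hP : IsPot K Y RK RY T φ ψ) (x w : E d) (e : inner ℝ x (T x) = φ x + ψ (T x)) :
    0 ≤ φ (x + w) + φ (x - w) - 2 * φ x := by
  have a1 := hP.le (x + w) (T x) (hP.mem x)
  have a2 := hP.le (x - w) (T x) (hP.mem x)
  rw [inner_add_left] at a1
  rw [inner_sub_left] at a2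
  linarith

theorem integrable_unif_of_continuous {K : Set (E d)} (hK : IsCompact K) (hvol : volume K ≠ 0)
    {f : E d → ℝ} (hf : Continuous f) : Integrable f (unif K) := by
  unfold unif
  exact (hf.continuousOn.integrableOn_compact hK).smul_measure (ENNReal.inv_ne_top.mpr hvol)

theorem gi_secdiff_int (K : Set (E d)) (hK : IsCompact K) (φ : E d → ℝ) (L : ℝ≥0)
    (hφ : LipschitzWith L φ) (hc : ConvexOn ℝ univ φ) (w : E d) (r : ℝ) (hw : ‖w‖ = r)
    (hr1 : r ≤ 1) :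
    ∫ x, (φ (x + w) + φ (x - w) - 2 * φ x) ∂(unif K) ≤ L * r ^ 2 * geoC K := by
  rw [integral_unif]
  have := second_diff_integral_le K hK φ L hφ hc w (by rw [hw]; exact hr1)
  rw [hw] at this
  have hpos : 0 ≤ (volume K).toReal⁻¹ := by positivity
  calc (volume K).toReal⁻¹ * ∫ x in K, (φ (x + w) + φ (x - w) - 2 * φ x)
      ≤ (volume K).toReal⁻¹ * (L * r ^ 2 * (volume (Metric.cthickening 2 K)).toReal) := by
        gcongr
    _ = L * r ^ 2 * geoC K := by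
        unfold geoC
        ring

/-- translation step -/
theorem gi_translate (K : Set (E d)) (hK : IsCompact K) (f : E d → ℝ) (hf : Continuous f)
    (w : E d) :
    ∫ x, K.indicator (fun y => f y ^ 2) (x + w) ∂(unif K) ≤ ∫ x, f x ^ 2 ∂(unif K) := by
  rw [integral_unif, integral_unif]
  have hpos : 0 ≤ (volume K).toReal⁻¹ := by positivity
  refine mul_le_mul_of_nonneg_left ?_ hpos
  have hg : Integrable (K.indicator (fun y => f y ^ 2)) volume := by
    rw [integrable_indicator_iff hK.measurableSet]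
    exact (hf.pow 2).continuousOn.integrableOn_compact hK
  calc ∫ x in K, K.indicator (fun y => f y ^ 2) (x + w)
      ≤ ∫ x, K.indicator (fun y => f y ^ 2) (x + w) := by
        refine setIntegral_le_integral (hg.comp_add_right w) ?_
        refine Filter.Eventually.of_forall fun x => ?_
        exact indicator_nonneg (fun y _ => sq_nonneg (f y)) _
    _ = ∫ x, K.indicator (fun y => f y ^ 2) x :=
        integral_add_right_eq_self (K.indicator (fun y => f y ^ 2)) w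
    _ = ∫ x in K, f x ^ 2 := integral_indicator hK.measurableSet

theorem gi_main (K Y : Set (E d)) (hK : IsCompact K) (hconv : Convex ℝ K) (hvol : volume K ≠ 0)
    (RK RY : ℝ≥0) (hYb : ∀ y ∈ Y, ‖y‖ ≤ RY) (x₀ : E d) (r₀ : ℝ) (hr₀ : 0 < r₀)
    (hball : Metric.closedBall x₀ r₀ ⊆ K)
    (T0 T1 : E d → E d) (φ0 ψ0 φ1 ψ1 : E d → ℝ)
    (h0 : IsPot K Y RK RY T0 φ0 ψ0) (h1 : IsPot K Y RK RY T1 φ1 ψ1) (k H : ℝ)
    (hH : ∫ x, (φ1 x - φ0 x + k) ^ 2 ∂(unif K) ≤ H ^ 2)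
    (r : ℝ) (hr : 0 < r) (hr1 : r ≤ 1) (hrr : r ≤ r₀) :
    r ^ 2 * ∫ x, ‖T1 x - T0 x‖ ^ 2 ∂(unif K) ≤
      4 * d * H ^ 2 + 8 * d * RY ^ 2 * geoC K * r ^ 3 + 4 * RY ^ 2 * d / r₀ * r ^ 3 := by
  have htop : volume K ≠ ⊤ := hK.measure_lt_top.ne
  have hprob := isProbabilityMeasure_unif hvol htop
  have hKae := ae_mem_unif (d := d) hK.measurableSet
  have hφ0c : Continuous φ0 := h0.lipφ.continuous
  have hφ1c : Continuous φ1 := h1.lipφ.continuous
  set hh : E d → ℝ := fun x => φ1 x - φ0 x + k with hhh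
  have hhc : Continuous hh := by fun_prop
  set g : E d → ℝ := K.indicator (fun y => hh y ^ 2) with hg
  set w : Fin d → E d := fun i => r • EuclideanSpace.single i (1 : ℝ) with hw
  have hnorm : ∀ i : Fin d, ‖w i‖ = r := by
    intro i
    simp only [hw]
    rw [norm_smul]
    simp [abs_of_pos hr]
  set sd0 : Fin d → E d → ℝ := fun i x => φ0 (x + w i) + φ0 (x - w i) - 2 * φ0 x with hsd0
  set sd1 : Fin d → E d → ℝ := fun i x => φ1 (x + w i) + φ1 (x - w i) - 2 * φ1 x with hsd1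
  set lam : ℝ := r / r₀ with hlam
  have hlam0 : 0 < lam := div_pos hr hr₀
  have hlam1 : lam ≤ 1 := (div_le_one hr₀).mpr hrr
  have hlamr : lam * r₀ = r := div_mul_cancel₀ r hr₀.ne'
  set K' : Set (E d) := AffineMap.homothety x₀ (1 - lam) '' K with hK'
  have hK'm : MeasurableSet K' :=
    (hK.image (AffineMap.homothety_continuous x₀ (1 - lam))).measurableSet
  have hx₀ : x₀ ∈ K := hball (Metric.mem_closedBall_self hr₀.le)
  -- bound for hh on K
  obtain ⟨Ch, hCh⟩ := hK.exists_bound_of_continuousOn hhc.continuousOn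
  have hgnn : ∀ y, 0 ≤ g y := fun y => indicator_nonneg (fun y _ => sq_nonneg (hh y)) _
  have hgb : ∀ y, |g y| ≤ Ch ^ 2 := by
    intro y
    rw [abs_of_nonneg (hgnn y)]
    by_cases hy : y ∈ K
    · simp only [hg, indicator_of_mem hy]
      have := hCh y hy
      rw [Real.norm_eq_abs] at this
      rw [← sq_abs]
      exact pow_le_pow_left₀ (abs_nonneg _) this 2
    · simp only [hg, indicator_of_notMem hy]
      positivity
  have hgm : Measurable g := (hhc.measurable.pow_const 2).indicator hK.measurableSet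
  -- integrability
  have hI1 : Integrable (fun x => ‖T1 x - T0 x‖ ^ 2) (unif K) := by
    refine integrable_unif_of_bound hvol htop ((h1.meas.sub h0.meas).norm.pow_const 2)
      ((RY + RY) ^ 2) ?_
    refine Filter.Eventually.of_forall fun x => ?_
    rw [abs_of_nonneg (by positivity)]
    exact pow_le_pow_left₀ (norm_nonneg _)
      ((norm_sub_le _ _).trans (add_le_add (hYb _ (h1.mem x)) (hYb _ (h0.mem x)))) 2
  have hI2 : ∀ i, Integrable (fun x => g (x + w i)) (unif K) := by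
    intro i
    refine integrable_unif_of_bound hvol htop (hgm.comp (measurable_id.add_const _)) (Ch ^ 2) ?_
    exact Filter.Eventually.of_forall fun x => hgb _
  have hI3 : Integrable (fun x => hh x ^ 2) (unif K) :=
    integrable_unif_of_continuous hK hvol (hhc.pow 2)
  have hI4 : ∀ i, Integrable (sd0 i) (unif K) := fun i =>
    integrable_unif_of_continuous hK hvol (by fun_prop)
  have hI5 : ∀ i, Integrable (sd1 i) (unif K) := fun i =>
    integrable_unif_of_continuous hK hvol (by fun_prop)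
  have hI6 : Integrable (K'ᶜ.indicator (fun _ => (1 : ℝ))) (unif K) :=
    (integrable_const (1 : ℝ)).indicator hK'm.compl
  -- pointwise
  have hpt : ∀ᵐ x ∂(unif K), r ^ 2 * ‖T1 x - T0 x‖ ^ 2 ≤
      ∑ i, (2 * g (x + w i) + 2 * hh x ^ 2 + 4 * r * RY * (sd0 i x + sd1 i x))
        + 4 * RY ^ 2 * r ^ 2 * K'ᶜ.indicator (fun _ => (1 : ℝ)) x := by
    filter_upwards [hKae, h0.eq, h1.eq] with x hxK e0 e1
    have hS0 : ∀ i, 0 ≤ sd0 i x := fun i => gi_secdiff_nonneg h0 x (w i) e0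
    have hS1 : ∀ i, 0 ≤ sd1 i x := fun i => gi_secdiff_nonneg h1 x (w i) e1
    have hzb : ‖T1 x - T0 x‖ ≤ 2 * RY := by
      have := (norm_sub_le (T1 x) (T0 x)).trans (add_le_add (hYb _ (h1.mem x)) (hYb _ (h0.mem x)))
      linarith
    by_cases hx : x ∈ K'
    · have hind : K'ᶜ.indicator (fun _ => (1 : ℝ)) x = 0 := indicator_of_notMem (by simpa using hx) _
      rw [hind, mul_zero, add_zero, EuclideanSpace.real_norm_sq_eq, Finset.mul_sum]
      refine Finset.sum_le_sum fun i _ => ?_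
      have hxw : x + w i ∈ K := gi_geom hconv hball hlam0 hlam1 hx (by rw [hnorm, hlamr])
      have hgx : g (x + w i) = hh (x + w i) ^ 2 := by simp only [hg, indicator_of_mem hxw]
      have hp := gi_pointwise h0 h1 x (w i) e0 e1 k
      have hin : inner ℝ (w i) (T1 x - T0 x) = r * (T1 x - T0 x) i := by
        simp only [hw]
        rw [inner_smul_left, EuclideanSpace.inner_single_left]
        simp
      rw [hin, abs_mul, abs_of_pos hr] at hp
      have hai : |(T1 x - T0 x) i| ≤ 2 * RY :=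
        (by simpa using PiLp.norm_apply_le (T1 x - T0 x) i : |(T1 x - T0 x) i| ≤ ‖T1 x - T0 x‖).trans hzb
      have hq := gi_quad r |(T1 x - T0 x) i| (2 * RY) (sd0 i x + sd1 i x) (hh (x + w i)) (hh x) hr
        (abs_nonneg _) hai (add_nonneg (hS0 i) (hS1 i)) hp
      rw [sq_abs] at hq
      rw [hgx]
      linarith
    · have hind : K'ᶜ.indicator (fun _ => (1 : ℝ)) x = 1 := indicator_of_mem (by simpa using hx) _
      rw [hind, mul_one]
      have h1' : r ^ 2 * ‖T1 x - T0 x‖ ^ 2 ≤ 4 * RY ^ 2 * r ^ 2 := by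
        have := pow_le_pow_left₀ (norm_nonneg _) hzb 2
        nlinarith [sq_nonneg r]
      have h2' : 0 ≤ ∑ i, (2 * g (x + w i) + 2 * hh x ^ 2 + 4 * r * RY * (sd0 i x + sd1 i x)) := by
        refine Finset.sum_nonneg fun i _ => ?_
        have := hgnn (x + w i)
        have := hS0 i
        have := hS1 i
        positivity
      linarith
  have hIc : ∀ i, Integrable (fun x => sd0 i x + sd1 i x) (unif K) := fun i => (hI4 i).add (hI5 i)
  have hIb : ∀ i, Integrable (fun x => 4 * r * RY * (sd0 i x + sd1 i x)) (unif K) :=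
    fun i => (hIc i).const_mul _
  have hIa : ∀ i, Integrable (fun x => 2 * g (x + w i) + 2 * hh x ^ 2) (unif K) :=
    fun i => ((hI2 i).const_mul 2).add (hI3.const_mul 2)
  have hIt : ∀ i, Integrable (fun x => 2 * g (x + w i) + 2 * hh x ^ 2
      + 4 * r * RY * (sd0 i x + sd1 i x)) (unif K) := fun i => (hIa i).add (hIb i)
  have hIsum : Integrable (fun x => ∑ i, (2 * g (x + w i) + 2 * hh x ^ 2
      + 4 * r * RY * (sd0 i x + sd1 i x))) (unif K) :=
    integrable_finsetSum _ fun i _ => hIt i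
  have hint : ∫ x, r ^ 2 * ‖T1 x - T0 x‖ ^ 2 ∂(unif K) ≤
      ∫ x, (∑ i, (2 * g (x + w i) + 2 * hh x ^ 2 + 4 * r * RY * (sd0 i x + sd1 i x))
        + 4 * RY ^ 2 * r ^ 2 * K'ᶜ.indicator (fun _ => (1 : ℝ)) x) ∂(unif K) :=
    integral_mono_ae (hI1.const_mul (r ^ 2))
      (hIsum.add (hI6.const_mul (4 * RY ^ 2 * r ^ 2))) hpt
  rw [integral_const_mul, integral_add hIsum (hI6.const_mul _), integral_const_mul,
    integral_finsetSum _ fun i _ => hIt i] at hint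
  have hterm : ∀ i, ∫ x, (2 * g (x + w i) + 2 * hh x ^ 2 + 4 * r * RY * (sd0 i x + sd1 i x)) ∂(unif K)
      ≤ 4 * H ^ 2 + 8 * RY ^ 2 * geoC K * r ^ 3 := by
    intro i
    rw [integral_add (hIa i) (hIb i),
      integral_add ((hI2 i).const_mul 2) (hI3.const_mul 2), integral_const_mul, integral_const_mul,
      integral_const_mul, integral_add (hI4 i) (hI5 i)]
    have t1 : ∫ x, g (x + w i) ∂(unif K) ≤ H ^ 2 := (gi_translate K hK hh hhc (w i)).trans hH
    have t2 := gi_secdiff_int K hK φ0 RY h0.lipφ h0.conv (w i) r (hnorm i) hr1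
    have t3 := gi_secdiff_int K hK φ1 RY h1.lipφ h1.conv (w i) r (hnorm i) hr1
    have hc : 0 ≤ 4 * r * (RY : ℝ) := by positivity
    have t4 : 4 * r * RY * ((∫ x, sd0 i x ∂(unif K)) + ∫ x, sd1 i x ∂(unif K))
        ≤ 4 * r * RY * (RY * r ^ 2 * geoC K + RY * r ^ 2 * geoC K) :=
      mul_le_mul_of_nonneg_left (add_le_add t2 t3) hc
    nlinarith
  have hsum : ∑ i, ∫ x, (2 * g (x + w i) + 2 * hh x ^ 2 + 4 * r * RY * (sd0 i x + sd1 i x)) ∂(unif K)
      ≤ d * (4 * H ^ 2 + 8 * RY ^ 2 * geoC K * r ^ 3) := by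
    calc _ ≤ ∑ _i : Fin d, (4 * H ^ 2 + 8 * RY ^ 2 * geoC K * r ^ 3) :=
          Finset.sum_le_sum fun i _ => hterm i
      _ = d * (4 * H ^ 2 + 8 * RY ^ 2 * geoC K * r ^ 3) := by
          rw [Finset.sum_const, Finset.card_univ, Fintype.card_fin, nsmul_eq_mul]
  have hindI : ∫ x, K'ᶜ.indicator (fun _ => (1 : ℝ)) x ∂(unif K) ≤ d * lam := by
    rw [integral_indicator hK'm.compl, setIntegral_const]
    simpa [Measure.real] using gi_vol hK hvol hconv hx₀ hlam0.le hlam1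
  have hlast : 4 * (RY : ℝ) ^ 2 * r ^ 2 * ∫ x, K'ᶜ.indicator (fun _ => (1 : ℝ)) x ∂(unif K)
      ≤ 4 * RY ^ 2 * r ^ 2 * (d * lam) :=
    mul_le_mul_of_nonneg_left hindI (by positivity)
  have hfin : 4 * (RY : ℝ) ^ 2 * r ^ 2 * (d * lam) = 4 * RY ^ 2 * d / r₀ * r ^ 3 := by
    rw [hlam]; field_simp
  linarith

theorem grad_interp (K Y : Set (E d)) (hK : IsCompact K) (hconv : Convex ℝ K)
    (hint : (interior K).Nonempty) (RK RY : ℝ≥0) (hKb : ∀ x ∈ K, ‖x‖ ≤ RK)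
    (hYb : ∀ y ∈ Y, ‖y‖ ≤ RY) :
    ∃ C : ℝ, 0 ≤ C ∧ ∀ (T0 T1 : E d → E d) (φ0 ψ0 φ1 ψ1 : E d → ℝ),
      IsPot K Y RK RY T0 φ0 ψ0 → IsPot K Y RK RY T1 φ1 ψ1 →
        ∀ k H : ℝ, 0 ≤ H → ∫ x, (φ1 x - φ0 x + k) ^ 2 ∂(unif K) ≤ H ^ 2 →
          ∫ x, ‖T1 x - T0 x‖ ^ 2 ∂(unif K) ≤ C * H ^ (2 / 3 : ℝ) := by
  obtain ⟨x₀, hx₀⟩ := hint
  obtain ⟨r₀, hr₀, hball⟩ := Metric.nhds_basis_closedBall.mem_iff.1 (mem_interior_iff_mem_nhds.1 hx₀)
  have hvol : volume K ≠ 0 := by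
    have h1 : 0 < volume (interior K) := isOpen_interior.measure_pos volume ⟨x₀, hx₀⟩
    exact (h1.trans_le (measure_mono interior_subset)).ne'
  have htop : volume K ≠ ⊤ := hK.measure_lt_top.ne
  have hprob := isProbabilityMeasure_unif hvol htop
  set r₁ : ℝ := min 1 r₀ with hr₁
  have hr₁0 : 0 < r₁ := lt_min one_pos hr₀
  have hgeo : 0 ≤ geoC K := by unfold geoC; positivity
  set C₁ : ℝ := 4 * d with hC₁
  set C₂ : ℝ := 8 * d * RY ^ 2 * geoC K + 4 * RY ^ 2 * d / r₀ with hC₂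
  have hC₁0 : 0 ≤ C₁ := by positivity
  have hC₂0 : 0 ≤ C₂ := by positivity
  have hC₃0 : 0 ≤ 4 * (RY : ℝ) ^ 2 / r₁ := by positivity
  refine ⟨C₁ + C₂ + 4 * RY ^ 2 / r₁, by positivity, ?_⟩
  intro T0 T1 φ0 ψ0 φ1 ψ1 h0 h1 k H hH0 hH
  set I : ℝ := ∫ x, ‖T1 x - T0 x‖ ^ 2 ∂(unif K) with hI
  have hmain : ∀ r : ℝ, 0 < r → r ≤ r₁ → r ^ 2 * I ≤ C₁ * H ^ 2 + C₂ * r ^ 3 := by
    intro r hr hrr
    have := gi_main K Y hK hconv hvol RK RY hYb x₀ r₀ hr₀ hball T0 T1 φ0 ψ0 φ1 ψ1 h0 h1 k H hH r hr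
      (hrr.trans (min_le_left _ _)) (hrr.trans (min_le_right _ _))
    rw [hC₁, hC₂]
    linarith
  have hItriv : I ≤ 4 * RY ^ 2 := by
    have hb : ∀ x, ‖T1 x - T0 x‖ ^ 2 ≤ 4 * (RY : ℝ) ^ 2 := by
      intro x
      have := (norm_sub_le (T1 x) (T0 x)).trans (add_le_add (hYb _ (h1.mem x)) (hYb _ (h0.mem x)))
      have h2 := pow_le_pow_left₀ (norm_nonneg _) this 2
      nlinarith
    have hI1 : Integrable (fun x => ‖T1 x - T0 x‖ ^ 2) (unif K) := by
      refine integrable_unif_of_bound hvol htop ((h1.meas.sub h0.meas).norm.pow_const 2)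
        (4 * (RY : ℝ) ^ 2) ?_
      refine Filter.Eventually.of_forall fun x => ?_
      rw [abs_of_nonneg (by positivity)]
      exact hb x
    calc I ≤ ∫ _x, 4 * (RY : ℝ) ^ 2 ∂(unif K) := integral_mono hI1 (integrable_const _) hb
      _ = 4 * (RY : ℝ) ^ 2 := by simp
  rcases hH0.eq_or_lt with rfl | hHpos
  · rw [Real.zero_rpow (by norm_num), mul_zero]
    refine le_of_forall_pos_le_add fun ε hε => ?_
    set r : ℝ := min r₁ (ε / (C₂ + 1)) with hr
    have hr0 : 0 < r := lt_min hr₁0 (by positivity)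
    have h3 := hmain r hr0 (min_le_left _ _)
    have h4 : r ^ 2 * I ≤ r ^ 2 * (C₂ * r) := by nlinarith
    have h5 : I ≤ C₂ * r := le_of_mul_le_mul_left h4 (by positivity)
    have h6 : C₂ * r ≤ C₂ * (ε / (C₂ + 1)) := mul_le_mul_of_nonneg_left (min_le_right _ _) hC₂0
    have h7 : C₂ * (ε / (C₂ + 1)) ≤ ε := by
      rw [mul_div_assoc', div_le_iff₀ (by positivity)]
      nlinarith
    linarith
  · set s : ℝ := H ^ (2 / 3 : ℝ) with hs
    have hs0 : 0 < s := Real.rpow_pos_of_pos hHpos _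
    have hs3 : s ^ 3 = H ^ 2 := by
      rw [hs, ← Real.rpow_natCast, ← Real.rpow_mul hHpos.le, ← Real.rpow_natCast]
      norm_num
    rcases le_or_gt s r₁ with hsr | hsr
    · have h3 := hmain s hs0 hsr
      rw [← hs3] at h3
      have h4 : s ^ 2 * I ≤ s ^ 2 * ((C₁ + C₂) * s) := by nlinarith
      have h5 : I ≤ (C₁ + C₂) * s := le_of_mul_le_mul_left h4 (by positivity)
      nlinarith
    · have h3 : 4 * (RY : ℝ) ^ 2 = 4 * RY ^ 2 / r₁ * r₁ := by field_simp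
      have h4 : 4 * (RY : ℝ) ^ 2 / r₁ * r₁ ≤ 4 * RY ^ 2 / r₁ * s :=
        mul_le_mul_of_nonneg_left hsr.le hC₃0
      nlinarith

end Vale.Agent.Lib.P074
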