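import Vale.Agent.Lib.P074.Conj

/-!
MODULE B2 (P074).  Existence of a minimiser of the Kantorovich functional.

ROUTE.  Fix y0 ∈ Y.  Let 𝒜 = {ψ : E d → ℝ | LipschitzWith RK ψ ∧ ψ y0 = 0}, a subset of the
function space E d → ℝ with the PRODUCT topology.
(1) 𝒜 is compact: it is closed (intersection of the closed conditions |ψ a - ψ b| ≤ RK dist a b,
    ψ y0 = 0; evaluations are continuous) and contained in
    Set.pi univ (fun y => Icc (-(RK * dist y y0)) (RK * dist y y0)), compact by isCompact_univ_pi.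
(2) kant is continuous on 𝒜: for ψ, ψ' ∈ 𝒜 with sup_Y |ψ - ψ'| ≤ ε one has |kant ψ - kant ψ'| ≤ 2 ε
    (conj_sub_le, probability measures, μ Yᶜ = 0).  Given ε > 0 take a finite ε-net y_1..y_m of Y
    (hY.finite_cover_balls); on 𝒜, max_j |ψ y_j - ψ' y_j| < ε implies sup_Y |ψ - ψ'| ≤ ε + 2 RK ε;
    and {ψ' | ∀ j, |ψ' y_j - ψ y_j| < ε} is a neighbourhood of ψ in the product topology.
(3) IsCompact.exists_isMinOn gives ψ ∈ 𝒜 minimising kant on 𝒜.
(4) For continuous g: g' = conj K (conj Y g) is RK-Lipschitz (conj_lipschitz), g' ≤ g on Y (biconj_le),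
    conj Y g' = conj Y g on K (triconj_eq), so kant g' ≤ kant g; g'' = g' - g' y0 ∈ 𝒜 and
    kant g'' = kant g' (conj_sub_const, probability measures).  Hence kant ψ ≤ kant g.
K is nonempty because volume K ≠ 0.
-/

open MeasureTheory Set
open scoped ENNReal NNReal

namespace Vale.Agent.Lib.P074

variable {d : ℕ}

/-- the Kantorovich functional -/
noncomputable def kant (K Y : Set (E d)) (μ : Measure (E d)) (ψ : E d → ℝ) : ℝ :=
  ∫ x, conj Y ψ x ∂(unif K) + ∫ y, ψ y ∂μ

theorem integrable_of_continuous_of_compl_null {Y : Set (E d)} (hY : IsCompact Y)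
    (μ : Measure (E d)) [IsProbabilityMeasure μ] (hμ : μ Yᶜ = 0) {f : E d → ℝ}
    (hf : Continuous f) : Integrable f μ := by
  obtain ⟨M, hM⟩ := (hY.image hf).isBounded.exists_norm_le
  refine Integrable.of_bound hf.aestronglyMeasurable M ?_
  have h : ∀ᵐ y ∂μ, y ∈ Y := by
    rw [ae_iff]
    exact hμ
  filter_upwards [h] with y hy
  exact hM _ ⟨y, hy, rfl⟩

theorem unif_compl_null {K : Set (E d)} (hK : IsCompact K) : unif K Kᶜ = 0 := by
  have h := ae_mem_unif (d := d) hK.measurableSet
  rw [ae_iff] at h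
  exact h

theorem conj_continuous_of_continuous {Y : Set (E d)} (hY : IsCompact Y) (hYne : Y.Nonempty) {f : E d → ℝ}
    (hf : Continuous f) : Continuous (conj Y f) := by
  obtain ⟨c, hc⟩ := hY.isBounded.exists_norm_le
  have hb : ∀ y ∈ Y, ‖y‖ ≤ (Real.toNNReal c : ℝ≥0) := fun y hy =>
    (hc y hy).trans (Real.le_coe_toNNReal c)
  exact (conj_lipschitz hY hYne hf.continuousOn _ hb).continuous

theorem kant_le_add (K Y : Set (E d)) (hK : IsCompact K) (hvol : volume K ≠ 0)
    (hY : IsCompact Y) (hYne : Y.Nonempty)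
    (μ : Measure (E d)) [IsProbabilityMeasure μ] (hμ : μ Yᶜ = 0) {f g : E d → ℝ}
    (hf : Continuous f) (hg : Continuous g) (a b : ℝ)
    (h1 : ∀ x ∈ K, conj Y f x ≤ conj Y g x + a) (h2 : ∀ y ∈ Y, f y ≤ g y + b) :
    kant K Y μ f ≤ kant K Y μ g + a + b := by
  have htop : volume K ≠ ⊤ := hK.measure_lt_top.ne
  have hprob := isProbabilityMeasure_unif hvol htop
  have hKae := ae_mem_unif (d := d) hK.measurableSet
  have hYae : ∀ᵐ y ∂μ, y ∈ Y := by
    rw [ae_iff]
    exact hμ
  have i1 := integrable_of_continuous_of_compl_null hK (unif K) (unif_compl_null hK)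
    (conj_continuous_of_continuous hY hYne hf)
  have i2 := integrable_of_continuous_of_compl_null hK (unif K) (unif_compl_null hK)
    (conj_continuous_of_continuous hY hYne hg)
  have i3 := integrable_of_continuous_of_compl_null hY μ hμ hf
  have i4 := integrable_of_continuous_of_compl_null hY μ hμ hg
  have e1 : ∫ x, conj Y f x ∂(unif K) ≤ ∫ x, (conj Y g x + a) ∂(unif K) := by
    refine integral_mono_ae i1 (i2.add (integrable_const a)) ?_
    filter_upwards [hKae] with x hx
    exact h1 x hx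
  have e2 : ∫ y, f y ∂μ ≤ ∫ y, (g y + b) ∂μ := by
    refine integral_mono_ae i3 (i4.add (integrable_const b)) ?_
    filter_upwards [hYae] with y hy
    exact h2 y hy
  rw [integral_add i2 (integrable_const a)] at e1
  rw [integral_add i4 (integrable_const b)] at e2
  simp only [integral_const, probReal_univ, one_smul] at e1 e2
  unfold kant
  linarith

theorem kant_le_of_close (K Y : Set (E d)) (hK : IsCompact K) (hvol : volume K ≠ 0)
    (hY : IsCompact Y) (hYne : Y.Nonempty)
    (μ : Measure (E d)) [IsProbabilityMeasure μ] (hμ : μ Yᶜ = 0) {f g : E d → ℝ}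
    (hf : Continuous f) (hg : Continuous g) (ε : ℝ)
    (h : ∀ y ∈ Y, |f y - g y| ≤ ε) :
    kant K Y μ f ≤ kant K Y μ g + ε + ε := by
  refine kant_le_add K Y hK hvol hY hYne μ hμ hf hg ε ε (fun x _ => ?_) (fun y hy => ?_)
  · have := conj_sub_le hY hYne hf.continuousOn hg.continuousOn ε h x
    rw [abs_le] at this
    linarith [this.2]
  · have := h y hy
    rw [abs_le] at this
    linarith [this.2]

/-- the compact class of normalised Lipschitz functions -/
def lipClass (RK : ℝ≥0) (y0 : E d) : Set (E d → ℝ) :=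
  {ψ | LipschitzWith RK ψ ∧ ψ y0 = 0}

theorem isCompact_lipClass (RK : ℝ≥0) (y0 : E d) : IsCompact (lipClass RK y0) := by
  have hclosed : IsClosed (lipClass RK y0) := by
    have : lipClass RK y0 =
        (⋂ a : E d, ⋂ b : E d, {ψ : E d → ℝ | dist (ψ a) (ψ b) ≤ RK * dist a b}) ∩
          {ψ | ψ y0 = 0} := by
      ext ψ
      simp only [lipClass, Set.mem_ofPred_eq, mem_inter_iff, mem_iInter, lipschitzWith_iff_dist_le_mul]
    rw [this]
    refine IsClosed.inter (isClosed_iInter fun a => isClosed_iInter fun b => ?_) ?_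
    · exact isClosed_le ((continuous_apply a).dist (continuous_apply b)) continuous_const
    · exact isClosed_eq (continuous_apply y0) continuous_const
  refine IsCompact.of_isClosed_subset
    (isCompact_univ_pi fun y : E d => isCompact_Icc (a := -(RK * dist y y0)) (b := RK * dist y y0))
    hclosed ?_
  intro ψ hψ y _
  have h := hψ.1.dist_le_mul y y0
  rw [hψ.2, Real.dist_eq, sub_zero, abs_le] at h
  exact h

theorem continuousOn_kant (K Y : Set (E d)) (hK : IsCompact K) (hvol : volume K ≠ 0)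
    (hY : IsCompact Y) (hYne : Y.Nonempty) (RK : ℝ≥0) (y0 : E d)
    (μ : Measure (E d)) [IsProbabilityMeasure μ] (hμ : μ Yᶜ = 0) :
    ContinuousOn (kant K Y μ) (lipClass RK y0) := by
  intro ψ hψ
  rw [ContinuousWithinAt, Metric.tendsto_nhds]
  intro ε hε
  -- choose δ
  set δ : ℝ := ε / (4 * (1 + 2 * RK)) with hδ
  have hRK : (0 : ℝ) ≤ RK := RK.coe_nonneg
  have hδpos : 0 < δ := by positivity
  obtain ⟨t, htY, htfin, hcov⟩ := hY.finite_cover_balls hδpos
  have hev : ∀ᶠ ψ' in nhdsWithin ψ (lipClass RK y0), ∀ y ∈ t, |ψ' y - ψ y| < δ := by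
    rw [Filter.eventually_all_finite htfin]
    intro y _
    have hc : Filter.Tendsto (fun ψ' : E d → ℝ => ψ' y) (nhds ψ) (nhds (ψ y)) :=
      (continuous_apply y).continuousAt
    have := (Metric.tendsto_nhds.1 hc) δ hδpos
    refine Filter.Eventually.filter_mono nhdsWithin_le_nhds ?_
    filter_upwards [this] with ψ' h
    rwa [Real.dist_eq] at h
  filter_upwards [hev, self_mem_nhdsWithin] with ψ' h1 h2
  have hclose : ∀ y ∈ Y, |ψ' y - ψ y| ≤ δ * (1 + 2 * RK) := by
    intro y hy
    have := hcov hy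
    simp only [mem_iUnion, Metric.mem_ball] at this
    obtain ⟨z, hz, hyz⟩ := this
    have a := h2.1.dist_le_mul y z
    have b := hψ.1.dist_le_mul y z
    have c := h1 z hz
    rw [Real.dist_eq] at a b
    have a' : |ψ' y - ψ' z| ≤ RK * δ := a.trans (by gcongr)
    have b' : |ψ y - ψ z| ≤ RK * δ := b.trans (by gcongr)
    rw [abs_le] at a' b' ⊢
    rw [abs_lt] at c
    constructor <;> nlinarith [a'.1, a'.2, b'.1, b'.2, c.1, c.2]
  have hclose' : ∀ y ∈ Y, |ψ y - ψ' y| ≤ δ * (1 + 2 * RK) := by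
    intro y hy
    rw [abs_sub_comm]
    exact hclose y hy
  have k1 := kant_le_of_close K Y hK hvol hY hYne μ hμ h2.1.continuous hψ.1.continuous _ hclose
  have k2 := kant_le_of_close K Y hK hvol hY hYne μ hμ hψ.1.continuous h2.1.continuous _ hclose'
  have hval : δ * (1 + 2 * RK) = ε / 4 := by
    rw [hδ]
    field_simp
  rw [hval] at k1 k2
  rw [Real.dist_eq, abs_lt]
  constructor <;> linarith

theorem exists_minimiser (K Y : Set (E d)) (hK : IsCompact K) (hvol : volume K ≠ 0)
    (hY : IsCompact Y) (hYne : Y.Nonempty) (RK : ℝ≥0) (hKb : ∀ x ∈ K, ‖x‖ ≤ RK)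
    (μ : Measure (E d)) [IsProbabilityMeasure μ] (hμ : μ Yᶜ = 0) :
    ∃ ψ : E d → ℝ, LipschitzWith RK ψ ∧ ∀ g : E d → ℝ, Continuous g → kant K Y μ ψ ≤ kant K Y μ g := by
  obtain ⟨y0, hy0⟩ := hYne
  have hYne : Y.Nonempty := ⟨y0, hy0⟩
  have hKne : K.Nonempty := by
    rcases K.eq_empty_or_nonempty with h | h
    · exact absurd (by rw [h]; simp) hvol
    · exact h
  have hne : (lipClass RK y0).Nonempty :=
    ⟨fun _ => 0, LipschitzWith.const' 0, rfl⟩
  obtain ⟨ψ, hψ, hmin⟩ := (isCompact_lipClass RK y0).exists_isMinOn hne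
    (continuousOn_kant K Y hK hvol hY hYne RK y0 μ hμ)
  refine ⟨ψ, hψ.1, fun g hg => ?_⟩
  have hcg : Continuous (conj Y g) := conj_continuous_of_continuous hY hYne hg
  have hlip : LipschitzWith RK (conj K (conj Y g)) :=
    conj_lipschitz hK hKne hcg.continuousOn RK hKb
  have s1 : kant K Y μ (conj K (conj Y g)) ≤ kant K Y μ g + 0 + 0 := by
    refine kant_le_add K Y hK hvol hY hYne μ hμ hlip.continuous hg 0 0 (fun x hx => ?_)
      (fun y hy => ?_)
    · rw [triconj_eq hK hKne hY hYne hg.continuousOn hx, add_zero]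
    · rw [add_zero]
      exact biconj_le hK hKne hY hYne hg.continuousOn hy
  set c : ℝ := conj K (conj Y g) y0 with hc
  have hlip2 : LipschitzWith RK (fun y => conj K (conj Y g) y - c) := by
    rw [lipschitzWith_iff_dist_le_mul]
    intro a b
    have := hlip.dist_le_mul a b
    simpa using this
  have s2 : kant K Y μ (fun y => conj K (conj Y g) y - c) ≤
      kant K Y μ (conj K (conj Y g)) + c + (-c) := by
    refine kant_le_add K Y hK hvol hY hYne μ hμ hlip2.continuous hlip.continuous c (-c)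
      (fun x _ => ?_) (fun y _ => ?_)
    · rw [conj_sub_const hY hYne hlip.continuous.continuousOn c x]
    · linarith
  have hmem : (fun y => conj K (conj Y g) y - c) ∈ lipClass RK y0 := ⟨hlip2, by simp [hc]⟩
  have s3 := hmin hmem
  simp only [Set.mem_ofPred_eq] at s3
  linarith

end Vale.Agent.Lib.P074
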