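import Mathlib

/-!
One-dimensional Prekopa-Leindler inequality (midpoint version), for measurable
`ℝ≥0∞`-valued functions on `ℝ`.
-/

open MeasureTheory Set
open scoped ENNReal NNReal

namespace Vale.Agent.Lib.P074

open scoped Pointwise in
private lemma vol_image_half_add (S : Set ℝ) (c : ℝ) :
    volume ((fun x => (1 / 2 : ℝ) * (x + c)) '' S) = volume S / 2 := by
  have h1 : (fun x => (1 / 2 : ℝ) * (x + c)) '' S =
      (fun x => (1 / 2 : ℝ) * c + x) '' ((1 / 2 : ℝ) • S) := by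
    ext y
    simp only [mem_image, mem_smul_set, smul_eq_mul]
    constructor
    · rintro ⟨x, hx, rfl⟩
      exact ⟨(1 / 2 : ℝ) * x, ⟨x, hx, rfl⟩, by ring⟩
    · rintro ⟨z, ⟨x, hx, rfl⟩, rfl⟩
      exact ⟨x, hx, by ring⟩
  rw [h1, image_add_left, measure_preimage_add, Measure.addHaar_smul]
  simp [ENNReal.div_eq_inv_mul, ENNReal.ofReal_inv_of_pos]

private lemma bm_compact (K L C : Set ℝ) (hK : IsCompact K) (hL : IsCompact L)
    (hKne : K.Nonempty) (hLne : L.Nonempty)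
    (H : ∀ x ∈ K, ∀ x' ∈ L, (1 / 2 : ℝ) * (x + x') ∈ C) :
    volume K / 2 + volume L / 2 ≤ volume C := by
  set a := sSup K with ha
  set b := sInf L with hb
  have haK : a ∈ K := hK.sSup_mem hKne
  have hbL : b ∈ L := hL.sInf_mem hLne
  set c := (1 / 2 : ℝ) * (a + b) with hc
  set S1 := (fun x => (1 / 2 : ℝ) * (x + b)) '' K with hS1
  set S2 := (fun x => (1 / 2 : ℝ) * (x + a)) '' L with hS2
  have h1 : S1 ⊆ C ∩ Iic c := by
    rintro _ ⟨x, hx, rfl⟩
    refine ⟨H x hx b hbL, ?_⟩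
    have : x ≤ a := le_csSup hK.bddAbove hx
    simp only [mem_Iic, hc]
    linarith
  have h2 : S2 \ {c} ⊆ C \ Iic c := by
    rintro _ ⟨⟨x, hx, rfl⟩, hne⟩
    have hbx : b ≤ x := csInf_le hL.bddBelow hx
    refine ⟨?_, ?_⟩
    · have := H a haK x hx
      rwa [add_comm] at this
    · simp only [mem_Iic, not_le, hc]
      rcases hbx.lt_or_eq with hlt | heq
      · linarith
      · exfalso
        apply hne
        simp only [mem_singleton_iff, hc, ← heq]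
        ring
  have h3 : volume S2 ≤ volume (S2 \ {c}) := by
    calc volume S2 ≤ volume ((S2 \ {c}) ∪ {c}) := measure_mono (by
          intro y hy
          by_cases hyc : y = c
          · exact Or.inr hyc
          · exact Or.inl ⟨hy, hyc⟩)
      _ ≤ volume (S2 \ {c}) + volume {c} := measure_union_le _ _
      _ = volume (S2 \ {c}) := by simp
  calc volume K / 2 + volume L / 2 = volume S1 + volume S2 := by
        rw [hS1, hS2, vol_image_half_add, vol_image_half_add]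
    _ ≤ volume (C ∩ Iic c) + volume (C \ Iic c) :=
        add_le_add (measure_mono h1) (h3.trans (measure_mono h2))
    _ = volume C := measure_inter_add_sdiff C measurableSet_Iic

/-- One-dimensional Brunn-Minkowski: if `C` contains all midpoints of `A` and `B`
(both nonempty, measurable), then `|C| ≥ (|A| + |B|) / 2`. -/
theorem bm_one (A B C : Set ℝ) (hA : MeasurableSet A) (hB : MeasurableSet B)
    (hAne : A.Nonempty) (hBne : B.Nonempty)
    (H : ∀ x ∈ A, ∀ x' ∈ B, (1 / 2 : ℝ) * (x + x') ∈ C) :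
    (volume A + volume B) / 2 ≤ volume C := by
  obtain ⟨a0, ha0⟩ := hAne
  obtain ⟨b0, hb0⟩ := hBne
  have key : ∀ K : Set ℝ, (K ⊆ A ∧ IsCompact K) → ∀ L : Set ℝ, (L ⊆ B ∧ IsCompact L) →
      volume K / 2 + volume L / 2 ≤ volume C := by
    rintro K ⟨hKA, hK⟩ L ⟨hLB, hL⟩
    have h1 := bm_compact (insert a0 K) (insert b0 L) C (hK.insert a0) (hL.insert b0)
      (insert_nonempty _ _) (insert_nonempty _ _)
      (fun x hx x' hx' => H x (insert_subset ha0 hKA hx) x' (insert_subset hb0 hLB hx'))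
    refine le_trans (add_le_add ?_ ?_) h1
    · exact ENNReal.div_le_div_right (measure_mono (subset_insert _ _)) _
    · exact ENNReal.div_le_div_right (measure_mono (subset_insert _ _)) _
  have hA' : volume A / 2 = ⨆ (K : Set ℝ) (_ : K ⊆ A ∧ IsCompact K), volume K / 2 := by
    rw [hA.measure_eq_iSup_isCompact]
    simp only [ENNReal.div_eq_inv_mul, ENNReal.mul_iSup, iSup_and]
  have hB' : volume B / 2 = ⨆ (K : Set ℝ) (_ : K ⊆ B ∧ IsCompact K), volume K / 2 := by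
    rw [hB.measure_eq_iSup_isCompact]
    simp only [ENNReal.div_eq_inv_mul, ENNReal.mul_iSup, iSup_and]
  rw [ENNReal.add_div, hA', hB']
  exact ENNReal.biSup_add_biSup_le' ⟨∅, empty_subset _, isCompact_empty⟩
    ⟨∅, empty_subset _, isCompact_empty⟩ key

private lemma pl_norm (u v w : ℝ → ℝ) (hu : Measurable u) (hv : Measurable v) (hw : Measurable w)
    (u0 : ∀ x, 0 ≤ u x) (v0 : ∀ x, 0 ≤ v x) (w0 : ∀ x, 0 ≤ w x)
    (u1 : ∀ x, u x ≤ 1) (v1 : ∀ x, v x ≤ 1)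
    (usup : ∀ t < 1, ∃ x, t < u x) (vsup : ∀ t < 1, ∃ x, t < v x)
    (H : ∀ t x x', 0 < t → t < u x → t < v x' → t < w ((1 / 2 : ℝ) * (x + x'))) :
    (∫⁻ x, ENNReal.ofReal (u x)) / 2 + (∫⁻ x, ENNReal.ofReal (v x)) / 2 ≤
      ∫⁻ x, ENNReal.ofReal (w x) := by
  rw [lintegral_eq_lintegral_meas_lt volume (Filter.Eventually.of_forall u0) hu.aemeasurable,
    lintegral_eq_lintegral_meas_lt volume (Filter.Eventually.of_forall v0) hv.aemeasurable,
    lintegral_eq_lintegral_meas_lt volume (Filter.Eventually.of_forall w0) hw.aemeasurable]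
  have mu : Measurable (fun t : ℝ => volume {a : ℝ | t < u a}) :=
    Antitone.measurable (fun s t hst => measure_mono (fun a ha => lt_of_le_of_lt hst ha))
  have mv : Measurable (fun t : ℝ => volume {a : ℝ | t < v a}) :=
    Antitone.measurable (fun s t hst => measure_mono (fun a ha => lt_of_le_of_lt hst ha))
  have muv : Measurable (fun t : ℝ => volume {a : ℝ | t < u a} + volume {a : ℝ | t < v a}) :=
    mu.add mv
  rw [← ENNReal.add_div, ← lintegral_add_left mu, ENNReal.div_eq_inv_mul,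
    ← lintegral_const_mul _ muv]
  refine setLIntegral_mono' measurableSet_Ioi (fun t ht => ?_)
  rw [← ENNReal.div_eq_inv_mul]
  by_cases ht1 : t < 1
  · exact bm_one _ _ _ (measurableSet_lt measurable_const hu) (measurableSet_lt measurable_const hv)
      (usup t ht1) (vsup t ht1) (fun x hx x' hx' => H t x x' ht hx hx')
  · have e1 : {a : ℝ | t < u a} = ∅ := by
      ext a
      simp only [mem_ofPred_eq, mem_empty_iff_false, iff_false, not_lt]
      exact (u1 a).trans (not_lt.mp ht1)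
    have e2 : {a : ℝ | t < v a} = ∅ := by
      ext a
      simp only [mem_ofPred_eq, mem_empty_iff_false, iff_false, not_lt]
      exact (v1 a).trans (not_lt.mp ht1)
    rw [e1, e2]
    simp

private lemma amgm (a b : ℝ≥0∞) : a ^ (1 / 2 : ℝ) * b ^ (1 / 2 : ℝ) ≤ a / 2 + b / 2 := by
  have h := ENNReal.young_inequality (a ^ (1 / 2 : ℝ)) (b ^ (1 / 2 : ℝ)) Real.HolderConjugate.two_two
  rw [← ENNReal.rpow_mul, ← ENNReal.rpow_mul] at h
  norm_num at h
  exact h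

private lemma half_half (a : ℝ≥0∞) : a ^ (1 / 2 : ℝ) * a ^ (1 / 2 : ℝ) = a := by
  rw [← ENNReal.rpow_add_of_nonneg _ _ (by norm_num) (by norm_num)]
  norm_num

/-- facts on the normalised function -/
private lemma norm_facts (f : ℝ → ℝ≥0∞) (hf : Measurable f) (F : ℝ≥0∞) (hF : F = ⨆ x, f x)
    (F0 : F ≠ 0) (Ft : F ≠ ⊤) :
    (∀ x, f x / F ≤ 1) ∧ Measurable (fun x => (f x / F).toReal) ∧
    (∀ x, (f x / F).toReal ≤ 1) ∧ (∀ x, ENNReal.ofReal (f x / F).toReal = f x / F) ∧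
    (∀ t < 1, ∃ x, t < (f x / F).toReal) := by
  have h1 : ∀ x, f x / F ≤ 1 := by
    intro x
    have : f x ≤ F := hF ▸ le_iSup f x
    calc f x / F ≤ F / F := ENNReal.div_le_div_right this F
      _ = 1 := ENNReal.div_self F0 Ft
  have hne : ∀ x, f x / F ≠ ⊤ := fun x => ne_top_of_le_ne_top ENNReal.one_ne_top (h1 x)
  refine ⟨h1, (hf.div_const F).ennreal_toReal, ?_, fun x => ENNReal.ofReal_toReal (hne x), ?_⟩
  · intro x
    have := ENNReal.toReal_mono ENNReal.one_ne_top (h1 x)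
    simpa using this
  · intro t ht
    rcases lt_or_ge t 0 with hneg | hpos
    · exact ⟨0, lt_of_lt_of_le hneg ENNReal.toReal_nonneg⟩
    · have h2 : ENNReal.ofReal t * F < ⨆ x, f x := by
        rw [← hF]
        calc ENNReal.ofReal t * F < 1 * F :=
              ENNReal.mul_lt_mul_left F0 Ft (by
                rw [← ENNReal.ofReal_one]
                exact (ENNReal.ofReal_lt_ofReal_iff one_pos).mpr ht)
          _ = F := one_mul F
      obtain ⟨x, hx⟩ := lt_iSup_iff.mp h2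
      refine ⟨x, ?_⟩
      rw [← ENNReal.ofReal_lt_iff_lt_toReal hpos (hne x)]
      exact (ENNReal.lt_div_iff_mul_lt (Or.inl F0) (Or.inl Ft)).mpr hx

private lemma pl_bdd (f g h : ℝ → ℝ≥0∞) (hf : Measurable f) (hg : Measurable g)
    (hh : Measurable h)
    (H : ∀ x x', f x ^ (1 / 2 : ℝ) * g x' ^ (1 / 2 : ℝ) ≤ h ((1 / 2 : ℝ) * (x + x')))
    (F G : ℝ≥0∞) (hF : F = ⨆ x, f x) (hG : G = ⨆ x, g x) (F0 : F ≠ 0) (G0 : G ≠ 0)
    (Ft : F ≠ ⊤) (Gt : G ≠ ⊤) :
    (∫⁻ x, f x) ^ (1 / 2 : ℝ) * (∫⁻ x, g x) ^ (1 / 2 : ℝ) ≤ ∫⁻ x, h x := by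
  obtain ⟨f1, fm, fr1, fo, fsup⟩ := norm_facts f hf F hF F0 Ft
  obtain ⟨g1, gm, gr1, go, gsup⟩ := norm_facts g hg G hG G0 Gt
  set c : ℝ≥0∞ := F ^ (1 / 2 : ℝ) * G ^ (1 / 2 : ℝ) with hc
  have hFp0 : F ^ (1 / 2 : ℝ) ≠ 0 := by
    simp [ENNReal.rpow_eq_zero_iff, F0, Ft]
  have hGp0 : G ^ (1 / 2 : ℝ) ≠ 0 := by
    simp [ENNReal.rpow_eq_zero_iff, G0, Gt]
  have hFpt : F ^ (1 / 2 : ℝ) ≠ ⊤ := ENNReal.rpow_ne_top_of_nonneg (by norm_num) Ft
  have hGpt : G ^ (1 / 2 : ℝ) ≠ ⊤ := ENNReal.rpow_ne_top_of_nonneg (by norm_num) Gt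
  have c0 : c ≠ 0 := mul_ne_zero hFp0 hGp0
  have ct : c ≠ ⊤ := ENNReal.mul_ne_top hFpt hGpt
  -- the scaling identity
  have scal : ∀ a b : ℝ≥0∞, (a / F) ^ (1 / 2 : ℝ) * (b / G) ^ (1 / 2 : ℝ) =
      a ^ (1 / 2 : ℝ) * b ^ (1 / 2 : ℝ) / c := by
    intro a b
    rw [ENNReal.div_rpow_of_nonneg _ _ (by norm_num), ENNReal.div_rpow_of_nonneg _ _ (by norm_num),
      hc, ENNReal.div_eq_inv_mul, ENNReal.div_eq_inv_mul, ENNReal.div_eq_inv_mul,
      ENNReal.mul_inv (Or.inl hFp0) (Or.inl hFpt)]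
    ring
  have wne : ∀ x, min (h x / c) 1 ≠ ⊤ := fun x =>
    ne_top_of_le_ne_top ENNReal.one_ne_top (min_le_right _ _)
  have key := pl_norm (fun x => (f x / F).toReal) (fun x => (g x / G).toReal)
    (fun x => (min (h x / c) 1).toReal) fm gm
    (((hh.div_const c).min measurable_const).ennreal_toReal)
    (fun _ => ENNReal.toReal_nonneg) (fun _ => ENNReal.toReal_nonneg)
    (fun _ => ENNReal.toReal_nonneg) fr1 gr1 fsup gsup
    (by
      intro t x x' ht h1 h2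
      have hne1 : f x / F ≠ ⊤ := ne_top_of_le_ne_top ENNReal.one_ne_top (f1 x)
      have hne2 : g x' / G ≠ ⊤ := ne_top_of_le_ne_top ENNReal.one_ne_top (g1 x')
      rw [← ENNReal.ofReal_lt_iff_lt_toReal ht.le hne1] at h1
      rw [← ENNReal.ofReal_lt_iff_lt_toReal ht.le hne2] at h2
      rw [← ENNReal.ofReal_lt_iff_lt_toReal ht.le (wne _)]
      refine lt_min ?_ (lt_of_lt_of_le h1 (f1 x))
      calc ENNReal.ofReal t
          = ENNReal.ofReal t ^ (1 / 2 : ℝ) * ENNReal.ofReal t ^ (1 / 2 : ℝ) := (half_half _).symm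
        _ < (f x / F) ^ (1 / 2 : ℝ) * (g x' / G) ^ (1 / 2 : ℝ) :=
            ENNReal.mul_lt_mul (ENNReal.rpow_lt_rpow h1 (by norm_num))
              (ENNReal.rpow_lt_rpow h2 (by norm_num))
        _ = f x ^ (1 / 2 : ℝ) * g x' ^ (1 / 2 : ℝ) / c := scal _ _
        _ ≤ h ((1 / 2 : ℝ) * (x + x')) / c := ENNReal.div_le_div_right (H x x') c)
  simp only [fo, go, ENNReal.ofReal_toReal (wne _)] at key
  have e1 : ∫⁻ x, f x / F = (∫⁻ x, f x) / F := by
    simp only [div_eq_mul_inv]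
    exact lintegral_mul_const _ hf
  have e2 : ∫⁻ x, g x / G = (∫⁻ x, g x) / G := by
    simp only [div_eq_mul_inv]
    exact lintegral_mul_const _ hg
  have e3 : ∫⁻ x, min (h x / c) 1 ≤ (∫⁻ x, h x) / c := by
    calc ∫⁻ x, min (h x / c) 1 ≤ ∫⁻ x, h x / c := lintegral_mono (fun x => min_le_left _ _)
      _ = (∫⁻ x, h x) / c := by
        simp only [div_eq_mul_inv]
        exact lintegral_mul_const _ hh
  rw [e1, e2] at key
  have fin : (∫⁻ x, f x) ^ (1 / 2 : ℝ) * (∫⁻ x, g x) ^ (1 / 2 : ℝ) / c ≤ (∫⁻ x, h x) / c := by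
    rw [← scal]
    exact (amgm _ _).trans (key.trans e3)
  calc (∫⁻ x, f x) ^ (1 / 2 : ℝ) * (∫⁻ x, g x) ^ (1 / 2 : ℝ)
      = (∫⁻ x, f x) ^ (1 / 2 : ℝ) * (∫⁻ x, g x) ^ (1 / 2 : ℝ) / c * c :=
        (ENNReal.div_mul_cancel c0 ct).symm
    _ ≤ (∫⁻ x, h x) / c * c := by gcongr
    _ = ∫⁻ x, h x := ENNReal.div_mul_cancel c0 ct

private lemma trunc_facts (f : ℝ → ℝ≥0∞) (hf : Measurable f) :
    (∀ n : ℕ, Measurable (fun x => min (f x) (n : ℝ≥0∞))) ∧
    (∀ n : ℕ, (⨆ x, min (f x) (n : ℝ≥0∞)) ≠ ⊤) ∧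
    (∀ n : ℕ, (∫⁻ x, min (f x) (n : ℝ≥0∞)) ≠ 0 → (⨆ x, min (f x) (n : ℝ≥0∞)) ≠ 0) ∧
    (Monotone (fun (n : ℕ) => ∫⁻ x, min (f x) (n : ℝ≥0∞))) ∧
    (∫⁻ x, f x = ⨆ n : ℕ, ∫⁻ x, min (f x) (n : ℝ≥0∞)) := by
  have hm : ∀ n : ℕ, Measurable (fun x => min (f x) (n : ℝ≥0∞)) :=
    fun n => hf.min measurable_const
  have hmono : Monotone (fun (n : ℕ) (x : ℝ) => min (f x) (n : ℝ≥0∞)) := by
    intro n m hnm x
    exact min_le_min le_rfl (by exact_mod_cast hnm)
  refine ⟨hm, ?_, ?_, ?_, ?_⟩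
  · intro n
    refine ne_top_of_le_ne_top (ENNReal.natCast_ne_top n) (iSup_le (fun x => min_le_right _ _))
  · intro n hn h0
    apply hn
    have : ∀ x, min (f x) (n : ℝ≥0∞) = 0 := fun x => by
      have := le_iSup (fun x => min (f x) (n : ℝ≥0∞)) x
      rw [h0] at this
      exact le_antisymm this zero_le
    simp only [this, lintegral_zero]
  · intro n m hnm
    exact lintegral_mono (hmono hnm)
  · rw [← lintegral_iSup hm hmono]
    congr 1
    funext x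
    have h1 : (⨆ n : ℕ, f x ⊓ (n : ℝ≥0∞)) = f x ⊓ ⨆ n : ℕ, (n : ℝ≥0∞) := (inf_iSup_eq _ _).symm
    rw [ENNReal.iSup_natCast, inf_top_eq] at h1
    exact h1.symm

/-- One-dimensional Prekopa-Leindler inequality. -/
theorem pl_one (f g h : ℝ → ℝ≥0∞) (hf : Measurable f) (hg : Measurable g) (hh : Measurable h)
    (H : ∀ x x', f x ^ (1 / 2 : ℝ) * g x' ^ (1 / 2 : ℝ) ≤ h ((1 / 2 : ℝ) * (x + x'))) :
    (∫⁻ x, f x) ^ (1 / 2 : ℝ) * (∫⁻ x, g x) ^ (1 / 2 : ℝ) ≤ ∫⁻ x, h x := by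
  obtain ⟨fm, ft, f0, fmono, fl⟩ := trunc_facts f hf
  obtain ⟨gm, gt, g0, gmono, gl⟩ := trunc_facts g hg
  have step : ∀ n : ℕ, (∫⁻ x, min (f x) (n : ℝ≥0∞)) ^ (1 / 2 : ℝ) *
      (∫⁻ x, min (g x) (n : ℝ≥0∞)) ^ (1 / 2 : ℝ) ≤ ∫⁻ x, h x := by
    intro n
    by_cases h1 : (∫⁻ x, min (f x) (n : ℝ≥0∞)) = 0
    · rw [h1]
      simp
    by_cases h2 : (∫⁻ x, min (g x) (n : ℝ≥0∞)) = 0
    · rw [h2]
      simp
    refine pl_bdd _ _ h (fm n) (gm n) hh ?_ _ _ rfl rfl (f0 n h1) (g0 n h2) (ft n) (gt n)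
    intro x x'
    refine le_trans ?_ (H x x')
    gcongr
    · exact min_le_left _ _
    · exact min_le_left _ _
  have hr : ∀ a : ℕ → ℝ≥0∞, (⨆ n, a n) ^ (1 / 2 : ℝ) = ⨆ n, a n ^ (1 / 2 : ℝ) := by
    intro a
    exact (ENNReal.orderIsoRpow (1 / 2 : ℝ) (by norm_num)).map_iSup a
  rw [fl, gl, hr, hr, ENNReal.iSup_mul]
  refine iSup_le (fun i => ?_)
  rw [ENNReal.mul_iSup]
  refine iSup_le (fun j => ?_)
  refine le_trans ?_ (step (max i j))
  exact mul_le_mul' (ENNReal.rpow_le_rpow (fmono (le_max_left i j)) (by norm_num))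
    (ENNReal.rpow_le_rpow (gmono (le_max_right i j)) (by norm_num))

end Vale.Agent.Lib.P074
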