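import Vale.Agent.Lib.P074.PL1
import Vale.Agent.Lib.P074.Defs

/-!
Prekopa-Leindler inequality (midpoint version) on `Fin n → ℝ` and on `E d`.
-/

open MeasureTheory Set
open scoped ENNReal NNReal

namespace Vale.Agent.Lib.P074

/-- the gluing map `(t, y) ↦ (t, y₀, …, yₙ₋₁)` -/
noncomputable def plGlue (n : ℕ) : ℝ × (Fin n → ℝ) → (Fin (n + 1) → ℝ) :=
  (MeasurableEquiv.piFinSuccAbove (fun _ : Fin (n + 1) => ℝ) 0).symm

lemma plGlue_measurable (n : ℕ) : Measurable (plGlue n) :=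
  (MeasurableEquiv.piFinSuccAbove (fun _ : Fin (n + 1) => ℝ) 0).symm.measurable

lemma plGlue_lintegral (n : ℕ) (f : (Fin (n + 1) → ℝ) → ℝ≥0∞) (hf : Measurable f) :
    ∫⁻ x, f x = ∫⁻ t : ℝ, ∫⁻ y : Fin n → ℝ, f (plGlue n (t, y)) := by
  have h1 := ((volume_preserving_piFinSuccAbove (fun _ : Fin (n + 1) => ℝ) 0).symm).lintegral_comp hf
  rw [← h1]
  exact lintegral_prod (fun p => f (plGlue n p)) (hf.comp (plGlue_measurable n)).aemeasurable

lemma plGlue_mid (n : ℕ) (t t' : ℝ) (y y' : Fin n → ℝ) :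
    (1 / 2 : ℝ) • (plGlue n (t, y) + plGlue n (t', y')) =
      plGlue n ((1 / 2 : ℝ) * (t + t'), (1 / 2 : ℝ) • (y + y')) := by
  funext i
  refine Fin.cases ?_ (fun j => ?_) i
  · simp [plGlue, MeasurableEquiv.piFinSuccAbove_symm_apply, Fin.insertNthEquiv]
  · simp [plGlue, MeasurableEquiv.piFinSuccAbove_symm_apply, Fin.insertNthEquiv]
    ring

/-- Prekopa-Leindler on `Fin n → ℝ` (induction on `n` from `pl_one` and Tonelli). -/
theorem pl_pi (n : ℕ) (f g h : (Fin n → ℝ) → ℝ≥0∞) (hf : Measurable f) (hg : Measurable g)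
    (hh : Measurable h)
    (H : ∀ x x', f x ^ (1 / 2 : ℝ) * g x' ^ (1 / 2 : ℝ) ≤ h ((1 / 2 : ℝ) • (x + x'))) :
    (∫⁻ x, f x) ^ (1 / 2 : ℝ) * (∫⁻ x, g x) ^ (1 / 2 : ℝ) ≤ ∫⁻ x, h x := by
  induction n with
  | zero =>
    have hv : (volume : Measure (Fin 0 → ℝ)) = Measure.dirac 0 := by
      rw [volume_pi, Measure.pi_of_empty]
      congr
      exact Subsingleton.elim _ _
    rw [hv, lintegral_dirac' _ hf, lintegral_dirac' _ hg, lintegral_dirac' _ hh]
    have := H 0 0
    simpa using this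
  | succ n ih =>
    rw [plGlue_lintegral n f hf, plGlue_lintegral n g hg, plGlue_lintegral n h hh]
    apply pl_one
    · exact (hf.comp (plGlue_measurable n)).lintegral_prod_right'
    · exact (hg.comp (plGlue_measurable n)).lintegral_prod_right'
    · exact (hh.comp (plGlue_measurable n)).lintegral_prod_right'
    · intro t t'
      apply ih
      · exact hf.comp ((plGlue_measurable n).comp measurable_prodMk_left)
      · exact hg.comp ((plGlue_measurable n).comp measurable_prodMk_left)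
      · exact hh.comp ((plGlue_measurable n).comp measurable_prodMk_left)
      · intro y y'
        rw [← plGlue_mid]
        exact H _ _

/-- Prekopa-Leindler on Euclidean space. -/
theorem prekopa_leindler (d : ℕ) (f g h : E d → ℝ≥0∞) (hf : Measurable f) (hg : Measurable g)
    (hh : Measurable h)
    (H : ∀ x x', f x ^ (1 / 2 : ℝ) * g x' ^ (1 / 2 : ℝ) ≤ h ((1 / 2 : ℝ) • (x + x'))) :
    (∫⁻ x, f x) ^ (1 / 2 : ℝ) * (∫⁻ x, g x) ^ (1 / 2 : ℝ) ≤ ∫⁻ x, h x := by
  have hmp := PiLp.volume_preserving_toLp (Fin d)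
  have hm : Measurable (@WithLp.toLp 2 (Fin d → ℝ)) := hmp.measurable
  rw [← hmp.lintegral_comp hf, ← hmp.lintegral_comp hg, ← hmp.lintegral_comp hh]
  apply pl_pi d _ _ _ (hf.comp hm) (hg.comp hm) (hh.comp hm)
  intro x x'
  have := H (WithLp.toLp 2 x) (WithLp.toLp 2 x')
  simpa using this

end Vale.Agent.Lib.P074
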