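import Vale.Agent.Lib.P074.WeightStab

/-!
`L²` Lipschitz stability of the Kantorovich potentials for finitely supported targets with the same masses.

Proof.  `c_i P = ψ_i (y_i P)`; by `pot_weights` these are weights with masses `m`, and a.e. on the cell `P` of
`(y_i, c_i)`: `φ_i x = ⟪x, y_i P⟫ - c_i P`.  Take `k'` from `weights_stability` and `k = k'`.
With `e P = y1 P - y0 P`, `G P = RK ‖e P‖ + |c1 P - c0 P - k|`, `h = φ1 - φ0 + k`:
 a.e. on `Lag K y1 c1 P`:  `h x ≤ ⟪x, e P⟫ - (c1 P - c0 P - k) ≤ G P`   (use `h0.le x (y0 P)`),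
 a.e. on `Lag K y0 c0 Q`:  `h x ≥ ⟪x, e Q⟫ - (c1 Q - c0 Q - k) ≥ - G Q`  (use `h1.le x (y1 Q)`).
So `h x ^ 2 ≤ G P ^ 2 + G Q ^ 2` on the intersection, and by `integral_eq_sum_Lag` (twice)
`∫ h² ≤ 2 ∑ m G² ≤ 4 RK² ∑ m ‖e‖² + 4 ∑ m (c1 - c0 - k)² ≤ 4 (1 + 700²) RK² W²  ≤ (1500 RK)² W²`.
-/

open MeasureTheory Set Filter
open scoped ENNReal NNReal Topology

namespace Vale.Agent.Lib.P074

variable {d : ℕ} {ι : Type*} [Fintype ι]

/-- integral of a finite sum of constants on cells -/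
theorem integral_sum_indicator_Lag {K : Set (E d)} (hK : IsCompact K) (hvol : volume K ≠ 0)
    (y : ι → E d) (c : ι → ℝ) (G : ι → ℝ) :
    Integrable (fun x => ∑ P, (Lag K y c P).indicator (fun _ => G P) x) (unif K) ∧
    ∫ x, ∑ P, (Lag K y c P).indicator (fun _ => G P) x ∂(unif K) =
      ∑ P, (unif K (Lag K y c P)).toReal * G P := by
  have hprob := isProbabilityMeasure_unif hvol hK.measure_lt_top.ne
  have hi : ∀ P ∈ (Finset.univ : Finset ι),
      Integrable (fun x => (Lag K y c P).indicator (fun _ => G P) x) (unif K) :=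
    fun P _ => (integrable_const (G P)).indicator (measurableSet_Lag hK y c P)
  refine ⟨integrable_finsetSum _ hi, ?_⟩
  rw [integral_finsetSum _ hi]
  refine Finset.sum_congr rfl fun P _ => ?_
  rw [integral_indicator (measurableSet_Lag hK y c P), setIntegral_const, smul_eq_mul,
    measureReal_def]

theorem pot_L2 (K Y : Set (E d)) (hK : IsCompact K) (hconv : Convex ℝ K)
    (hint : (interior K).Nonempty) (RK RY : ℝ≥0) (hRK : 0 < RK) (hKb : ∀ x ∈ K, ‖x‖ ≤ RK)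
    (hYb : ∀ y ∈ Y, ‖y‖ ≤ RY)
    (y0 y1 : ι → E d) (hy0 : Function.Injective y0) (hy1 : Function.Injective y1)
    (hY0 : ∀ P, y0 P ∈ Y) (hY1 : ∀ P, y1 P ∈ Y)
    (m : ι → ℝ) (hm : ∀ P, 0 < m P) (hsum : ∑ P, m P = 1)
    (T0 T1 : E d → E d) (φ0 ψ0 φ1 ψ1 : E d → ℝ)
    (h0 : IsPot K Y RK RY T0 φ0 ψ0) (h1 : IsPot K Y RK RY T1 φ1 ψ1)
    (hm0 : (unif K).map T0 = dmeas y0 m) (hm1 : (unif K).map T1 = dmeas y1 m) :
    ∃ k : ℝ, ∫ x, (φ1 x - φ0 x + k) ^ 2 ∂(unif K) ≤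
      (1500 * RK) ^ 2 * ∑ P, m P * ‖y1 P - y0 P‖ ^ 2 := by
  have hvol : volume K ≠ 0 :=
    ((isOpen_interior.measure_pos volume hint).trans_le (measure_mono interior_subset)).ne'
  have hprob := isProbabilityMeasure_unif hvol hK.measure_lt_top.ne
  have hι : Nonempty ι := by
    by_contra h
    rw [not_nonempty_iff] at h
    simp at hsum
  set c0 : ι → ℝ := fun Q => ψ0 (y0 Q) with hc0
  set c1 : ι → ℝ := fun Q => ψ1 (y1 Q) with hc1
  obtain ⟨hw0, ha0⟩ := pot_weights K Y hK hvol RK RY y0 hy0 hY0 m hm hsum T0 φ0 ψ0 h0 hm0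
  obtain ⟨hw1, ha1⟩ := pot_weights K Y hK hvol RK RY y1 hy1 hY1 m hm hsum T1 φ1 ψ1 h1 hm1
  obtain ⟨k, hk⟩ := weights_stability K hK hconv hint RK RY hRK hKb y0 y1 hy0 hy1
    (fun P => hYb _ (hY0 P)) (fun P => hYb _ (hY1 P)) m hm hsum c0 c1 hw0 hw1
  refine ⟨k, ?_⟩
  set G : ι → ℝ := fun P => RK * ‖y1 P - y0 P‖ + |c1 P - c0 P - k| with hG
  have hGnn : ∀ P, 0 ≤ G P := fun P => by positivity
  obtain ⟨hi1, he1⟩ := integral_sum_indicator_Lag hK hvol y1 c1 (fun P => G P ^ 2)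
  obtain ⟨hi0, he0⟩ := integral_sum_indicator_Lag hK hvol y0 c0 (fun P => G P ^ 2)
  have hae : ∀ᵐ x ∂(unif K), (φ1 x - φ0 x + k) ^ 2 ≤
      (∑ P, (Lag K y1 c1 P).indicator (fun _ => G P ^ 2) x) +
        ∑ P, (Lag K y0 c0 P).indicator (fun _ => G P ^ 2) x := by
    have hA0 := ae_all_iff.2 ha0
    have hA1 := ae_all_iff.2 ha1
    filter_upwards [hA0, hA1, ae_mem_unif hK.isClosed.measurableSet] with x hx0 hx1 hxK
    obtain ⟨P, hP⟩ := mem_iUnion.1 (Lag_cover K y1 c1 hxK)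
    obtain ⟨Q, hQ⟩ := mem_iUnion.1 (Lag_cover K y0 c0 hxK)
    have e1 := (hx1 P hP).2
    have e0 := (hx0 Q hQ).2
    have l0 := h0.le x (y0 P) (hY0 P)
    have l1 := h1.le x (y1 Q) (hY1 Q)
    have hxn := hKb x hxK
    have bP : |inner ℝ x (y1 P - y0 P)| ≤ RK * ‖y1 P - y0 P‖ :=
      (abs_real_inner_le_norm _ _).trans (mul_le_mul_of_nonneg_right hxn (norm_nonneg _))
    have bQ : |inner ℝ x (y1 Q - y0 Q)| ≤ RK * ‖y1 Q - y0 Q‖ :=
      (abs_real_inner_le_norm _ _).trans (mul_le_mul_of_nonneg_right hxn (norm_nonneg _))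
    rw [inner_sub_right] at bP bQ
    have up : φ1 x - φ0 x + k ≤ G P := by
      have a1 := (abs_le.1 bP).2
      have a2 := neg_abs_le (c1 P - c0 P - k)
      simp only [hG, hc0, hc1] at *
      linarith
    have lo : -(G Q) ≤ φ1 x - φ0 x + k := by
      have a1 := (abs_le.1 bQ).1
      have a2 := le_abs_self (c1 Q - c0 Q - k)
      simp only [hG, hc0, hc1] at *
      linarith
    have s1 : G P ^ 2 ≤ ∑ P, (Lag K y1 c1 P).indicator (fun _ => G P ^ 2) x := by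
      have := Finset.single_le_sum (f := fun P => (Lag K y1 c1 P).indicator (fun _ => G P ^ 2) x)
        (fun R _ => indicator_nonneg (fun _ _ => sq_nonneg (G R)) x) (Finset.mem_univ P)
      simpa [indicator_of_mem hP] using this
    have s0 : G Q ^ 2 ≤ ∑ P, (Lag K y0 c0 P).indicator (fun _ => G P ^ 2) x := by
      have := Finset.single_le_sum (f := fun P => (Lag K y0 c0 P).indicator (fun _ => G P ^ 2) x)
        (fun R _ => indicator_nonneg (fun _ _ => sq_nonneg (G R)) x) (Finset.mem_univ Q)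
      simpa [indicator_of_mem hQ] using this
    have hsq : (φ1 x - φ0 x + k) ^ 2 ≤ G P ^ 2 + G Q ^ 2 := by
      rcases le_total 0 (φ1 x - φ0 x + k) with hs | hs
      · nlinarith [hGnn P, hGnn Q, sq_nonneg (G Q)]
      · nlinarith [hGnn P, hGnn Q, sq_nonneg (G P)]
    linarith
  have hint2 := integral_mono_of_nonneg (Eventually.of_forall fun x => sq_nonneg _)
    (hi1.add hi0) hae
  have hadd := integral_add hi1 hi0
  have hint3 : ∫ x, (φ1 x - φ0 x + k) ^ 2 ∂(unif K) ≤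
      ∫ x, ((∑ P, (Lag K y1 c1 P).indicator (fun _ => G P ^ 2) x) +
        ∑ P, (Lag K y0 c0 P).indicator (fun _ => G P ^ 2) x) ∂(unif K) := hint2
  rw [hadd, he1, he0] at hint3
  refine hint3.trans ?_
  have hw0' : ∀ P, (unif K (Lag K y0 c0 P)).toReal = m P := hw0
  have hw1' : ∀ P, (unif K (Lag K y1 c1 P)).toReal = m P := hw1
  simp only [hw0', hw1']
  have hGsq : ∀ P, m P * G P ^ 2 ≤
      2 * (RK : ℝ) ^ 2 * (m P * ‖y1 P - y0 P‖ ^ 2) + 2 * (m P * (c1 P - c0 P - k) ^ 2) := by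
    intro P
    have h2 : G P ^ 2 ≤ 2 * ((RK : ℝ) * ‖y1 P - y0 P‖) ^ 2 + 2 * (c1 P - c0 P - k) ^ 2 := by
      simp only [hG]
      have := sq_abs (c1 P - c0 P - k)
      nlinarith [sq_nonneg ((RK : ℝ) * ‖y1 P - y0 P‖ - |c1 P - c0 P - k|)]
    have := mul_le_mul_of_nonneg_left h2 (hm P).le
    nlinarith
  have hS : ∑ P, m P * G P ^ 2 ≤ 2 * (RK : ℝ) ^ 2 * ∑ P, m P * ‖y1 P - y0 P‖ ^ 2 +
      2 * ∑ P, m P * (c1 P - c0 P - k) ^ 2 := by
    rw [Finset.mul_sum, Finset.mul_sum, ← Finset.sum_add_distrib]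
    exact Finset.sum_le_sum fun P _ => hGsq P
  have hWnn : 0 ≤ ∑ P, m P * ‖y1 P - y0 P‖ ^ 2 :=
    Finset.sum_nonneg fun P _ => mul_nonneg (hm P).le (sq_nonneg _)
  have hRsq : 0 ≤ (RK : ℝ) ^ 2 * ∑ P, m P * ‖y1 P - y0 P‖ ^ 2 := mul_nonneg (sq_nonneg _) hWnn
  nlinarith

end Vale.Agent.Lib.P074
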