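import Vale.Agent.Lib.P074.Basic

/-!
MODULE M1 (P074).  Integrated second differences of a convex Lipschitz function.

ROUTE.  Put F x = φ (x + h) - φ x, so |F| ≤ L ‖h‖ and the integrand is F x - F (x - h) ≥ 0
(midpoint convexity).  Let χ x = max 0 (1 - infDist x K): 1-Lipschitz, 0 ≤ χ ≤ 1, χ = 1 on K,
χ = 0 off cthickening 1 K.  Then
  ∫_K (F x - F (x-h)) ≤ ∫ χ x (F x - F (x-h)) = ∫ (χ x - χ (x+h)) F x   (translation invariance)
  ≤ L ‖h‖ ∫ |χ x - χ (x+h)| ≤ L ‖h‖ * ‖h‖ * vol (cthickening 2 K),
because χ x - χ (x+h) vanishes off cthickening 2 K (‖h‖ ≤ 1) and is ≤ ‖h‖ in absolute value.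
All integrands are continuous with compact support.
-/

open MeasureTheory Set
open scoped ENNReal NNReal

namespace Vale.Agent.Lib.P074

variable {d : ℕ}

/-- Lipschitz cut-off equal to one on `K` and vanishing at distance at least one from `K` -/
noncomputable def cutoff (K : Set (E d)) (x : E d) : ℝ := max 0 (1 - Metric.infDist x K)

theorem cutoff_nonneg (K : Set (E d)) (x : E d) : 0 ≤ cutoff K x := le_max_left _ _

theorem cutoff_le_one (K : Set (E d)) (x : E d) : cutoff K x ≤ 1 := by
  unfold cutoff
  have := Metric.infDist_nonneg (x := x) (s := K)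
  exact max_le (by norm_num) (by linarith)

theorem cutoff_eq_one {K : Set (E d)} {x : E d} (hx : x ∈ K) : cutoff K x = 1 := by
  unfold cutoff
  rw [Metric.infDist_zero_of_mem hx]
  norm_num

theorem cutoff_continuous (K : Set (E d)) : Continuous (cutoff K) := by
  unfold cutoff
  exact continuous_const.max (continuous_const.sub (Metric.continuous_infDist_pt K))

theorem cutoff_sub_le (K : Set (E d)) (x y : E d) : |cutoff K x - cutoff K y| ≤ dist x y := by
  unfold cutoff
  have h1 : |Metric.infDist x K - Metric.infDist y K| ≤ dist x y := by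
    have := (Metric.lipschitz_infDist_pt K).dist_le_mul x y
    simpa [Real.dist_eq] using this
  have h2 := abs_max_sub_max_le_abs (1 - Metric.infDist x K) (1 - Metric.infDist y K) (0 : ℝ)
  rw [max_comm 0, max_comm 0]
  refine h2.trans ?_
  have : 1 - Metric.infDist x K - (1 - Metric.infDist y K) =
      -(Metric.infDist x K - Metric.infDist y K) := by ring
  rw [this, abs_neg]
  exact h1

theorem cutoff_eq_zero {K : Set (E d)} {x : E d} (hx : 1 ≤ Metric.infDist x K) :
    cutoff K x = 0 := by
  unfold cutoff
  exact max_eq_left (by linarith)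

theorem lt_infDist_of_notMem {K : Set (E d)} (hne : K.Nonempty) {δ : ℝ} (hδ : 0 ≤ δ) {x : E d}
    (hx : x ∉ Metric.cthickening δ K) : δ < Metric.infDist x K := by
  rw [Metric.mem_cthickening_iff, not_le] at hx
  have : ENNReal.ofReal δ < ENNReal.ofReal (Metric.infDist x K) := by
    rw [Metric.infDist, ENNReal.ofReal_toReal (Metric.infEDist_ne_top hne)]
    exact hx
  exact (ENNReal.ofReal_lt_ofReal_iff_of_nonneg hδ).mp this

theorem second_diff_integral_le (K : Set (E d)) (hK : IsCompact K) (φ : E d → ℝ) (L : ℝ≥0)
    (hφ : LipschitzWith L φ) (hc : ConvexOn ℝ univ φ) (h : E d) (hh : ‖h‖ ≤ 1) :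
    ∫ x in K, (φ (x + h) + φ (x - h) - 2 * φ x) ≤
      L * ‖h‖ ^ 2 * (volume (Metric.cthickening 2 K)).toReal := by
  rcases K.eq_empty_or_nonempty with rfl | hne
  · simp
  set F : E d → ℝ := fun x => φ (x + h) - φ x with hF
  set χ : E d → ℝ := cutoff K with hχ
  set B : Set (E d) := Metric.cthickening 2 K with hB
  have hBc : IsCompact B := hK.cthickening
  have hφc : Continuous φ := hφ.continuous
  have hFc : Continuous F := by fun_prop
  have hχc : Continuous χ := cutoff_continuous K
  have hFb : ∀ x, |F x| ≤ L * ‖h‖ := by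
    intro x
    have := hφ.dist_le_mul (x + h) x
    rw [Real.dist_eq, dist_eq_norm] at this
    simpa using this
  -- nonnegativity of the second difference
  have hnn : ∀ x, 0 ≤ φ (x + h) + φ (x - h) - 2 * φ x := by
    intro x
    have := hc.2 (mem_univ (x + h)) (mem_univ (x - h)) (by norm_num : (0 : ℝ) ≤ 1 / 2)
      (by norm_num : (0 : ℝ) ≤ 1 / 2) (by norm_num)
    have e : (1 / 2 : ℝ) • (x + h) + (1 / 2 : ℝ) • (x - h) = x := by
      rw [← smul_add]
      have : x + h + (x - h) = (2 : ℝ) • x := by rw [two_smul]; abel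
      rw [this, smul_smul]
      norm_num
    rw [e] at this
    simp only [smul_eq_mul] at this
    linarith
  -- support of chi
  have hsupp : ∀ x, x ∉ Metric.cthickening 1 K → χ x = 0 := by
    intro x hx
    exact cutoff_eq_zero (lt_infDist_of_notMem hne (by norm_num) hx).le
  have hχcs : HasCompactSupport χ := HasCompactSupport.intro (hK.cthickening (r := 1)) hsupp
  have hsd : ∀ x, φ (x + h) + φ (x - h) - 2 * φ x = F x - F (x - h) := by
    intro x
    simp only [hF, sub_add_cancel]
    ring
  -- step 1
  have hI1 : Integrable (fun x => χ x * F x) := (hχc.mul hFc).integrable_of_hasCompactSupport hχcs.mul_right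
  have hI2 : Integrable (fun x => χ x * F (x - h)) :=
    (hχc.mul (by fun_prop)).integrable_of_hasCompactSupport hχcs.mul_right
  have hI3 : Integrable (fun x => χ (x + h) * F x) := by
    have := hI2.comp_add_right h
    simpa using this
  have s1 : ∫ x in K, (φ (x + h) + φ (x - h) - 2 * φ x) ≤ ∫ x, χ x * (F x - F (x - h)) := by
    rw [← integral_indicator hK.measurableSet]
    refine integral_mono ?_ ?_ ?_
    · rw [integrable_indicator_iff hK.measurableSet]
      exact (by fun_prop : Continuous fun x => φ (x + h) + φ (x - h) - 2 * φ x).continuousOn.integrableOn_compact hK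
    · have : (fun x => χ x * (F x - F (x - h))) = fun x => χ x * F x - χ x * F (x - h) := by
        funext x; ring
      rw [this]
      exact hI1.sub hI2
    · intro x
      by_cases hx : x ∈ K
      · simp only [indicator_of_mem hx, hχ, cutoff_eq_one hx, one_mul, hsd]
        exact le_rfl
      · simp only [indicator_of_notMem hx]
        rw [← hsd]
        exact mul_nonneg (cutoff_nonneg K x) (hnn x)
  have s2 : ∫ x, χ x * (F x - F (x - h)) = ∫ x, (χ x - χ (x + h)) * F x := by
    have e1 : ∫ x, χ x * F (x - h) = ∫ x, χ (x + h) * F x := by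
      rw [← integral_add_right_eq_self (fun x => χ x * F (x - h)) h]
      simp
    simp only [mul_sub, sub_mul]
    rw [integral_sub hI1 hI2, integral_sub hI1 hI3, e1]
  have s3 : ∫ x, (χ x - χ (x + h)) * F x ≤ ∫ x, B.indicator (fun _ => ‖h‖ * (L * ‖h‖)) x := by
    refine integral_mono ?_ ?_ ?_
    · have : (fun x => (χ x - χ (x + h)) * F x) = fun x => χ x * F x - χ (x + h) * F x := by
        funext x; ring
      rw [this]
      exact hI1.sub hI3
    · rw [integrable_indicator_iff hBc.measurableSet]
      exact integrableOn_const hBc.measure_lt_top.ne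
    · intro x
      by_cases hx : x ∈ B
      · simp only [indicator_of_mem hx]
        have a := cutoff_sub_le K x (x + h)
        rw [dist_eq_norm] at a
        have a' : |χ x - χ (x + h)| ≤ ‖h‖ := by
          refine a.trans (le_of_eq ?_)
          rw [sub_add_cancel_left, norm_neg]
        calc (χ x - χ (x + h)) * F x ≤ |(χ x - χ (x + h)) * F x| := le_abs_self _
          _ = |χ x - χ (x + h)| * |F x| := abs_mul _ _
          _ ≤ ‖h‖ * (L * ‖h‖) := mul_le_mul a' (hFb x) (abs_nonneg _) (norm_nonneg _)
      · simp only [indicator_of_notMem hx]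
        have h2 := lt_infDist_of_notMem hne (by norm_num) hx
        have z1 : χ x = 0 := cutoff_eq_zero (by linarith)
        have z2 : χ (x + h) = 0 := by
          apply cutoff_eq_zero
          have := Metric.infDist_le_infDist_add_dist (s := K) (x := x) (y := x + h)
          rw [dist_eq_norm, sub_add_cancel_left, norm_neg] at this
          linarith
        rw [z1, z2]
        simp
  have s4 : ∫ x, B.indicator (fun _ => ‖h‖ * (L * ‖h‖)) x = L * ‖h‖ ^ 2 * (volume B).toReal := by
    rw [integral_indicator_const _ hBc.measurableSet, smul_eq_mul, Measure.real]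
    ring
  calc ∫ x in K, (φ (x + h) + φ (x - h) - 2 * φ x) ≤ ∫ x, χ x * (F x - F (x - h)) := s1
    _ = ∫ x, (χ x - χ (x + h)) * F x := s2
    _ ≤ ∫ x, B.indicator (fun _ => ‖h‖ * (L * ‖h‖)) x := s3
    _ = L * ‖h‖ ^ 2 * (volume B).toReal := s4

end Vale.Agent.Lib.P074
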