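import Vale.Agent.Lib.P074.Lag
import Vale.Agent.Lib.P074.Exist

/-!
Link between Brenier potentials (`IsPot`) of a finitely supported target `dmeas y z`
and Laguerre cells with weights `c P = ψ (y P)`; existence of weights.

Proof of `pot_weights`: for `unif K`-a.e. `x`: `x ∈ K`, `T x ∈ range y` (the complement of the finite
set `range y` is `dmeas`-null), and `⟪x, T x⟫ = φ x + ψ (T x)`.  If `T x = y P` then by `hP.le`,
`x ∈ Lag K y c P` and `φ x = ⟪x, y P⟫ - c P`.  So `z P = unif K {T = y P} ≤ unif K (Lag .. P)`; both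
families sum to `1` (`sum_measure_Lag`), hence equality.  If `x ∈ Lag .. P` and `T x = y Q`, `Q ≠ P`, then
`x ∈ Lag .. P ∩ Lag .. Q`, a null set (`Lag_inter_null`, `unif_absolutelyContinuous`).
-/

open MeasureTheory Set
open scoped ENNReal NNReal

namespace Vale.Agent.Lib.P074

variable {d : ℕ} {ι : Type*} [Fintype ι]

theorem dmeas_apply (y : ι → E d) (z : ι → ℝ) {s : Set (E d)} (hs : MeasurableSet s) :
    dmeas y z s = ∑ P, ENNReal.ofReal (z P) * s.indicator (fun _ => (1 : ℝ≥0∞)) (y P) := by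
  simp only [dmeas, Measure.finsetSum_apply, Measure.smul_apply, smul_eq_mul,
    Measure.dirac_apply' _ hs]
  rfl

theorem isProbabilityMeasure_dmeas (y : ι → E d) (z : ι → ℝ) (hz : ∀ P, 0 < z P)
    (hsum : ∑ P, z P = 1) : IsProbabilityMeasure (dmeas y z) := by
  constructor
  rw [dmeas_apply y z MeasurableSet.univ]
  simp only [indicator_univ, mul_one]
  rw [← ENNReal.ofReal_sum_of_nonneg (fun P _ => (hz P).le), hsum]
  simp

theorem dmeas_compl_null (Y : Set (E d)) (hY : IsCompact Y) (y : ι → E d) (hyY : ∀ P, y P ∈ Y)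
    (z : ι → ℝ) : dmeas y z Yᶜ = 0 := by
  rw [dmeas_apply y z hY.isClosed.measurableSet.compl]
  refine Finset.sum_eq_zero fun P _ => ?_
  rw [indicator_of_notMem (by simpa using hyY P)]
  simp

theorem dmeas_singleton (y : ι → E d) (hy : Function.Injective y) (z : ι → ℝ) (P : ι) :
    dmeas y z {y P} = ENNReal.ofReal (z P) := by
  classical
  rw [dmeas_apply y z (measurableSet_singleton _)]
  rw [Finset.sum_eq_single P]
  · simp
  · intro Q _ hQ
    rw [indicator_of_notMem (by simpa using fun h => hQ (hy h))]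
    simp
  · intro h; exact absurd (Finset.mem_univ P) h

theorem pot_weights (K Y : Set (E d)) (hK : IsCompact K) (hvol : volume K ≠ 0) (RK RY : ℝ≥0)
    (y : ι → E d) (hy : Function.Injective y) (hyY : ∀ P, y P ∈ Y)
    (z : ι → ℝ) (hz : ∀ P, 0 < z P) (hsum : ∑ P, z P = 1)
    (T : E d → E d) (φ ψ : E d → ℝ) (hP : IsPot K Y RK RY T φ ψ)
    (hmap : (unif K).map T = dmeas y z) :
    (∀ P, (unif K (Lag K y (fun Q => ψ (y Q)) P)).toReal = z P) ∧
      (∀ P, ∀ᵐ x ∂(unif K), x ∈ Lag K y (fun Q => ψ (y Q)) P →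
        T x = y P ∧ φ x = inner ℝ x (y P) - ψ (y P)) := by
  classical
  have hprob := isProbabilityMeasure_unif hvol hK.measure_lt_top.ne
  have hne : Nonempty ι := by
    by_contra h
    rw [not_nonempty_iff] at h
    simp at hsum
  -- a.e. facts
  have hrange : ∀ᵐ x ∂(unif K), T x ∈ range y := by
    have hfin : (range y).Finite := finite_range y
    have hm : MeasurableSet (range y)ᶜ := hfin.measurableSet.compl
    have h0 : dmeas y z (range y)ᶜ = 0 := by
      rw [dmeas_apply y z hm]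
      refine Finset.sum_eq_zero fun P _ => ?_
      rw [indicator_of_notMem (by simp)]
      simp
    rw [← hmap, Measure.map_apply hP.meas hm] at h0
    have : ∀ᵐ x ∂(unif K), x ∉ T ⁻¹' (range y)ᶜ := measure_eq_zero_iff_ae_notMem.1 h0
    filter_upwards [this] with x hx
    simpa using hx
  have hkey : ∀ᵐ x ∂(unif K), ∀ P, T x = y P →
      x ∈ Lag K y (fun Q => ψ (y Q)) P ∧ φ x = inner ℝ x (y P) - ψ (y P) := by
    filter_upwards [ae_mem_unif hK.isClosed.measurableSet, hP.eq] with x hxK hxeq P hTP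
    rw [hTP] at hxeq
    refine ⟨⟨hxK, fun Q => ?_⟩, by linarith⟩
    have := hP.le x (y Q) (hyY Q)
    linarith
  have hle : ∀ P, z P ≤ (unif K (Lag K y (fun Q => ψ (y Q)) P)).toReal := by
    intro P
    have h1 : unif K (T ⁻¹' {y P}) = ENNReal.ofReal (z P) := by
      rw [← Measure.map_apply hP.meas (measurableSet_singleton _), hmap, dmeas_singleton y hy]
    have h2 : unif K (T ⁻¹' {y P}) ≤ unif K (Lag K y (fun Q => ψ (y Q)) P) := by
      refine measure_mono_ae ?_
      filter_upwards [hkey] with x hx hxT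
      exact (hx P hxT).1
    rw [h1] at h2
    exact (ENNReal.ofReal_le_iff_le_toReal (measure_ne_top _ _)).1 h2
  refine ⟨fun P => ?_, fun P => ?_⟩
  · have hs := sum_measure_Lag hK hvol y hy (fun Q => ψ (y Q))
    have := (Finset.sum_eq_sum_iff_of_le (s := Finset.univ) (fun P _ => hle P)).1
      (by rw [hsum, hs])
    exact (this P (Finset.mem_univ P)).symm
  · have hnull : ∀ Q, Q ≠ P → ∀ᵐ x ∂(unif K),
        x ∉ Lag K y (fun Q => ψ (y Q)) P ∩ Lag K y (fun Q => ψ (y Q)) Q := by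
      intro Q hQ
      exact measure_eq_zero_iff_ae_notMem.1
        (unif_absolutelyContinuous K (Lag_inter_null K y hy _ (Ne.symm hQ)))
    have hnull' : ∀ᵐ x ∂(unif K), ∀ Q, Q ≠ P →
        x ∉ Lag K y (fun Q => ψ (y Q)) P ∩ Lag K y (fun Q => ψ (y Q)) Q := by
      rw [ae_all_iff]
      intro Q
      by_cases hQ : Q = P
      · exact Filter.Eventually.of_forall fun x h => absurd hQ h
      · filter_upwards [hnull Q hQ] with x hx _ using hx
    filter_upwards [hrange, hkey, hnull'] with x hxr hxk hxn hxP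
    obtain ⟨Q, hQ⟩ := hxr
    by_cases hQP : Q = P
    · subst hQP
      exact ⟨hQ.symm, (hxk Q hQ.symm).2⟩
    · exact absurd ⟨hxP, (hxk Q hQ.symm).1⟩ (hxn Q hQP)

theorem exists_weights (K Y : Set (E d)) (hK : IsCompact K) (hvol : volume K ≠ 0)
    (hY : IsCompact Y) (RK RY : ℝ≥0) (hKb : ∀ x ∈ K, ‖x‖ ≤ RK) (hYb : ∀ y ∈ Y, ‖y‖ ≤ RY)
    (y : ι → E d) (hy : Function.Injective y) (hyY : ∀ P, y P ∈ Y)
    (z : ι → ℝ) (hz : ∀ P, 0 < z P) (hsum : ∑ P, z P = 1) :
    ∃ c : ι → ℝ, (∀ P, (unif K (Lag K y c P)).toReal = z P) ∧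
      ∀ P Q, |c P - c Q| ≤ RK * ‖y P - y Q‖ := by
  have hne : Nonempty ι := by
    by_contra h
    rw [not_nonempty_iff] at h
    simp at hsum
  obtain ⟨P0⟩ := hne
  have := isProbabilityMeasure_dmeas y z hz hsum
  obtain ⟨T, φ, ψ, hP, hmap⟩ := brenier_exists K Y hK hvol hY ⟨y P0, hyY P0⟩ RK RY hKb hYb
    (dmeas y z) (dmeas_compl_null Y hY y hyY z)
  refine ⟨fun Q => ψ (y Q), (pot_weights K Y hK hvol RK RY y hy hyY z hz hsum T φ ψ hP hmap).1,
    fun P Q => ?_⟩
  have := hP.lipψ.dist_le_mul (y P) (y Q)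
  rwa [Real.dist_eq, dist_eq_norm] at this

end Vale.Agent.Lib.P074
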