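import Vale.Agent.Lib.P074.Basic

/-!
MODULE M3 (P074).  Lipschitz test functions are controlled by W2.

ROUTE.  It suffices to show for every coupling π (π.map fst = μ, π.map snd = ν; then π is a
probability measure):  ofReal (∫ f dμ - ∫ f dν) ≤ L * (∫⁻ ‖p.1 - p.2‖ₑ^2 dπ)^(1/2); then pass to the
infimum (a ≤ L * (⨅ c)^(1/2): if L = 0 the left side is 0 since f is constant; otherwise
(a / L)^2 ≤ c for all couplings, le_iInf, monotonicity of rpow).
For fixed π: f is continuous and bounded on Y, so integrable for μ, ν; ∫ f dμ = ∫ f p.1 dπ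
(integral_map), hence the difference is ∫ (f p.1 - f p.2) dπ ≤ ∫ L ‖p.1 - p.2‖ dπ, and
∫⁻ ‖p.1 - p.2‖ₑ dπ ≤ (∫⁻ ‖p.1 - p.2‖ₑ^2 dπ)^(1/2) on a probability space
(eLpNorm_le_eLpNorm_of_exponent_le with exponents 1 ≤ 2, or Cauchy-Schwarz).
-/

open MeasureTheory Set
open scoped ENNReal NNReal

namespace Vale.Agent.Lib.P074

variable {d : ℕ}

theorem integrable_of_lip_of_compact (Y : Set (E d)) (hY : IsCompact Y) (μ : Measure (E d))
    [IsProbabilityMeasure μ] (hμ : μ Yᶜ = 0) (f : E d → ℝ) (hf : Continuous f) :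
    Integrable f μ := by
  obtain ⟨M, hM⟩ := hY.exists_bound_of_continuousOn hf.continuousOn
  refine Integrable.of_bound hf.aestronglyMeasurable M ?_
  have : ∀ᵐ y ∂μ, y ∈ Y := by
    have := measure_eq_zero_iff_ae_notMem.mp hμ
    filter_upwards [this] with y hy
    simpa using hy
  filter_upwards [this] with y hy
  exact hM y hy

theorem lip_le_coupling (Y : Set (E d)) (hY : IsCompact Y) (μ ν : Measure (E d))
    [IsProbabilityMeasure μ] [IsProbabilityMeasure ν] (hμ : μ Yᶜ = 0) (hν : ν Yᶜ = 0)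
    (f : E d → ℝ) (L : ℝ≥0) (hf : LipschitzWith L f) (π : Measure (E d × E d))
    (h1 : π.map Prod.fst = μ) (h2 : π.map Prod.snd = ν) :
    ENNReal.ofReal (∫ y, f y ∂μ - ∫ y, f y ∂ν) ≤ L * (∫⁻ p, ‖p.1 - p.2‖ₑ ^ 2 ∂π) ^ (1 / 2 : ℝ) := by
  have hπ : IsProbabilityMeasure π := by
    refine ⟨?_⟩
    have : μ univ = 1 := measure_univ
    rw [← h1, Measure.map_apply measurable_fst MeasurableSet.univ] at this
    simpa using this
  have hfm : AEStronglyMeasurable f μ := hf.continuous.aestronglyMeasurable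
  have hfn : AEStronglyMeasurable f ν := hf.continuous.aestronglyMeasurable
  have i1 : Integrable (fun p : E d × E d => f p.1) π := by
    have := integrable_of_lip_of_compact Y hY μ hμ f hf.continuous
    rw [← h1] at this
    exact (integrable_map_measure (by rw [h1]; exact hfm) measurable_fst.aemeasurable).mp this
  have i2 : Integrable (fun p : E d × E d => f p.2) π := by
    have := integrable_of_lip_of_compact Y hY ν hν f hf.continuous
    rw [← h2] at this
    exact (integrable_map_measure (by rw [h2]; exact hfn) measurable_snd.aemeasurable).mp this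
  have e1 : ∫ y, f y ∂μ = ∫ p, f p.1 ∂π := by
    rw [← h1, integral_map measurable_fst.aemeasurable (by rw [h1]; exact hfm)]
  have e2 : ∫ y, f y ∂ν = ∫ p, f p.2 ∂π := by
    rw [← h2, integral_map measurable_snd.aemeasurable (by rw [h2]; exact hfn)]
  rw [e1, e2, ← integral_sub i1 i2]
  have hm : Measurable (fun p : E d × E d => p.1 - p.2) := by fun_prop
  calc ENNReal.ofReal (∫ p, (f p.1 - f p.2) ∂π)
      ≤ ∫⁻ p, ENNReal.ofReal (f p.1 - f p.2) ∂π := by
        have i3 : Integrable (fun p : E d × E d => f p.1 - f p.2) π := i1.sub i2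
        rw [integral_eq_lintegral_pos_part_sub_lintegral_neg_part i3]
        refine le_trans (ENNReal.ofReal_le_ofReal (sub_le_self _ ENNReal.toReal_nonneg)) ?_
        exact ENNReal.ofReal_toReal_le
    _ ≤ ∫⁻ p, L * ‖p.1 - p.2‖ₑ ∂π := by
        refine lintegral_mono fun p => ?_
        have := hf.dist_le_mul p.1 p.2
        rw [Real.dist_eq, dist_eq_norm] at this
        have h3 : f p.1 - f p.2 ≤ L * ‖p.1 - p.2‖ := (le_abs_self _).trans this
        calc ENNReal.ofReal (f p.1 - f p.2) ≤ ENNReal.ofReal (L * ‖p.1 - p.2‖) :=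
              ENNReal.ofReal_le_ofReal h3
          _ = L * ‖p.1 - p.2‖ₑ := by
              rw [ENNReal.ofReal_mul (NNReal.coe_nonneg L), ENNReal.ofReal_coe_nnreal, ofReal_norm]
    _ = L * ∫⁻ p, ‖p.1 - p.2‖ₑ ∂π := by
        rw [lintegral_const_mul _ hm.enorm]
    _ ≤ L * (∫⁻ p, ‖p.1 - p.2‖ₑ ^ 2 ∂π) ^ (1 / 2 : ℝ) := by
        gcongr
        have := eLpNorm_le_eLpNorm_of_exponent_le (μ := π) (f := fun p : E d × E d => p.1 - p.2)
          (p := 1) (q := 2) (by norm_num) hm.aestronglyMeasurable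
        rw [eLpNorm_one_eq_lintegral_enorm,
          eLpNorm_eq_lintegral_rpow_enorm_toReal (by norm_num) (by norm_num)] at this
        simpa using this

theorem lip_le_W2 (Y : Set (E d)) (hY : IsCompact Y) (μ ν : Measure (E d))
    [IsProbabilityMeasure μ] [IsProbabilityMeasure ν] (hμ : μ Yᶜ = 0) (hν : ν Yᶜ = 0)
    (f : E d → ℝ) (L : ℝ≥0) (hf : LipschitzWith L f) :
    ENNReal.ofReal (∫ y, f y ∂μ - ∫ y, f y ∂ν) ≤ L * W2 μ ν := by
  by_cases hL : L = 0
  · have := lip_le_coupling Y hY μ ν hμ hν f L hf (μ.prod ν) (by simp) (by simp)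
    rw [hL] at this ⊢
    simpa using this
  · unfold W2
    have e : ∀ X : ℝ≥0∞, X ^ (1 / 2 : ℝ) = ENNReal.orderIsoRpow (1 / 2 : ℝ) (by norm_num) X := fun X => rfl
    rw [e, OrderIso.map_iInf, ENNReal.mul_iInf_of_ne (by simpa using hL) ENNReal.coe_ne_top]
    refine le_iInf fun π => ?_
    rw [OrderIso.map_iInf, ENNReal.mul_iInf_of_ne (by simpa using hL) ENNReal.coe_ne_top]
    refine le_iInf fun hπ => ?_
    exact lip_le_coupling Y hY μ ν hμ hν f L hf π hπ.1 hπ.2

end Vale.Agent.Lib.P074
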