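import Vale.Agent.Lib.P074.Core
import Vale.Agent.Lib.P074.W2Lip

/-!
MODULE M4 (P074).  Stability of Brenier maps with exponent 1/4.

ROUTE.  ρ = unif K, μ = ρ.map T0, ν = ρ.map T1, W = W2 μ ν.  If W = ⊤ the claim is trivial (take C ≥ 1).
G := ∫ (φ1 x + ψ1 (T0 x) - ⟪x, T0 x⟫) dρ and G' := ∫ (φ0 x + ψ0 (T1 x) - ⟪x, T1 x⟫) dρ are ≥ 0 and,
using IsPot.eq for both maps,  G + G' = ∫ (ψ1 - ψ0) dμ - ∫ (ψ1 - ψ0) dν ≤ 2 RK W  (lip_le_W2,
ψ1 - ψ0 is (RK + RK)-Lipschitz; integral_map).  core_ineq (T := T1, S := T0):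
  r A ≤ d G + d RY geoC r^2,   A = ∫ ‖T0 - T1‖ dρ,   0 < r ≤ 1.
If 0 < W ≤ 1 take r = sqrt W; if W = 0 let r → 0 (A ≤ c r for all r, so A = 0); if W > 1 use A ≤ 2 RY.
So A ≤ C1 sqrt W with C1 = 2 d RK + d RY geoC + 2 RY.  Finally ‖T0 - T1‖^2 ≤ 2 RY ‖T0 - T1‖, so
eLpNorm (T0 - T1) 2 ρ = (∫ ‖T0 - T1‖^2)^(1/2) ≤ (2 RY C1)^(1/2) W^(1/4).
-/

open MeasureTheory Set
open scoped ENNReal NNReal

namespace Vale.Agent.Lib.P074

variable {d : ℕ}

/-- the gap integrand is integrable -/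
theorem integrable_gap (K Y : Set (E d)) (hK : IsCompact K) (hvol : volume K ≠ 0)
    (RK RY : ℝ≥0) (hKb : ∀ x ∈ K, ‖x‖ ≤ RK) (hYb : ∀ y ∈ Y, ‖y‖ ≤ RY)
    (g : E d → ℝ) (hg : Continuous g) (S : E d → E d) (hS : Measurable S)
    (hSY : ∀ᵐ x ∂(unif K), S x ∈ Y) (hY : IsCompact Y) :
    Integrable (fun x => g (S x)) (unif K) := by
  obtain ⟨M, hM⟩ := hY.exists_bound_of_continuousOn hg.continuousOn
  refine integrable_unif_of_bound hvol hK.measure_lt_top.ne (hg.measurable.comp hS) M ?_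
  filter_upwards [hSY] with x hx
  exact hM _ hx

theorem integrable_cont (K : Set (E d)) (hK : IsCompact K) (hvol : volume K ≠ 0)
    (g : E d → ℝ) (hg : Continuous g) : Integrable g (unif K) := by
  obtain ⟨M, hM⟩ := hK.exists_bound_of_continuousOn hg.continuousOn
  refine integrable_unif_of_bound hvol hK.measure_lt_top.ne hg.measurable M ?_
  filter_upwards [ae_mem_unif hK.measurableSet] with x hx
  exact hM _ hx

theorem integrable_inner (K Y : Set (E d)) (hK : IsCompact K) (hvol : volume K ≠ 0)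
    (RK RY : ℝ≥0) (hKb : ∀ x ∈ K, ‖x‖ ≤ RK) (hYb : ∀ y ∈ Y, ‖y‖ ≤ RY)
    (S : E d → E d) (hS : Measurable S) (hSY : ∀ᵐ x ∂(unif K), S x ∈ Y) :
    Integrable (fun x => inner ℝ x (S x)) (unif K) := by
  refine integrable_unif_of_bound hvol hK.measure_lt_top.ne (measurable_id.inner hS) (RK * RY) ?_
  filter_upwards [hSY, ae_mem_unif hK.measurableSet] with x hx hxK
  exact (abs_real_inner_le_norm x (S x)).trans (mul_le_mul (hKb x hxK) (hYb _ hx) (norm_nonneg _) RK.2)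

/-- the sum of the two gaps is controlled by `W2` -/
theorem gap_le (K Y : Set (E d)) (hK : IsCompact K) (hvol : volume K ≠ 0) (hY : IsCompact Y)
    (RK RY : ℝ≥0) (hKb : ∀ x ∈ K, ‖x‖ ≤ RK) (hYb : ∀ y ∈ Y, ‖y‖ ≤ RY)
    (T0 T1 : E d → E d) (φ0 ψ0 φ1 ψ1 : E d → ℝ)
    (h0 : IsPot K Y RK RY T0 φ0 ψ0) (h1 : IsPot K Y RK RY T1 φ1 ψ1) :
    ENNReal.ofReal (∫ x, (φ1 x + ψ1 (T0 x) - inner ℝ x (T0 x)) ∂(unif K)) ≤
      (RK + RK : ℝ≥0) * W2 ((unif K).map T0) ((unif K).map T1) := by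
  have htop : volume K ≠ ⊤ := hK.measure_lt_top.ne
  have hprob := isProbabilityMeasure_unif hvol htop
  have m0 : ∀ᵐ x ∂(unif K), T0 x ∈ Y := Filter.Eventually.of_forall h0.mem
  have m1 : ∀ᵐ x ∂(unif K), T1 x ∈ Y := Filter.Eventually.of_forall h1.mem
  have p0 : IsProbabilityMeasure ((unif K).map T0) :=
    Measure.isProbabilityMeasure_map h0.meas.aemeasurable
  have p1 : IsProbabilityMeasure ((unif K).map T1) :=
    Measure.isProbabilityMeasure_map h1.meas.aemeasurable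
  have s0 : ((unif K).map T0) Yᶜ = 0 := by
    rw [Measure.map_apply h0.meas hY.measurableSet.compl]
    have : T0 ⁻¹' Yᶜ = ∅ := by ext x; simp [h0.mem x]
    simp [this]
  have s1 : ((unif K).map T1) Yᶜ = 0 := by
    rw [Measure.map_apply h1.meas hY.measurableSet.compl]
    have : T1 ⁻¹' Yᶜ = ∅ := by ext x; simp [h1.mem x]
    simp [this]
  have hlip : LipschitzWith (RK + RK) (fun y => ψ1 y - ψ0 y) := h1.lipψ.sub h0.lipψ
  have key := lip_le_W2 Y hY _ _ s0 s1 _ _ hlip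
  refine le_trans (ENNReal.ofReal_le_ofReal ?_) key
  have c0 := h0.lipψ.continuous
  have c1 := h1.lipψ.continuous
  have c10 : Continuous (fun y => ψ1 y - ψ0 y) := c1.sub c0
  rw [integral_map h0.meas.aemeasurable c10.aestronglyMeasurable,
    integral_map h1.meas.aemeasurable c10.aestronglyMeasurable]
  -- integrability
  have iφ0 := integrable_cont K hK hvol φ0 h0.lipφ.continuous
  have iφ1 := integrable_cont K hK hvol φ1 h1.lipφ.continuous
  have i00 := integrable_gap K Y hK hvol RK RY hKb hYb ψ0 c0 T0 h0.meas m0 hY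
  have i01 := integrable_gap K Y hK hvol RK RY hKb hYb ψ0 c0 T1 h1.meas m1 hY
  have i10 := integrable_gap K Y hK hvol RK RY hKb hYb ψ1 c1 T0 h0.meas m0 hY
  have i11 := integrable_gap K Y hK hvol RK RY hKb hYb ψ1 c1 T1 h1.meas m1 hY
  have j0 := integrable_inner K Y hK hvol RK RY hKb hYb T0 h0.meas m0
  have j1 := integrable_inner K Y hK hvol RK RY hKb hYb T1 h1.meas m1
  -- second gap is nonnegative
  have hG' : 0 ≤ ∫ x, (φ0 x + ψ0 (T1 x) - inner ℝ x (T1 x)) ∂(unif K) :=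
    integral_nonneg fun x => by
      have := h0.le x (T1 x) (h1.mem x)
      simp only [Pi.zero_apply]
      linarith
  have hsum : ∫ x, (φ1 x + ψ1 (T0 x) - inner ℝ x (T0 x)) ∂(unif K) +
      ∫ x, (φ0 x + ψ0 (T1 x) - inner ℝ x (T1 x)) ∂(unif K) =
      ∫ x, (ψ1 (T0 x) - ψ0 (T0 x)) ∂(unif K) - ∫ x, (ψ1 (T1 x) - ψ0 (T1 x)) ∂(unif K) := by
    have k1 : Integrable (fun x => φ1 x + ψ1 (T0 x) - inner ℝ x (T0 x)) (unif K) :=
      (iφ1.add i10).sub j0
    have k2 : Integrable (fun x => φ0 x + ψ0 (T1 x) - inner ℝ x (T1 x)) (unif K) :=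
      (iφ0.add i01).sub j1
    have k3 : Integrable (fun x => ψ1 (T0 x) - ψ0 (T0 x)) (unif K) := i10.sub i00
    have k4 : Integrable (fun x => ψ1 (T1 x) - ψ0 (T1 x)) (unif K) := i11.sub i01
    rw [← integral_add k1 k2, ← integral_sub k3 k4]
    refine integral_congr_ae ?_
    filter_upwards [h0.eq, h1.eq] with x e0 e1
    linarith
  linarith

/-- real-variable optimisation in `r` -/
theorem opt_r (A w a c b : ℝ) (hA : 0 ≤ A) (hw : 0 ≤ w) (ha : 0 ≤ a) (hc : 0 ≤ c) (hb : 0 ≤ b)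
    (hAb : A ≤ b) (h : ∀ r : ℝ, 0 < r → r ≤ 1 → r * A ≤ a * w + c * r ^ 2) :
    A ≤ (a + c + b) * Real.sqrt w := by
  rcases lt_trichotomy w 0 with hlt | heq | hgt
  · linarith
  · subst heq
    simp only [Real.sqrt_zero, mul_zero]
    by_contra hcon
    have hApos : 0 < A := not_le.mp hcon
    set r : ℝ := min 1 (A / (2 * (c + 1))) with hr
    have hr0 : 0 < r := lt_min one_pos (by positivity)
    have hr1 : r ≤ 1 := min_le_left _ _
    have hr2 : r ≤ A / (2 * (c + 1)) := min_le_right _ _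
    have h1 := h r hr0 hr1
    have h2 : A ≤ c * r := by
      have : r * A ≤ r * (c * r) := by nlinarith
      exact le_of_mul_le_mul_left this hr0
    have h3 : c * r ≤ c * (A / (2 * (c + 1))) := by gcongr
    have h4 : c * (A / (2 * (c + 1))) < A := by
      rw [mul_div_assoc', div_lt_iff₀ (by positivity)]
      nlinarith
    linarith
  · have hs : 0 < Real.sqrt w := Real.sqrt_pos.mpr hgt
    have hsq : Real.sqrt w ^ 2 = w := Real.sq_sqrt hw
    by_cases h1 : w ≤ 1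
    · have hs1 : Real.sqrt w ≤ 1 := Real.sqrt_le_one.mpr h1
      have h2 := h (Real.sqrt w) hs hs1
      rw [hsq] at h2
      have h3 : Real.sqrt w * A ≤ Real.sqrt w * ((a + c) * Real.sqrt w) := by nlinarith
      have h4 := le_of_mul_le_mul_left h3 hs
      nlinarith
    · have hs1 : 1 ≤ Real.sqrt w := Real.one_le_sqrt.mpr (not_le.mp h1).le
      nlinarith [mul_nonneg (add_nonneg ha hc) hs.le]

theorem stab (K Y : Set (E d)) (hK : IsCompact K) (hvol : volume K ≠ 0) (hY : IsCompact Y)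
    (RK RY : ℝ≥0) (hKb : ∀ x ∈ K, ‖x‖ ≤ RK) (hYb : ∀ y ∈ Y, ‖y‖ ≤ RY) :
    ∃ C : ℝ≥0, ∀ (T0 T1 : E d → E d) (φ0 ψ0 φ1 ψ1 : E d → ℝ),
      IsPot K Y RK RY T0 φ0 ψ0 → IsPot K Y RK RY T1 φ1 ψ1 →
        eLpNorm (fun x => T0 x - T1 x) 2 (unif K) ≤
          C * W2 ((unif K).map T0) ((unif K).map T1) ^ (1 / 4 : ℝ) := by
  have htop : volume K ≠ ⊤ := hK.measure_lt_top.ne
  have hprob := isProbabilityMeasure_unif hvol htop
  have hg : 0 ≤ geoC K := by unfold geoC; positivity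
  set C1 : ℝ := d * (RK + RK) + d * RY * geoC K + (RY + RY) with hC1
  have hC1nn : 0 ≤ C1 := by rw [hC1]; positivity
  refine ⟨Real.toNNReal (Real.sqrt ((RY + RY) * C1)) + 1, fun T0 T1 φ0 ψ0 φ1 ψ1 h0 h1 => ?_⟩
  set W := W2 ((unif K).map T0) ((unif K).map T1) with hW
  by_cases hWtop : W = ⊤
  · rw [hWtop, ENNReal.top_rpow_of_pos (by norm_num), ENNReal.mul_top (by simp)]
    exact le_top
  set w : ℝ := W.toReal with hw
  have hw0 : 0 ≤ w := ENNReal.toReal_nonneg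
  have hWw : W = ENNReal.ofReal w := (ENNReal.ofReal_toReal hWtop).symm
  have m0 : ∀ᵐ x ∂(unif K), T0 x ∈ Y := Filter.Eventually.of_forall h0.mem
  set G : ℝ := ∫ x, (φ1 x + ψ1 (T0 x) - inner ℝ x (T0 x)) ∂(unif K) with hG
  have hGle : G ≤ (RK + RK) * w := by
    have := gap_le K Y hK hvol hY RK RY hKb hYb T0 T1 φ0 ψ0 φ1 ψ1 h0 h1
    rw [← hW, hWw, ← ENNReal.ofReal_coe_nnreal, ← ENNReal.ofReal_mul (NNReal.coe_nonneg _)] at this
    have h2 := (ENNReal.ofReal_le_ofReal_iff (by positivity)).mp this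
    simpa using h2
  set A : ℝ := ∫ x, ‖T0 x - T1 x‖ ∂(unif K) with hA
  have hbd : ∀ x, ‖T0 x - T1 x‖ ≤ RY + RY := fun x =>
    (norm_sub_le _ _).trans (add_le_add (hYb _ (h0.mem x)) (hYb _ (h1.mem x)))
  have hmeas : Measurable (fun x => T0 x - T1 x) := h0.meas.sub h1.meas
  have hI : Integrable (fun x => ‖T0 x - T1 x‖) (unif K) :=
    integrable_unif_of_bound hvol htop hmeas.norm (RY + RY)
      (Filter.Eventually.of_forall fun x => by rw [abs_of_nonneg (norm_nonneg _)]; exact hbd x)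
  have hA0 : 0 ≤ A := integral_nonneg fun x => norm_nonneg _
  have hAb : A ≤ RY + RY := by
    have := integral_mono hI (integrable_const ((RY : ℝ) + RY)) hbd
    simpa using this
  have hcore : ∀ r : ℝ, 0 < r → r ≤ 1 → r * A ≤ (d * (RK + RK)) * w + (d * RY * geoC K) * r ^ 2 := by
    intro r hr0 hr1
    have := core_ineq K Y hK hvol RK RY hKb hYb T1 φ1 ψ1 h1 T0 h0.meas m0 r hr0 hr1
    have h3 : (d : ℝ) * G ≤ d * ((RK + RK) * w) := by gcongr
    nlinarith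
  have hAle : A ≤ C1 * Real.sqrt w :=
    opt_r A w _ _ _ hA0 hw0 (by positivity) (by positivity) (by positivity) hAb hcore
  -- L2 norm
  have hsq : ∫⁻ x, ‖T0 x - T1 x‖ₑ ^ 2 ∂(unif K) ≤ ENNReal.ofReal ((RY + RY) * (C1 * Real.sqrt w)) := by
    calc ∫⁻ x, ‖T0 x - T1 x‖ₑ ^ 2 ∂(unif K)
        ≤ ∫⁻ x, ENNReal.ofReal ((RY + RY) * ‖T0 x - T1 x‖) ∂(unif K) := by
          refine lintegral_mono fun x => ?_
          rw [← ofReal_norm, ← ENNReal.ofReal_pow (norm_nonneg _)]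
          refine ENNReal.ofReal_le_ofReal ?_
          rw [sq]
          exact mul_le_mul_of_nonneg_right (hbd x) (norm_nonneg _)
      _ = ENNReal.ofReal (∫ x, (RY + RY) * ‖T0 x - T1 x‖ ∂(unif K)) := by
          rw [ofReal_integral_eq_lintegral_ofReal (hI.const_mul _)
            (Filter.Eventually.of_forall fun x => by positivity)]
      _ ≤ ENNReal.ofReal ((RY + RY) * (C1 * Real.sqrt w)) := by
          rw [integral_const_mul]
          refine ENNReal.ofReal_le_ofReal ?_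
          gcongr
  rw [eLpNorm_eq_lintegral_rpow_enorm_toReal (by norm_num) (by norm_num)]
  simp only [ENNReal.toReal_ofNat, ENNReal.rpow_ofNat]
  have e1 : ((RY + RY) * (C1 * Real.sqrt w)) ^ (1 / 2 : ℝ) =
      Real.sqrt ((RY + RY) * C1) * w ^ (1 / 4 : ℝ) := by
    rw [← mul_assoc, Real.mul_rpow (by positivity) (Real.sqrt_nonneg _), Real.sqrt_eq_rpow,
      Real.sqrt_eq_rpow, ← Real.rpow_mul hw0]
    norm_num
  calc (∫⁻ x, ‖T0 x - T1 x‖ₑ ^ 2 ∂(unif K)) ^ (1 / 2 : ℝ)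
      ≤ (ENNReal.ofReal ((RY + RY) * (C1 * Real.sqrt w))) ^ (1 / 2 : ℝ) :=
        ENNReal.rpow_le_rpow hsq (by norm_num)
    _ = ENNReal.ofReal (Real.sqrt ((RY + RY) * C1) * w ^ (1 / 4 : ℝ)) := by
        rw [ENNReal.ofReal_rpow_of_nonneg (by positivity) (by norm_num), e1]
    _ = ENNReal.ofReal (Real.sqrt ((RY + RY) * C1)) * W ^ (1 / 4 : ℝ) := by
        rw [ENNReal.ofReal_mul (Real.sqrt_nonneg _), hWw,
          ENNReal.ofReal_rpow_of_nonneg hw0 (by norm_num)]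
    _ ≤ ((Real.toNNReal (Real.sqrt ((RY + RY) * C1)) + 1 : ℝ≥0) : ℝ≥0∞) * W ^ (1 / 4 : ℝ) := by
        gcongr
        rw [ENNReal.ofReal]
        exact_mod_cast le_self_add

end Vale.Agent.Lib.P074
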