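import Vale.Agent.Lib.P074.PotL2
import Vale.Agent.Lib.P074.GradInterp
import Vale.Agent.Lib.P074.Discretise
import Vale.Agent.Lib.P074.Stab
import Vale.Agent.Lib.P074.Uniq

/-! Assembly (P074): the exponent 1/3 is admissible in every dimension. -/

open MeasureTheory Set Filter
open scoped ENNReal NNReal Topology

namespace Vale.Agent.Lib.P074

variable {d : ℕ}

/-- The `1/3` estimate for finitely supported targets with common masses. -/
theorem discrete_third (K Y : Set (E d)) (hK : IsCompact K) (hconv : Convex ℝ K)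
    (hint : (interior K).Nonempty) (RK RY : ℝ≥0) (hRK : 0 < RK) (hKb : ∀ x ∈ K, ‖x‖ ≤ RK)
    (hYb : ∀ y ∈ Y, ‖y‖ ≤ RY) :
    ∃ C : ℝ≥0, ∀ (ι : Type) [Fintype ι] (y0 y1 : ι → E d), Function.Injective y0 →
      Function.Injective y1 → (∀ P, y0 P ∈ Y) → (∀ P, y1 P ∈ Y) →
      ∀ m : ι → ℝ, (∀ P, 0 < m P) → ∑ P, m P = 1 →
      ∀ (T0 T1 : E d → E d) (φ0 ψ0 φ1 ψ1 : E d → ℝ),
        IsPot K Y RK RY T0 φ0 ψ0 → IsPot K Y RK RY T1 φ1 ψ1 →
        (unif K).map T0 = dmeas y0 m → (unif K).map T1 = dmeas y1 m →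
          eLpNorm (fun x => T0 x - T1 x) 2 (unif K) ≤
            C * ENNReal.ofReal (Real.sqrt (∑ P, m P * ‖y1 P - y0 P‖ ^ 2)) ^ (1 / 3 : ℝ) := by
  have hvol : volume K ≠ 0 :=
    (lt_of_lt_of_le (isOpen_interior.measure_pos volume hint) (measure_mono interior_subset)).ne'
  have htop : volume K ≠ ⊤ := hK.measure_lt_top.ne
  have hprob := isProbabilityMeasure_unif hvol htop
  obtain ⟨Cg, hCg0, hCg⟩ := grad_interp K Y hK hconv hint RK RY hKb hYb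
  refine ⟨Real.toNNReal (Real.sqrt (Cg * (1500 * RK) ^ (2 / 3 : ℝ))), ?_⟩
  intro ι _ y0 y1 hy0 hy1 hY0 hY1 m hm hsum T0 T1 φ0 ψ0 φ1 ψ1 h0 h1 hm0 hm1
  obtain ⟨k, hk⟩ := pot_L2 K Y hK hconv hint RK RY hRK hKb hYb y0 y1 hy0 hy1 hY0 hY1 m hm hsum
    T0 T1 φ0 ψ0 φ1 ψ1 h0 h1 hm0 hm1
  set S2 : ℝ := ∑ P, m P * ‖y1 P - y0 P‖ ^ 2 with hS
  have hS0 : 0 ≤ S2 := Finset.sum_nonneg fun P _ => mul_nonneg (hm P).le (by positivity)
  set W : ℝ := Real.sqrt S2 with hW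
  have hW0 : 0 ≤ W := Real.sqrt_nonneg _
  have hH : (1500 * RK * W) ^ 2 = (1500 * RK) ^ 2 * S2 := by
    rw [mul_pow, hW, Real.sq_sqrt hS0]
  have hmain := hCg T0 T1 φ0 ψ0 φ1 ψ1 h0 h1 k (1500 * RK * W) (by positivity) (hk.trans_eq hH.symm)
  have hbd : ∀ x, ‖T0 x - T1 x‖ ≤ RY + RY := fun x =>
    (norm_sub_le _ _).trans (add_le_add (hYb _ (h0.mem x)) (hYb _ (h1.mem x)))
  have hmeas : Measurable (fun x => T0 x - T1 x) := h0.meas.sub h1.meas
  have hI : Integrable (fun x => ‖T0 x - T1 x‖ ^ 2) (unif K) :=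
    integrable_unif_of_bound hvol htop (hmeas.norm.pow_const 2) ((RY + RY) ^ 2)
      (Filter.Eventually.of_forall fun x => by
        rw [abs_of_nonneg (by positivity)]
        exact pow_le_pow_left₀ (norm_nonneg _) (hbd x) 2)
  have hsq : ∫⁻ x, ‖T0 x - T1 x‖ₑ ^ 2 ∂(unif K) ≤
      ENNReal.ofReal (Cg * (1500 * RK * W) ^ (2 / 3 : ℝ)) := by
    calc ∫⁻ x, ‖T0 x - T1 x‖ₑ ^ 2 ∂(unif K)
        = ∫⁻ x, ENNReal.ofReal (‖T0 x - T1 x‖ ^ 2) ∂(unif K) := by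
          refine lintegral_congr fun x => ?_
          rw [← ofReal_norm, ← ENNReal.ofReal_pow (norm_nonneg _)]
      _ = ENNReal.ofReal (∫ x, ‖T0 x - T1 x‖ ^ 2 ∂(unif K)) := by
          rw [ofReal_integral_eq_lintegral_ofReal hI
            (Filter.Eventually.of_forall fun x => by positivity)]
      _ ≤ ENNReal.ofReal (Cg * (1500 * RK * W) ^ (2 / 3 : ℝ)) := by
          refine ENNReal.ofReal_le_ofReal ?_
          refine le_trans (le_of_eq ?_) hmain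
          refine integral_congr_ae (Filter.Eventually.of_forall fun x => ?_)
          simp only [norm_sub_rev]
  rw [eLpNorm_eq_lintegral_rpow_enorm_toReal (by norm_num) (by norm_num)]
  simp only [ENNReal.toReal_ofNat, ENNReal.rpow_ofNat]
  have e1 : (Cg * (1500 * RK * W) ^ (2 / 3 : ℝ)) ^ (1 / 2 : ℝ) =
      Real.sqrt (Cg * (1500 * RK) ^ (2 / 3 : ℝ)) * W ^ (1 / 3 : ℝ) := by
    rw [Real.mul_rpow (by positivity) hW0, ← mul_assoc,
      Real.mul_rpow (by positivity) (by positivity), Real.sqrt_eq_rpow, ← Real.rpow_mul hW0]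
    norm_num
  calc (∫⁻ x, ‖T0 x - T1 x‖ₑ ^ 2 ∂(unif K)) ^ (1 / 2 : ℝ)
      ≤ (ENNReal.ofReal (Cg * (1500 * RK * W) ^ (2 / 3 : ℝ))) ^ (1 / 2 : ℝ) :=
        ENNReal.rpow_le_rpow hsq (by norm_num)
    _ = ENNReal.ofReal (Real.sqrt (Cg * (1500 * RK) ^ (2 / 3 : ℝ)) * W ^ (1 / 3 : ℝ)) := by
        rw [ENNReal.ofReal_rpow_of_nonneg (by positivity) (by norm_num), e1]
    _ = ((Real.toNNReal (Real.sqrt (Cg * (1500 * RK) ^ (2 / 3 : ℝ))) : ℝ≥0) : ℝ≥0∞) *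
          ENNReal.ofReal W ^ (1 / 3 : ℝ) := by
        rw [ENNReal.ofReal_mul (Real.sqrt_nonneg _),
          ENNReal.ofReal_rpow_of_nonneg hW0 (by norm_num)]
        rfl

theorem limit_aux (X W : ℝ≥0∞) (C3 C4 : ℝ≥0)
    (h : ∀ η : ℝ, 0 < η → X ≤ C4 * ENNReal.ofReal η ^ (1 / 4 : ℝ) +
      C3 * (W + ENNReal.ofReal η) ^ (1 / 3 : ℝ) + C4 * ENNReal.ofReal η ^ (1 / 4 : ℝ)) :
    X ≤ C3 * W ^ (1 / 3 : ℝ) := by
  have hc : Continuous (fun η : ℝ => (C4 : ℝ≥0∞) * ENNReal.ofReal η ^ (1 / 4 : ℝ) +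
      C3 * (W + ENNReal.ofReal η) ^ (1 / 3 : ℝ) + C4 * ENNReal.ofReal η ^ (1 / 4 : ℝ)) := by
    have c1 : Continuous (fun η : ℝ => (C4 : ℝ≥0∞) * ENNReal.ofReal η ^ (1 / 4 : ℝ)) :=
      (ENNReal.continuous_const_mul ENNReal.coe_ne_top).comp
        (ENNReal.continuous_rpow_const.comp ENNReal.continuous_ofReal)
    have c2 : Continuous (fun η : ℝ => (C3 : ℝ≥0∞) * (W + ENNReal.ofReal η) ^ (1 / 3 : ℝ)) :=
      (ENNReal.continuous_const_mul ENNReal.coe_ne_top).comp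
        (ENNReal.continuous_rpow_const.comp (continuous_const.add ENNReal.continuous_ofReal))
    exact (c1.add c2).add c1
  have ht := (hc.tendsto 0).mono_left (nhdsWithin_le_nhds (s := Ioi 0))
  have h0 : (C4 : ℝ≥0∞) * ENNReal.ofReal 0 ^ (1 / 4 : ℝ) +
      C3 * (W + ENNReal.ofReal 0) ^ (1 / 3 : ℝ) + C4 * ENNReal.ofReal 0 ^ (1 / 4 : ℝ) =
      C3 * W ^ (1 / 3 : ℝ) := by
    simp
  rw [h0] at ht
  refine ge_of_tendsto ht ?_
  filter_upwards [self_mem_nhdsWithin] with η hη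
  exact h η hη

theorem admissible_third (d : ℕ) : Admissible d (1 / 3) := by
  rcases Nat.eq_zero_or_pos d with rfl | hd
  · intro K _ _ _ Y _ _
    refine ⟨0, fun μ ν _ _ _ _ T S _ _ => ?_⟩
    have : (fun x => T x - S x) = fun _ => (0 : E 0) := by
      funext x
      exact Subsingleton.elim _ _
    rw [this]
    simp
  intro K hK hconv hint Y hY hYne
  have hvol : volume K ≠ 0 :=
    (lt_of_lt_of_le (isOpen_interior.measure_pos volume hint) (measure_mono interior_subset)).ne'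
  have htop : volume K ≠ ⊤ := hK.measure_lt_top.ne
  have hprob := isProbabilityMeasure_unif hvol htop
  obtain ⟨cK, hcK⟩ := hK.isBounded.exists_norm_le
  obtain ⟨cY, hcY⟩ := hY.isBounded.exists_norm_le
  set RK : ℝ≥0 := Real.toNNReal cK + 1 with hRKdef
  set RY : ℝ≥0 := Real.toNNReal cY with hRYdef
  have hRK : 0 < RK := by rw [hRKdef]; positivity
  have hKb : ∀ x ∈ K, ‖x‖ ≤ RK := fun x hx => by
    have := (hcK x hx).trans (Real.le_coe_toNNReal cK)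
    rw [hRKdef]; push_cast; linarith
  have hYb : ∀ y ∈ Y, ‖y‖ ≤ RY := fun y hy => (hcY y hy).trans (Real.le_coe_toNNReal cY)
  set Y' : Set (E d) := Metric.closedBall 0 ((RY + 1 : ℝ≥0) : ℝ) with hY'
  have hY'c : IsCompact Y' := isCompact_closedBall _ _
  have hY'ne : Y'.Nonempty := ⟨0, by simp only [hY', Metric.mem_closedBall, dist_self]; positivity⟩
  have hY'b : ∀ y ∈ Y', ‖y‖ ≤ ((RY + 1 : ℝ≥0) : ℝ) := fun y hy => by
    simpa [hY'] using hy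
  have hsub0 : Y ⊆ Metric.closedBall 0 (RY : ℝ) := fun y hy => by
    simpa using hYb y hy
  have hsub1 : Metric.closedBall (0 : E d) (RY : ℝ) ⊆ Y' :=
    Metric.closedBall_subset_closedBall (by push_cast; linarith)
  obtain ⟨C4, hC4⟩ := stab K Y' hK hvol hY'c RK (RY + 1) hKb hY'b
  obtain ⟨C3, hC3⟩ := discrete_third K Y' hK hconv hint RK (RY + 1) hRK hKb hY'b
  refine ⟨C3, fun μ ν hμp hνp hμ hν T S hT hS => ?_⟩
  have hμ0 : μ (Metric.closedBall 0 (RY : ℝ))ᶜ = 0 :=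
    measure_mono_null (compl_subset_compl.mpr hsub0) hμ
  have hν0 : ν (Metric.closedBall 0 (RY : ℝ))ᶜ = 0 :=
    measure_mono_null (compl_subset_compl.mpr hsub0) hν
  have hμ1 : μ Y'ᶜ = 0 := measure_mono_null (compl_subset_compl.mpr hsub1) hμ0
  have hν1 : ν Y'ᶜ = 0 := measure_mono_null (compl_subset_compl.mpr hsub1) hν0
  obtain ⟨T0, φ0, ψ0, hP0, hm0⟩ := brenier_exists K Y' hK hvol hY'c hY'ne _ _ hKb hY'b μ hμ1
  obtain ⟨T1, φ1, ψ1, hP1, hm1⟩ := brenier_exists K Y' hK hvol hY'c hY'ne _ _ hKb hY'b ν hν1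
  have e0 : T =ᵐ[unif K] T0 :=
    opt_eq_brenier K Y' hK hvol hY'c _ _ hKb hY'b T0 φ0 ψ0 hP0 T (hm0 ▸ hT)
  have e1 : S =ᵐ[unif K] T1 :=
    opt_eq_brenier K Y' hK hvol hY'c _ _ hKb hY'b T1 φ1 ψ1 hP1 S (hm1 ▸ hS)
  have hcongr : eLpNorm (fun x => T x - S x) 2 (unif K) = eLpNorm (fun x => T0 x - T1 x) 2 (unif K) := by
    refine eLpNorm_congr_ae ?_
    filter_upwards [e0, e1] with x h0 h1
    rw [h0, h1]
  rw [hcongr]
  refine limit_aux _ _ C3 C4 fun η hη => ?_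
  obtain ⟨ι, _, y0, y1, m, hy0, hy1, hb0, hb1, hmpos, hmsum, hW0, hW1, hW⟩ :=
    discretise hd RY μ ν hμ0 hν0 η hη
  have hY0 : ∀ P, y0 P ∈ Y' := fun P => by
    simpa [hY'] using hb0 P
  have hY1 : ∀ P, y1 P ∈ Y' := fun P => by
    simpa [hY'] using hb1 P
  have p0 := isProbabilityMeasure_dmeas y0 m hmpos hmsum
  have p1 := isProbabilityMeasure_dmeas y1 m hmpos hmsum
  obtain ⟨T0', φ0', ψ0', hP0', hm0'⟩ := brenier_exists K Y' hK hvol hY'c hY'ne _ _ hKb hY'b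
    (dmeas y0 m) (dmeas_compl_null Y' hY'c y0 hY0 m)
  obtain ⟨T1', φ1', ψ1', hP1', hm1'⟩ := brenier_exists K Y' hK hvol hY'c hY'ne _ _ hKb hY'b
    (dmeas y1 m) (dmeas_compl_null Y' hY'c y1 hY1 m)
  have a0 := hC4 T0 T0' φ0 ψ0 φ0' ψ0' hP0 hP0'
  have a1 := hC4 T1 T1' φ1 ψ1 φ1' ψ1' hP1 hP1'
  rw [hm0, hm0'] at a0
  rw [hm1, hm1'] at a1
  have a2 := hC3 ι y0 y1 hy0 hy1 hY0 hY1 m hmpos hmsum T0' T1' φ0' ψ0' φ1' ψ1' hP0' hP1' hm0' hm1'
  have b0 : eLpNorm (fun x => T0 x - T0' x) 2 (unif K) ≤ C4 * ENNReal.ofReal η ^ (1 / 4 : ℝ) :=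
    a0.trans (by gcongr)
  have b1 : eLpNorm (fun x => T1' x - T1 x) 2 (unif K) ≤ C4 * ENNReal.ofReal η ^ (1 / 4 : ℝ) := by
    have : eLpNorm (fun x => T1' x - T1 x) 2 (unif K) = eLpNorm (fun x => T1 x - T1' x) 2 (unif K) :=
      eLpNorm_sub_comm _ _ _ _
    rw [this]
    exact a1.trans (by gcongr)
  have b2 : eLpNorm (fun x => T0' x - T1' x) 2 (unif K) ≤
      C3 * (W2 μ ν + ENNReal.ofReal η) ^ (1 / 3 : ℝ) := a2.trans (by gcongr)
  have hsplit : (fun x => T0 x - T1 x) =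
      ((fun x => T0 x - T0' x) + (fun x => T0' x - T1' x)) + (fun x => T1' x - T1 x) := by
    funext x
    simp only [Pi.add_apply]
    abel
  rw [hsplit]
  have s0 : AEStronglyMeasurable (fun x => T0 x - T0' x) (unif K) :=
    (hP0.meas.sub hP0'.meas).aestronglyMeasurable
  have s1 : AEStronglyMeasurable (fun x => T0' x - T1' x) (unif K) :=
    (hP0'.meas.sub hP1'.meas).aestronglyMeasurable
  have s2 : AEStronglyMeasurable (fun x => T1' x - T1 x) (unif K) :=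
    (hP1'.meas.sub hP1.meas).aestronglyMeasurable
  calc eLpNorm (((fun x => T0 x - T0' x) + (fun x => T0' x - T1' x)) + (fun x => T1' x - T1 x)) 2 (unif K)
      ≤ eLpNorm ((fun x => T0 x - T0' x) + (fun x => T0' x - T1' x)) 2 (unif K) +
          eLpNorm (fun x => T1' x - T1 x) 2 (unif K) := eLpNorm_add_le (s0.add s1) s2 (by norm_num)
    _ ≤ (eLpNorm (fun x => T0 x - T0' x) 2 (unif K) + eLpNorm (fun x => T0' x - T1' x) 2 (unif K)) +
          eLpNorm (fun x => T1' x - T1 x) 2 (unif K) := by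
        gcongr
        exact eLpNorm_add_le s0 s1 (by norm_num)
    _ ≤ _ := by gcongr

end Vale.Agent.Lib.P074
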