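import Vale.Agent.Lib.P074.Lag

/-!
Uniqueness (up to an additive constant) and continuity of the weights of a Laguerre tessellation
with prescribed positive cell masses.

Proof of `weights_unique`.  Let `δ P = c' P - c P`, `S = {P | δ P = max δ}`; suppose `S ≠ univ` and let
`g = max δ - max_{Q ∉ S} δ Q > 0`,
`F x = max_{P ∈ S} (⟪x, y P⟫ - c P) - max_{Q ∉ S} (⟪x, y Q⟫ - c Q)` (continuous).  Then
`⋃_{P ∈ S} Lag K y c P = {x ∈ K | 0 ≤ F x}` and `⋃_{P ∈ S} Lag K y c' P ⊆ {x ∈ K | g ≤ F x}`; both unions have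
the same `unif K`-measure `∑_{P ∈ S} mass P ∈ (0, 1)` (overlaps are null), so `{x ∈ K | 0 ≤ F x < g}` is null
while `{x ∈ K | F x < 0}` and `{x ∈ K | g ≤ F x}` are nonempty.  By the intermediate value theorem on a
segment of `K` there is `x₃ ∈ K` with `F x₃ = g / 2`; an open neighbourhood `V` of `x₃` has `0 < F < g`;
`V` meets `interior K` (`K ⊆ closure (interior K)` for convex `K` with nonempty interior), so `V ∩ interior K`
is a nonempty open subset of `{x ∈ K | 0 ≤ F x < g}`: positive volume, contradiction.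

Proof of `weights_tendsto`.  By `tendsto_of_subseq_tendsto` it is enough to find, in each subsequence, a further
subsequence along which the sum converges to the right limit.  Fix `P₀`; `cn n P - cn n P₀` is bounded by
`Lc * ‖y P - y P₀‖`, so a further subsequence of `cn n - cn n P₀` converges to some `c*` (compactness in `ι → ℝ`).
If `x` lies in `Lag K y (cn n) P` for infinitely many `n` of it, then `x ∈ Lag K y c* P`; hence (continuity from above of the
finite measure on `⋃_{n ≥ N}`) `m P = lim zn n P ≤ unif K (Lag K y c* P)`.  Both sum to `1`, so equality, and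
`weights_unique` gives `c* = c + k`.  As `∑ a = 0`, `∑ a P * cn n P = ∑ a P * (cn n P - cn n P₀) → ∑ a P * c* P = ∑ a P * c P`.
-/

open MeasureTheory Set Filter
open scoped ENNReal NNReal Topology

namespace Vale.Agent.Lib.P074

variable {d : ℕ} {ι : Type*} [Fintype ι]

theorem isClosed_Lag {K : Set (E d)} (hK : IsCompact K) (y : ι → E d) (c : ι → ℝ) (P : ι) :
    IsClosed (Lag K y c P) := by
  have h : Lag K y c P = K ∩ ⋂ Q, {x | inner ℝ x (y Q) - c Q ≤ inner ℝ x (y P) - c P} := by
    ext x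
    simp [Lag]
  rw [h]
  refine hK.isClosed.inter (isClosed_iInter fun Q => ?_)
  refine isClosed_le ?_ ?_ <;> fun_prop

theorem convex_Lag {K : Set (E d)} (hconv : Convex ℝ K) (y : ι → E d) (c : ι → ℝ) (P : ι) :
    Convex ℝ (Lag K y c P) := by
  intro x hx x' hx' a b ha hb hab
  refine ⟨hconv hx.1 hx'.1 ha hb hab, fun Q => ?_⟩
  have h1 := hx.2 Q
  have h2 := hx'.2 Q
  simp only [inner_add_left, real_inner_smul_left]
  have e1 : c Q = a * c Q + b * c Q := by rw [← add_mul, hab, one_mul]
  have e2 : c P = a * c P + b * c P := by rw [← add_mul, hab, one_mul]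
  rw [e1, e2]
  nlinarith [mul_le_mul_of_nonneg_left h1 ha, mul_le_mul_of_nonneg_left h2 hb]

theorem unif_pos_of_volume_pos {K : Set (E d)} (hK : IsCompact K) {A : Set (E d)}
    (hA : MeasurableSet A) (hAK : A ⊆ K) (hpos : 0 < volume A) : 0 < unif K A := by
  unfold unif
  rw [Measure.smul_apply, Measure.restrict_apply hA, inter_eq_self_of_subset_left hAK, smul_eq_mul]
  exact ENNReal.mul_pos (ENNReal.inv_ne_zero.2 hK.measure_lt_top.ne) hpos.ne'

theorem volume_pos_of_unif_pos {K : Set (E d)} {A : Set (E d)} (hpos : 0 < unif K A) :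
    0 < volume A := by
  by_contra h
  have h0 : volume A = 0 := le_antisymm (not_lt.1 h) zero_le
  exact hpos.ne' (unif_absolutelyContinuous K h0)

theorem weights_unique (K : Set (E d)) (hK : IsCompact K) (hconv : Convex ℝ K)
    (hint : (interior K).Nonempty) (y : ι → E d) (hy : Function.Injective y) (c c' : ι → ℝ)
    (hpos : ∀ P, 0 < (unif K (Lag K y c P)).toReal)
    (heq : ∀ P, (unif K (Lag K y c' P)).toReal = (unif K (Lag K y c P)).toReal) :
    ∃ k : ℝ, ∀ P, c' P = c P + k := by
  rcases isEmpty_or_nonempty ι with hι | hι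
  · exact ⟨0, fun P => (hι.false P).elim⟩
  have hvol : volume K ≠ 0 :=
    ((isOpen_interior.measure_pos volume hint).trans_le (measure_mono interior_subset)).ne'
  have hprob := isProbabilityMeasure_unif hvol hK.measure_lt_top.ne
  obtain ⟨P0, hP0⟩ := Finite.exists_max (fun Q => c' Q - c Q)
  set M := c' P0 - c P0 with hM
  by_contra hcon
  have hQ0 : ∃ Q0, c' Q0 - c Q0 ≠ M := by
    by_contra h
    exact hcon ⟨M, fun P => by
      have : c' P - c P = M := by
        by_contra h2
        exact h ⟨P, h2⟩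
      linarith⟩
  obtain ⟨Q0, hQ0⟩ := hQ0
  have hne : ∀ P, (Lag K y c P).Nonempty := by
    intro P
    by_contra h
    rw [not_nonempty_iff_eq_empty] at h
    have := hpos P
    rw [h] at this
    simp at this
  -- the two closed unions
  let U : Set (E d) := ⋃ P : {P // c' P - c P = M}, Lag K y c P.1
  let V : Set (E d) := ⋃ Q : {Q // c' Q - c Q ≠ M}, Lag K y c Q.1
  have hU : IsClosed U := isClosed_iUnion_of_finite fun P => isClosed_Lag hK y c P.1
  have hV : IsClosed V := isClosed_iUnion_of_finite fun P => isClosed_Lag hK y c P.1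
  have hcov : K ⊆ U ∪ V := by
    intro x hx
    obtain ⟨P, hP⟩ := mem_iUnion.1 (Lag_cover K y c hx)
    by_cases h : c' P - c P = M
    · exact Or.inl (mem_iUnion.2 ⟨⟨P, h⟩, hP⟩)
    · exact Or.inr (mem_iUnion.2 ⟨⟨P, h⟩, hP⟩)
  have hKU : (K ∩ U).Nonempty := by
    obtain ⟨x, hx⟩ := hne P0
    exact ⟨x, hx.1, mem_iUnion.2 ⟨⟨P0, rfl⟩, hx⟩⟩
  have hKV : (K ∩ V).Nonempty := by
    obtain ⟨x, hx⟩ := hne Q0
    exact ⟨x, hx.1, mem_iUnion.2 ⟨⟨Q0, hQ0⟩, hx⟩⟩
  obtain ⟨x1, -, hx1U, hx1V⟩ :=
    isPreconnected_closed_iff.1 hconv.isPreconnected U V hU hV hcov hKU hKV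
  obtain ⟨⟨P, hP⟩, hx1P⟩ := mem_iUnion.1 hx1U
  obtain ⟨⟨Q, hQ⟩, hx1Q⟩ := mem_iUnion.1 hx1V
  simp only at hx1P hx1Q
  have hg : 0 < M - (c' Q - c Q) := by
    have := hP0 Q
    exact sub_pos.2 (lt_of_le_of_ne this hQ)
  set g := M - (c' Q - c Q) with hgdef
  -- inclusion of the primed cell
  have hsub : Lag K y c' P ⊆ Lag K y c P := by
    intro x hx
    refine ⟨hx.1, fun R => ?_⟩
    have h1 := hx.2 R
    have h2 := hP0 R
    linarith
  let W : Set (E d) := {x | inner ℝ x (y P) - c P - g < inner ℝ x (y Q) - c Q}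
  have hW : IsOpen W := by
    refine isOpen_lt ?_ ?_ <;> fun_prop
  have hx1W : x1 ∈ W := by
    have h1 := hx1Q.2 P
    show inner ℝ x1 (y P) - c P - g < inner ℝ x1 (y Q) - c Q
    linarith
  have hWdisj : ∀ x ∈ W, x ∉ Lag K y c' P := by
    intro x hxW hx
    have h1 := hx.2 Q
    have h2 : inner ℝ x (y P) - c P - g < inner ℝ x (y Q) - c Q := hxW
    linarith
  -- the cell has nonempty interior
  have hCpos : 0 < volume (Lag K y c P) := by
    apply volume_pos_of_unif_pos (K := K)
    exact ENNReal.toReal_pos_iff.1 (hpos P) |>.1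
  have hCconv := convex_Lag hconv y c P
  have hCint : (interior (Lag K y c P)).Nonempty := by
    rw [hCconv.interior_nonempty_iff_affineSpan_eq_top]
    by_contra h
    have h0 := Measure.addHaar_affineSubspace volume (affineSpan ℝ (Lag K y c P)) h
    exact hCpos.ne' (measure_mono_null (subset_affineSpan ℝ _) h0)
  have hx1cl : x1 ∈ closure (interior (Lag K y c P)) := by
    rw [hCconv.closure_interior_eq_closure_of_nonempty_interior hCint]
    exact subset_closure hx1P
  have hWI : (W ∩ interior (Lag K y c P)).Nonempty := mem_closure_iff.1 hx1cl W hW hx1W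
  have hWIpos : 0 < volume (W ∩ interior (Lag K y c P)) :=
    (hW.inter isOpen_interior).measure_pos volume hWI
  have hWIsub : W ∩ interior (Lag K y c P) ⊆ Lag K y c P \ Lag K y c' P :=
    fun x hx => ⟨interior_subset hx.2, hWdisj x hx.1⟩
  have hdiffpos : 0 < unif K (Lag K y c P \ Lag K y c' P) := by
    refine (unif_pos_of_volume_pos hK (hW.inter isOpen_interior).measurableSet ?_ hWIpos).trans_le
      (measure_mono hWIsub)
    exact fun x hx => (interior_subset hx.2 : x ∈ Lag K y c P).1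
  have hmd := measure_sdiff (μ := unif K) hsub (measurableSet_Lag hK y c' P).nullMeasurableSet
    (measure_ne_top _ _)
  have h3 : unif K (Lag K y c' P) = unif K (Lag K y c P) :=
    (ENNReal.toReal_eq_toReal_iff' (measure_ne_top _ _) (measure_ne_top _ _)).1 (heq P)
  rw [hmd, h3, tsub_self] at hdiffpos
  exact lt_irrefl _ hdiffpos


theorem weights_tendsto (K : Set (E d)) (hK : IsCompact K) (hconv : Convex ℝ K)
    (hint : (interior K).Nonempty) (y : ι → E d) (hy : Function.Injective y)
    (m : ι → ℝ) (hm : ∀ P, 0 < m P) (c : ι → ℝ)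
    (hc : ∀ P, (unif K (Lag K y c P)).toReal = m P)
    (zn : ℕ → ι → ℝ) (cn : ℕ → ι → ℝ)
    (hcn : ∀ n P, (unif K (Lag K y (cn n) P)).toReal = zn n P)
    (hz : ∀ P, Tendsto (fun n => zn n P) atTop (𝓝 (m P)))
    (Lc : ℝ) (hlip : ∀ n P Q, |cn n P - cn n Q| ≤ Lc * ‖y P - y Q‖)
    (a : ι → ℝ) (ha : ∑ P, a P = 0) :
    Tendsto (fun n => ∑ P, a P * cn n P) atTop (𝓝 (∑ P, a P * c P)) := by
  rcases isEmpty_or_nonempty ι with hι | hι
  · simp
  have hvol : volume K ≠ 0 :=
    ((isOpen_interior.measure_pos volume hint).trans_le (measure_mono interior_subset)).ne'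
  have hprob := isProbabilityMeasure_unif hvol hK.measure_lt_top.ne
  obtain ⟨P₀⟩ := id hι
  apply tendsto_of_subseq_tendsto
  intro ns hns
  let b : ℕ → ι → ℝ := fun n P => cn (ns n) P - cn (ns n) P₀
  have hb : ∀ n, b n ∈ univ.pi (fun P => Icc (-(Lc * ‖y P - y P₀‖)) (Lc * ‖y P - y P₀‖)) := by
    intro n P _
    exact abs_le.1 (hlip (ns n) P P₀)
  obtain ⟨cs, -, φ, hφ, hlim⟩ := (isCompact_univ_pi (fun P => isCompact_Icc)).tendsto_subseq hb
  refine ⟨φ, ?_⟩
  have hLagb : ∀ n P, Lag K y (b n) P = Lag K y (cn (ns n)) P := by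
    intro n P
    have := Lag_add_const K y (cn (ns n)) (-(cn (ns n) P₀)) P
    simpa [b, sub_eq_add_neg] using this
  have hlimP : ∀ P, Tendsto (fun n => b (φ n) P) atTop (𝓝 (cs P)) :=
    fun P => (tendsto_pi_nhds.1 hlim) P
  have hzlim : ∀ P, Tendsto (fun n => zn (ns (φ n)) P) atTop (𝓝 (m P)) :=
    fun P => (hz P).comp (hns.comp hφ.tendsto_atTop)
  have hmass : ∀ P, m P ≤ (unif K (Lag K y cs P)).toReal := by
    intro P
    let R : ℕ → Set (E d) := fun k =>
      {x | x ∈ K ∧ ∀ Q, inner ℝ x (y Q) - cs Q ≤ inner ℝ x (y P) - cs P + 1 / ((k : ℝ) + 1)}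
    have hRmeas : ∀ k, MeasurableSet (R k) := by
      intro k
      have h : R k = K ∩ ⋂ Q, {x | inner ℝ x (y Q) - cs Q ≤
          inner ℝ x (y P) - cs P + 1 / ((k : ℝ) + 1)} := by
        ext x
        simp [R]
      rw [h]
      refine hK.isClosed.measurableSet.inter (MeasurableSet.iInter fun Q => ?_)
      refine (isClosed_le ?_ ?_).measurableSet <;> fun_prop
    have hRanti : Antitone R := by
      intro k l hkl x hx
      refine ⟨hx.1, fun Q => (hx.2 Q).trans ?_⟩
      have : 1 / ((l : ℝ) + 1) ≤ 1 / ((k : ℝ) + 1) := by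
        apply one_div_le_one_div_of_le (by positivity)
        have : (k : ℝ) ≤ l := by exact_mod_cast hkl
        linarith
      linarith
    have hRinter : ⋂ k, R k = Lag K y cs P := by
      ext x
      simp only [mem_iInter]
      constructor
      · intro h
        refine ⟨(h 0).1, fun Q => ?_⟩
        have hl : Tendsto (fun k : ℕ => inner ℝ x (y P) - cs P + 1 / ((k : ℝ) + 1)) atTop
            (𝓝 (inner ℝ x (y P) - cs P + 0)) :=
          tendsto_const_nhds.add tendsto_one_div_add_atTop_nhds_zero_nat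
        rw [add_zero] at hl
        exact ge_of_tendsto' hl (fun k => (h k).2 Q)
      · intro h k
        refine ⟨h.1, fun Q => (h.2 Q).trans ?_⟩
        have : 0 ≤ 1 / ((k : ℝ) + 1) := by positivity
        linarith
    have hk : ∀ k, m P ≤ (unif K (R k)).toReal := by
      intro k
      have hε : 0 < 1 / (2 * ((k : ℝ) + 1)) := by positivity
      have hev : ∀ᶠ n in atTop, ∀ Q, |b (φ n) Q - cs Q| < 1 / (2 * ((k : ℝ) + 1)) := by
        rw [eventually_all]
        intro Q
        have := (Metric.tendsto_nhds.1 (hlimP Q)) _ hε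
        simpa [Real.dist_eq] using this
      refine le_of_tendsto (hzlim P) (hev.mono fun n hn => ?_)
      rw [← hcn, ← hLagb]
      refine ENNReal.toReal_mono (measure_ne_top _ _) (measure_mono ?_)
      intro x hx
      refine ⟨hx.1, fun Q => ?_⟩
      have h1 := hx.2 Q
      have h2 := abs_lt.1 (hn Q)
      have h3 := abs_lt.1 (hn P)
      have h4 : 1 / ((k : ℝ) + 1) = 1 / (2 * ((k : ℝ) + 1)) + 1 / (2 * ((k : ℝ) + 1)) := by
        field_simp
        ring
      rw [h4]
      linarith [h2.1, h2.2, h3.1, h3.2]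
    have ht := tendsto_measure_iInter_atTop (μ := unif K)
      (fun k => (hRmeas k).nullMeasurableSet) hRanti ⟨0, measure_ne_top _ _⟩
    rw [hRinter] at ht
    have ht2 := (ENNReal.tendsto_toReal (measure_ne_top (unif K) (Lag K y cs P))).comp ht
    exact ge_of_tendsto' ht2 hk
  have hs1 : ∑ P, m P = 1 := by
    rw [← sum_measure_Lag hK hvol y hy c]
    exact Finset.sum_congr rfl fun P _ => (hc P).symm
  have hs2 := sum_measure_Lag hK hvol y hy cs
  have hmeq : ∀ P, m P = (unif K (Lag K y cs P)).toReal := by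
    have := (Finset.sum_eq_sum_iff_of_le (s := Finset.univ) (fun P _ => hmass P)).1
      (hs1.trans hs2.symm)
    exact fun P => this P (Finset.mem_univ P)
  obtain ⟨k, hk⟩ := weights_unique K hK hconv hint y hy c cs
    (fun P => by rw [hc]; exact hm P) (fun P => by rw [hc, ← hmeq])
  have hsumeq : ∀ n, ∑ P, a P * cn (ns (φ n)) P = ∑ P, a P * b (φ n) P := by
    intro n
    simp only [b, mul_sub, Finset.sum_sub_distrib, ← Finset.sum_mul, ha, zero_mul, sub_zero]
  have hfin : ∑ P, a P * c P = ∑ P, a P * cs P := by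
    simp only [hk, mul_add, Finset.sum_add_distrib, ← Finset.sum_mul, ha, zero_mul, add_zero]
  rw [hfin]
  simp only [hsumeq]
  exact tendsto_finsetSum _ fun P _ => (hlimP P).const_mul (a P)

end Vale.Agent.Lib.P074
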