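import Vale.Agent.Lib.P074.FM
import Vale.Agent.Lib.P074.SemiDisc
import Vale.Agent.Lib.P074.WeightsCont
import Vale.Agent.Lib.P074.Chain

/-!
Lipschitz stability of the weights: same masses `m`, sites moved from `y0` to `y1`.

Notation: `ρ = unif K`; for injective sites `y` and weights `c` put
`Val y c = ∑ P, ∫ x in Lag K y c P, ⟪x, y P⟫ ∂ρ`  and  `Mom y c P = ∫ x in Lag K y c P, x ∂ρ`.

(A) `val_mono` (change of sites; both tessellations have the same masses `z`):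
   `∑ P, ∫ x in Lag K y c P, ⟪x, y' P⟫ ≤ Val y' c'`.
   [On `Lag K y' c' Q`: `⟪x, y' P⟫ - c' P ≤ ⟪x, y' Q⟫ - c' Q`.  So with `φ' x = ⟪x, y' Q⟫ - c' Q` on the cell `Q`
    of `(y', c')`, `∫ φ' = Val y' c' - ∑ z c'`, and `∫ φ' = ∑_P ∫_{Lag K y c P} φ' ≥ ∑_P ∫_{Lag K y c P} ⟪x, y' P⟫ - ∑ z c'`.]
   Consequences: `Val y c` does not depend on the choice of the weights `c` for `(y, z)`; and
   `Val y' c' - Val y c ≥ ∑ P, ⟪Mom y c P, y' P - y P⟫`.
(B) `val_mass` (same sites `y`; `c` has masses `z`, `c~` has masses `z~`):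
   `Val y c~ ≤ Val y c + ∑ P, (z~ P - z P) * c P`.   [same computation]
(C) Main argument.  `e P = y1 P - y0 P`, `ys s P = y0 P + s • e P`, `B = {s | ¬ Injective (ys s)}` is finite (each pair
   `P ≠ Q` collides for at most one `s`, because `y0 P ≠ y0 Q`), `0, 1 ∉ B`; `ys s P ∈ closedBall 0 RY` for `s ∈ [0,1]`.
   `k = ∑ m (c1 - c0)`, `ζ P = c1 P - c0 P - k`, so `∑ m ζ = 0`; `‖ζ‖² = ∑ m ζ²`, `W² = ∑ m ‖e‖²`.  If `ζ = 0` done.
   Let `A = max |ζ P| > 0`, `τ n = 1 / (2 A (n+1))`, `zn n P = m P * (1 - τ n * ζ P) ∈ [m P / 2, 2 m P]`, `∑ zn n = 1`.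
   For `s ∈ [0,1] \ B` choose weights `cm s` for `(ys s, m)` and `cz n s` for `(ys s, zn n)` (`exists_weights`, `Y = closedBall 0 RY`).
   `F1 s = Val (ys s) (cm s)`, `g1 s = ∑ ⟪Mom (ys s) (cm s) P, e P⟫`; `F2, g2` likewise with `cz n`.
   By (A) the hypotheses of `chain_bound` hold; by `first_moment_ineq` (with `c0 := cm s`, `c1 := cz n s`, `e := -e`)
   `g1 s - g2 s ≤ 700 R * sqrt (∑ (zn - m)²/m) * W = 700 R * τ n * ‖ζ‖ * W`.  So
   `(F1 1 - F2 1) - (F1 0 - F2 0) ≤ 700 R τ n ‖ζ‖ W`.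
   By (B) at `s = 1` (and (A): `F1 1 = Val y1 c1`): `F2 1 ≤ F1 1 - τ n ∑ m ζ c1`.
   By (B) at `s = 0`: `F1 0 ≤ F2 0 + τ n ∑ m ζ (cz n 0)`.
   Hence `∑ m ζ c1 - ∑ m ζ (cz n 0) ≤ 700 R ‖ζ‖ W` for all `n`; by `weights_tendsto` (`a = m ζ`)
   `∑ m ζ (cz n 0) → ∑ m ζ c0`.  So `‖ζ‖² = ∑ m ζ (c1 - c0) ≤ 700 R ‖ζ‖ W`.
-/

open MeasureTheory Set Filter
open scoped ENNReal NNReal Topology

namespace Vale.Agent.Lib.P074

variable {d : ℕ} {ι : Type*} [Fintype ι]

lemma ws_integrable {K : Set (E d)} (hK : IsCompact K) (hvol : volume K ≠ 0)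
    {F : Type*} [NormedAddCommGroup F] (f : E d → F) (hf : Continuous f) :
    Integrable f (unif K) := by
  unfold unif
  exact (hf.continuousOn.integrableOn_compact hK).smul_measure (ENNReal.inv_ne_top.mpr hvol)

lemma ws_split [Nonempty ι] {K : Set (E d)} (hK : IsCompact K)
    (y : ι → E d) (hy : Function.Injective y) (c : ι → ℝ) (A : Set (E d)) (hA : MeasurableSet A)
    (f : E d → ℝ) (hf : Integrable f (unif K)) :
    ∫ x in A, f x ∂(unif K) = ∑ Q, ∫ x in A ∩ Lag K y c Q, f x ∂(unif K) := by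
  rw [← integral_indicator hA, integral_eq_sum_Lag hK y hy c _ (hf.indicator hA)]
  refine Finset.sum_congr rfl fun Q _ => ?_
  rw [setIntegral_indicator hA, inter_comm]

/-- the common core of `val_mono` and `val_mass` -/
lemma ws_core (K : Set (E d)) (hK : IsCompact K) (hvol : volume K ≠ 0)
    (y y' : ι → E d) (hy : Function.Injective y) (hy' : Function.Injective y') (c c' : ι → ℝ) :
    ∑ P, ∫ x in Lag K y c P, (inner ℝ x (y' P) - c' P) ∂(unif K) ≤
      ∑ P, ∫ x in Lag K y' c' P, (inner ℝ x (y' P) - c' P) ∂(unif K) := by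
  rcases isEmpty_or_nonempty ι with hι | hι
  · simp
  have hi : ∀ P, Integrable (fun x : E d => inner ℝ x (y' P) - c' P) (unif K) := fun P =>
    ws_integrable hK hvol _ (by fun_prop)
  calc ∑ P, ∫ x in Lag K y c P, (inner ℝ x (y' P) - c' P) ∂(unif K)
      = ∑ P, ∑ Q, ∫ x in Lag K y c P ∩ Lag K y' c' Q, (inner ℝ x (y' P) - c' P) ∂(unif K) :=
        Finset.sum_congr rfl fun P _ =>
          ws_split hK y' hy' c' _ (measurableSet_Lag hK y c P) _ (hi P)
    _ ≤ ∑ P, ∑ Q, ∫ x in Lag K y c P ∩ Lag K y' c' Q, (inner ℝ x (y' Q) - c' Q) ∂(unif K) := by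
        refine Finset.sum_le_sum fun P _ => Finset.sum_le_sum fun Q _ => ?_
        refine setIntegral_mono_on (hi P).integrableOn (hi Q).integrableOn
          ((measurableSet_Lag hK y c P).inter (measurableSet_Lag hK y' c' Q)) ?_
        intro x hx
        exact hx.2.2 P
    _ = ∑ Q, ∑ P, ∫ x in Lag K y' c' Q ∩ Lag K y c P, (inner ℝ x (y' Q) - c' Q) ∂(unif K) := by
        rw [Finset.sum_comm]
        refine Finset.sum_congr rfl fun Q _ => Finset.sum_congr rfl fun P _ => ?_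
        rw [inter_comm]
    _ = ∑ Q, ∫ x in Lag K y' c' Q, (inner ℝ x (y' Q) - c' Q) ∂(unif K) :=
        Finset.sum_congr rfl fun Q _ =>
          (ws_split hK y hy c _ (measurableSet_Lag hK y' c' Q) _ (hi Q)).symm

lemma ws_int_sub (K : Set (E d)) (hK : IsCompact K) (hvol : volume K ≠ 0) (A : Set (E d))
    (v : E d) (a : ℝ) :
    ∫ x in A, (inner ℝ x v - a) ∂(unif K) =
      (∫ x in A, inner ℝ x v ∂(unif K)) - (unif K A).toReal * a := by
  have := isProbabilityMeasure_unif hvol hK.measure_lt_top.ne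
  rw [integral_sub (ws_integrable hK hvol _ (by fun_prop)).integrableOn
    (integrable_const _), setIntegral_const]
  simp [Measure.real]

theorem val_mono (K : Set (E d)) (hK : IsCompact K) (hvol : volume K ≠ 0)
    (y y' : ι → E d) (hy : Function.Injective y) (hy' : Function.Injective y') (c c' : ι → ℝ)
    (hz : ∀ P, (unif K (Lag K y c P)).toReal = (unif K (Lag K y' c' P)).toReal) :
    ∑ P, ∫ x in Lag K y c P, inner ℝ x (y' P) ∂(unif K) ≤
      ∑ P, ∫ x in Lag K y' c' P, inner ℝ x (y' P) ∂(unif K) := by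
  have h := ws_core K hK hvol y y' hy hy' c c'
  simp only [ws_int_sub K hK hvol, Finset.sum_sub_distrib, hz] at h
  linarith

theorem val_mass (K : Set (E d)) (hK : IsCompact K) (hvol : volume K ≠ 0)
    (y : ι → E d) (hy : Function.Injective y) (c c' : ι → ℝ) :
    ∑ P, ∫ x in Lag K y c' P, inner ℝ x (y P) ∂(unif K) ≤
      ∑ P, ∫ x in Lag K y c P, inner ℝ x (y P) ∂(unif K) +
        ∑ P, ((unif K (Lag K y c' P)).toReal - (unif K (Lag K y c P)).toReal) * c P := by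
  have h := ws_core K hK hvol y y hy hy c' c
  simp only [ws_int_sub K hK hvol, Finset.sum_sub_distrib] at h
  simp only [sub_mul, Finset.sum_sub_distrib]
  linarith

lemma ws_inner_int (K : Set (E d)) (hK : IsCompact K) (hvol : volume K ≠ 0) (A : Set (E d))
    (v : E d) :
    ∫ x in A, inner ℝ x v ∂(unif K) = inner ℝ (∫ x in A, x ∂(unif K)) v := by
  have h := integral_inner (μ := (unif K).restrict A) (f := fun x : E d => x) (𝕜 := ℝ)
    (ws_integrable hK hvol _ continuous_id).integrableOn v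
  rw [real_inner_comm, ← h]
  simp_rw [real_inner_comm]

/-- sub-gradient inequality for the value along a motion of the sites -/
lemma ws_subgrad (K : Set (E d)) (hK : IsCompact K) (hvol : volume K ≠ 0)
    (y y' e : ι → E d) (r : ℝ) (hyy : ∀ P, y' P = y P + r • e P)
    (hy : Function.Injective y) (hy' : Function.Injective y') (c c' : ι → ℝ)
    (hz : ∀ P, (unif K (Lag K y c P)).toReal = (unif K (Lag K y' c' P)).toReal) :
    (∑ P, ∫ x in Lag K y c P, inner ℝ x (e P) ∂(unif K)) * r ≤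
      (∑ P, ∫ x in Lag K y' c' P, inner ℝ x (y' P) ∂(unif K)) -
        ∑ P, ∫ x in Lag K y c P, inner ℝ x (y P) ∂(unif K) := by
  have h := val_mono K hK hvol y y' hy hy' c c' hz
  have e1 : ∀ P, ∫ x in Lag K y c P, inner ℝ x (y' P) ∂(unif K) =
      (∫ x in Lag K y c P, inner ℝ x (y P) ∂(unif K)) +
        r * ∫ x in Lag K y c P, inner ℝ x (e P) ∂(unif K) := by
    intro P
    rw [ws_inner_int K hK hvol, ws_inner_int K hK hvol, ws_inner_int K hK hvol, hyy,
      inner_add_right, inner_smul_right]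
  simp only [e1, Finset.sum_add_distrib, ← Finset.mul_sum] at h
  linarith

lemma ws_gr_diff (K : Set (E d)) (hK : IsCompact K) (hconv : Convex ℝ K)
    (hvol : volume K ≠ 0) (R : ℝ) (hR : 0 < R) (hKb : ∀ x ∈ K, ‖x‖ ≤ R)
    (y : ι → E d) (hy : Function.Injective y) (c0 c1 : ι → ℝ) (e : ι → E d)
    (hpos : ∀ P, 0 < (unif K (Lag K y c0 P)).toReal)
    (hcmp : ∀ P, (unif K (Lag K y c0 P)).toReal / 2 ≤ (unif K (Lag K y c1 P)).toReal ∧
      (unif K (Lag K y c1 P)).toReal ≤ 2 * (unif K (Lag K y c0 P)).toReal) :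
    (∑ P, ∫ x in Lag K y c0 P, inner ℝ x (e P) ∂(unif K)) -
        ∑ P, ∫ x in Lag K y c1 P, inner ℝ x (e P) ∂(unif K) ≤
      700 * R *
        Real.sqrt (∑ P, ((unif K (Lag K y c1 P)).toReal - (unif K (Lag K y c0 P)).toReal) ^ 2 /
          (unif K (Lag K y c0 P)).toReal) *
        Real.sqrt (∑ P, (unif K (Lag K y c0 P)).toReal * ‖e P‖ ^ 2) := by
  have h := first_moment_ineq K hK hconv hvol R hR hKb y hy c0 c1 (fun P => - e P) hpos hcmp
  simp only [norm_neg] at h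
  refine le_trans (le_of_eq ?_) h
  rw [← Finset.sum_sub_distrib]
  refine Finset.sum_congr rfl fun P _ => ?_
  rw [inner_neg_right, inner_sub_left, ws_inner_int K hK hvol, ws_inner_int K hK hvol]
  ring

lemma ws_finite_bad (y0 e : ι → E d) (hy0 : Function.Injective y0) :
    {s : ℝ | ¬ Function.Injective (fun P => y0 P + s • e P)}.Finite := by
  have hsub : {s : ℝ | ¬ Function.Injective (fun P => y0 P + s • e P)} ⊆
      ⋃ p : ι × ι, {s : ℝ | p.1 ≠ p.2 ∧ y0 p.1 + s • e p.1 = y0 p.2 + s • e p.2} := by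
    intro s hs
    simp only [Set.mem_ofPred_eq, Function.Injective] at hs
    push Not at hs
    obtain ⟨P, Q, h1, h2⟩ := hs
    exact mem_iUnion.2 ⟨(P, Q), h2, h1⟩
  refine Set.Finite.subset (Set.finite_iUnion fun p => Set.Subsingleton.finite ?_) hsub
  rintro s ⟨hne, h1⟩ s' ⟨-, h2⟩
  by_contra hss
  have h3 : (s - s') • (e p.1 - e p.2) = 0 := by
    linear_combination (norm := module) h1 - h2
  rcases smul_eq_zero.1 h3 with h4 | h4
  · exact hss (sub_eq_zero.1 h4)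
  · rw [sub_eq_zero.1 h4] at h1
    exact hne (hy0 (add_right_cancel h1))

lemma ws_step (K : Set (E d)) (hK : IsCompact K) (hconv : Convex ℝ K)
    (hvol : volume K ≠ 0) (RK RY : ℝ≥0) (hRK : 0 < RK) (hKb : ∀ x ∈ K, ‖x‖ ≤ RK)
    (y0 y1 : ι → E d) (hy0 : Function.Injective y0) (hy1 : Function.Injective y1)
    (hb0 : ∀ P, ‖y0 P‖ ≤ RY) (hb1 : ∀ P, ‖y1 P‖ ≤ RY)
    (m : ι → ℝ) (hm : ∀ P, 0 < m P) (hsum : ∑ P, m P = 1) (c1 : ι → ℝ)
    (h1 : ∀ P, (unif K (Lag K y1 c1 P)).toReal = m P)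
    (ζ : ι → ℝ) (hζ : ∑ P, m P * ζ P = 0) (τ : ℝ) (hτ : 0 < τ)
    (hτζ : ∀ P, |τ * ζ P| ≤ 1 / 2) :
    ∃ cz : ι → ℝ, (∀ P, (unif K (Lag K y0 cz P)).toReal = m P * (1 - τ * ζ P)) ∧
      (∀ P Q, |cz P - cz Q| ≤ RK * ‖y0 P - y0 Q‖) ∧
      ∑ P, m P * ζ P * c1 P - ∑ P, m P * ζ P * cz P ≤
        700 * RK * Real.sqrt (∑ P, m P * ζ P ^ 2) *
          Real.sqrt (∑ P, m P * ‖y1 P - y0 P‖ ^ 2) := by
  set e : ι → E d := fun P => y1 P - y0 P with he
  set ys : ℝ → ι → E d := fun s P => y0 P + s • e P with hys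
  set B : Set ℝ := {s | ¬ Function.Injective (ys s)} with hB
  have hys0 : ys 0 = y0 := by funext P; simp [hys]
  have hys1 : ys 1 = y1 := by funext P; simp [hys, he]
  have hBfin : B.Finite := ws_finite_bad y0 e hy0
  have h0B : (0 : ℝ) ∉ B := by
    simp only [hB, Set.mem_ofPred_eq, not_not, hys0]; exact hy0
  have h1B : (1 : ℝ) ∉ B := by
    simp only [hB, Set.mem_ofPred_eq, not_not, hys1]; exact hy1
  set z : ι → ℝ := fun P => m P * (1 - τ * ζ P) with hz
  have hzlo : ∀ P, m P / 2 ≤ z P := by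
    intro P
    have := (abs_le.1 (hτζ P)).2
    have hmP := hm P
    simp only [hz]
    nlinarith
  have hzhi : ∀ P, z P ≤ 2 * m P := by
    intro P
    have := (abs_le.1 (hτζ P)).1
    have hmP := hm P
    simp only [hz]
    nlinarith
  have hzpos : ∀ P, 0 < z P := fun P => lt_of_lt_of_le (half_pos (hm P)) (hzlo P)
  have hzsum : ∑ P, z P = 1 := by
    have : ∀ P, z P = m P - τ * (m P * ζ P) := fun P => by simp only [hz]; ring
    simp only [this, Finset.sum_sub_distrib, ← Finset.mul_sum, hζ, hsum]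
    ring
  have hball : ∀ s ∈ Icc (0 : ℝ) 1, ∀ P, ys s P ∈ Metric.closedBall (0 : E d) RY := by
    intro s hs P
    have hc := (convex_closedBall (0 : E d) (RY : ℝ))
      (show y0 P ∈ Metric.closedBall (0 : E d) RY by simpa using hb0 P)
      (show y1 P ∈ Metric.closedBall (0 : E d) RY by simpa using hb1 P)
      (show 0 ≤ 1 - s by linarith [hs.2]) hs.1 (by ring)
    have : ys s P = (1 - s) • y0 P + s • y1 P := by
      simp only [hys, he]; module
    rw [this]; exact hc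
  have hYb : ∀ y ∈ Metric.closedBall (0 : E d) RY, ‖y‖ ≤ RY := fun y hy => by simpa using hy
  have exm : ∀ s, s ∈ Icc (0 : ℝ) 1 \ B → ∃ c : ι → ℝ,
      (∀ P, (unif K (Lag K (ys s) c P)).toReal = m P) ∧
        ∀ P Q, |c P - c Q| ≤ RK * ‖ys s P - ys s Q‖ := fun s hs =>
    exists_weights K (Metric.closedBall (0 : E d) RY) hK hvol (isCompact_closedBall _ _) RK RY
      hKb hYb (ys s) (not_not.mp hs.2) (hball s hs.1) m hm hsum
  have exz : ∀ s, s ∈ Icc (0 : ℝ) 1 \ B → ∃ c : ι → ℝ,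
      (∀ P, (unif K (Lag K (ys s) c P)).toReal = z P) ∧
        ∀ P Q, |c P - c Q| ≤ RK * ‖ys s P - ys s Q‖ := fun s hs =>
    exists_weights K (Metric.closedBall (0 : E d) RY) hK hvol (isCompact_closedBall _ _) RK RY
      hKb hYb (ys s) (not_not.mp hs.2) (hball s hs.1) z hzpos hzsum
  choose! cm hcm using exm
  choose! cz hcz using exz
  set N2 := ∑ P, m P * ζ P ^ 2 with hN2
  set W2 := ∑ P, m P * ‖e P‖ ^ 2 with hW2
  have m0 : (0 : ℝ) ∈ Icc (0 : ℝ) 1 \ B := ⟨⟨le_rfl, zero_le_one⟩, h0B⟩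
  have m1 : (1 : ℝ) ∈ Icc (0 : ℝ) 1 \ B := ⟨⟨zero_le_one, le_rfl⟩, h1B⟩
  have hyy : ∀ s s' : ℝ, ∀ P, ys s' P = ys s P + (s' - s) • e P := by
    intro s s' P
    simp only [hys]; module
  have CB := chain_bound
    (fun s => ∑ P, ∫ x in Lag K (ys s) (cm s) P, inner ℝ x (ys s P) ∂(unif K))
    (fun s => ∑ P, ∫ x in Lag K (ys s) (cz s) P, inner ℝ x (ys s P) ∂(unif K))
    (fun s => ∑ P, ∫ x in Lag K (ys s) (cm s) P, inner ℝ x (e P) ∂(unif K))
    (fun s => ∑ P, ∫ x in Lag K (ys s) (cz s) P, inner ℝ x (e P) ∂(unif K))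
    B hBfin h0B h1B (700 * RK * (τ * Real.sqrt N2) * Real.sqrt W2)
    (fun s hs s' hs' => ws_subgrad K hK hvol (ys s) (ys s') e (s' - s) (hyy s s')
      (not_not.mp hs.2) (not_not.mp hs'.2) (cm s) (cm s')
      (fun P => by rw [(hcm s hs).1 P, (hcm s' hs').1 P]))
    (fun s hs s' hs' => ws_subgrad K hK hvol (ys s) (ys s') e (s' - s) (hyy s s')
      (not_not.mp hs.2) (not_not.mp hs'.2) (cz s) (cz s')
      (fun P => by rw [(hcz s hs).1 P, (hcz s' hs').1 P]))
    (by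
      intro s hs
      have h := ws_gr_diff K hK hconv hvol RK hRK hKb (ys s) (not_not.mp hs.2) (cm s) (cz s) e
        (fun P => by rw [(hcm s hs).1 P]; exact hm P)
        (fun P => by rw [(hcm s hs).1 P, (hcz s hs).1 P]; exact ⟨hzlo P, hzhi P⟩)
      simp only [(hcm s hs).1, (hcz s hs).1] at h
      have e1 : ∑ P, (z P - m P) ^ 2 / m P = τ ^ 2 * N2 := by
        rw [hN2, Finset.mul_sum]
        refine Finset.sum_congr rfl fun P _ => ?_
        have := (hm P).ne'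
        simp only [hz]
        field_simp
        ring
      rw [e1, Real.sqrt_mul (sq_nonneg τ), Real.sqrt_sq hτ.le] at h
      exact h)
  simp only [hys0, hys1] at CB
  have hcm0 := hcm 0 m0
  have hcm1 := hcm 1 m1
  have hcz0 := hcz 0 m0
  have hcz1 := hcz 1 m1
  rw [hys0] at hcm0 hcz0
  rw [hys1] at hcm1 hcz1
  refine ⟨cz 0, hcz0.1, hcz0.2, ?_⟩
  have B1 := val_mass K hK hvol y1 hy1 c1 (cz 1)
  have A1 := val_mono K hK hvol y1 y1 hy1 hy1 c1 (cm 1) (fun P => by rw [h1 P, hcm1.1 P])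
  have B0 := val_mass K hK hvol y0 hy0 (cz 0) (cm 0)
  simp only [h1, hcz1.1] at B1
  simp only [hcm0.1, hcz0.1] at B0
  have e2 : ∑ P, (z P - m P) * c1 P = - (τ * ∑ P, m P * ζ P * c1 P) := by
    rw [Finset.mul_sum, ← Finset.sum_neg_distrib]
    refine Finset.sum_congr rfl fun P _ => ?_
    simp only [hz]; ring
  have e3 : ∑ P, (m P - z P) * cz 0 P = τ * ∑ P, m P * ζ P * cz 0 P := by
    rw [Finset.mul_sum]
    refine Finset.sum_congr rfl fun P _ => ?_
    simp only [hz]; ring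
  rw [e2] at B1
  rw [e3] at B0
  have fin : τ * (∑ P, m P * ζ P * c1 P - ∑ P, m P * ζ P * cz 0 P) ≤
      τ * (700 * RK * Real.sqrt N2 * Real.sqrt W2) := by
    have : τ * (700 * RK * Real.sqrt N2 * Real.sqrt W2) =
      700 * RK * (τ * Real.sqrt N2) * Real.sqrt W2 := by ring
    rw [this]
    linarith
  exact le_of_mul_le_mul_left fin hτ

theorem weights_stability (K : Set (E d)) (hK : IsCompact K) (hconv : Convex ℝ K)
    (hint : (interior K).Nonempty) (RK RY : ℝ≥0) (hRK : 0 < RK) (hKb : ∀ x ∈ K, ‖x‖ ≤ RK)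
    (y0 y1 : ι → E d) (hy0 : Function.Injective y0) (hy1 : Function.Injective y1)
    (hb0 : ∀ P, ‖y0 P‖ ≤ RY) (hb1 : ∀ P, ‖y1 P‖ ≤ RY)
    (m : ι → ℝ) (hm : ∀ P, 0 < m P) (hsum : ∑ P, m P = 1) (c0 c1 : ι → ℝ)
    (h0 : ∀ P, (unif K (Lag K y0 c0 P)).toReal = m P)
    (h1 : ∀ P, (unif K (Lag K y1 c1 P)).toReal = m P) :
    ∃ k : ℝ, ∑ P, m P * (c1 P - c0 P - k) ^ 2 ≤
      (700 * RK) ^ 2 * ∑ P, m P * ‖y1 P - y0 P‖ ^ 2 := by
  have hvol : volume K ≠ 0 := by
    have := (isOpen_interior (s := K)).measure_pos volume hint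
    exact (lt_of_lt_of_le this (measure_mono interior_subset)).ne'
  set k := ∑ P, m P * (c1 P - c0 P) with hk
  set ζ : ι → ℝ := fun P => c1 P - c0 P - k with hζdef
  have hζ : ∑ P, m P * ζ P = 0 := by
    have : ∀ P, m P * ζ P = m P * (c1 P - c0 P) - k * m P := fun P => by
      simp only [hζdef]; ring
    simp only [this, Finset.sum_sub_distrib, ← Finset.mul_sum, hsum]
    rw [← hk]; ring
  refine ⟨k, ?_⟩
  set A := 1 + ∑ P, |ζ P| with hA
  have hsumnn : 0 ≤ ∑ P, |ζ P| := Finset.sum_nonneg fun P _ => abs_nonneg _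
  have hApos : 0 < A := by linarith
  have hζA : ∀ P, |ζ P| ≤ A := by
    intro P
    have := Finset.single_le_sum (f := fun P => |ζ P|) (fun Q _ => abs_nonneg (ζ Q))
      (Finset.mem_univ P)
    linarith
  set τ : ℕ → ℝ := fun n => 1 / (2 * A * (n + 1)) with hτdef
  have hτpos : ∀ n, 0 < τ n := fun n => by simp only [hτdef]; positivity
  have hτζ : ∀ n P, |τ n * ζ P| ≤ 1 / 2 := by
    intro n P
    rw [abs_mul, abs_of_pos (hτpos n)]
    simp only [hτdef]
    rw [div_mul_eq_mul_div, one_mul, div_le_iff₀ (by positivity)]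
    have h2 := hζA P
    have h3 : (0 : ℝ) ≤ n := Nat.cast_nonneg n
    nlinarith
  have step := fun n => ws_step K hK hconv hvol RK RY hRK hKb y0 y1 hy0 hy1 hb0 hb1 m hm hsum c1
    h1 ζ hζ (τ n) (hτpos n) (hτζ n)
  choose cz hcz1 hcz2 hcz3 using step
  have hτlim : Tendsto τ atTop (𝓝 0) := by
    have h1 : Tendsto (fun n : ℕ => 1 / ((n : ℝ) + 1)) atTop (𝓝 0) :=
      tendsto_one_div_add_atTop_nhds_zero_nat
    have h2 := h1.const_mul (1 / (2 * A))
    rw [mul_zero] at h2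
    refine h2.congr fun n => ?_
    simp only [hτdef]
    field_simp
  have hzlim : ∀ P, Tendsto (fun n => m P * (1 - τ n * ζ P)) atTop (𝓝 (m P)) := by
    intro P
    have h2 := ((tendsto_const_nhds (x := (1 : ℝ))).sub (hτlim.mul_const (ζ P))).const_mul (m P)
    simpa using h2
  have T := weights_tendsto K hK hconv hint y0 hy0 m hm c0 h0
    (fun n P => m P * (1 - τ n * ζ P)) cz hcz1 hzlim RK hcz2 (fun P => m P * ζ P) hζ
  have lim := le_of_tendsto
    ((tendsto_const_nhds (x := ∑ P, m P * ζ P * c1 P)).sub T) (Eventually.of_forall hcz3)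
  set N2 := ∑ P, m P * ζ P ^ 2 with hN2
  set W2 := ∑ P, m P * ‖y1 P - y0 P‖ ^ 2 with hW2
  have hN2nn : 0 ≤ N2 := Finset.sum_nonneg fun P _ => mul_nonneg (hm P).le (sq_nonneg _)
  have hW2nn : 0 ≤ W2 := Finset.sum_nonneg fun P _ => mul_nonneg (hm P).le (sq_nonneg _)
  have e1 : ∑ P, m P * ζ P * c1 P - ∑ P, m P * ζ P * c0 P = N2 := by
    have : ∀ P, m P * ζ P * c1 P - m P * ζ P * c0 P = m P * ζ P ^ 2 + k * (m P * ζ P) := by
      intro P
      have : c1 P - c0 P = ζ P + k := by simp only [hζdef]; ring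
      calc m P * ζ P * c1 P - m P * ζ P * c0 P = m P * ζ P * (c1 P - c0 P) := by ring
        _ = _ := by rw [this]; ring
    rw [← Finset.sum_sub_distrib]
    simp only [this, Finset.sum_add_distrib, ← Finset.mul_sum, hζ]
    rw [← hN2]; ring
  rw [e1] at lim
  set a := Real.sqrt N2 with ha
  set b := Real.sqrt W2 with hb
  have ha2 : a ^ 2 = N2 := Real.sq_sqrt hN2nn
  have hb2 : b ^ 2 = W2 := Real.sq_sqrt hW2nn
  have ha0 : 0 ≤ a := Real.sqrt_nonneg _
  have hb0' : 0 ≤ b := Real.sqrt_nonneg _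
  have hC : (0 : ℝ) ≤ 700 * RK := by positivity
  rw [← ha2, ← hb2]
  rw [← ha2] at lim
  rcases ha0.eq_or_lt with h | h
  · rw [← h]
    have : 0 ≤ (700 * (RK : ℝ)) ^ 2 * b ^ 2 := by positivity
    simpa using this
  · have h2 : a ≤ 700 * RK * b := by
      have h3 : a * a ≤ a * (700 * RK * b) := by nlinarith
      exact le_of_mul_le_mul_left h3 h
    rw [← mul_pow]
    exact pow_le_pow_left₀ ha0 h2 2

end Vale.Agent.Lib.P074
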